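/-
R130 task K1: the swap `Rsw`, cubes and product bumps.

For `exists_bump`: take `δ` with `δ * √(n+2) < r` (e.g. `δ = r / (n+3)`), `φ` the `ContDiffBump` on `ℝ` centred
at `0` with `rIn = δ/2`, `rOut = δ` (support `= ball 0 δ = Ioo (-δ) δ`, positive there), `I := ∫⁻ ofReal ((∏ φ (x i))^2)`
which is `≠ 0` (continuous, positive at `0`) and `≠ ⊤` (bounded, compact support), and `c₀ := 1/√(6 * I.toReal)`.
`tsupport ⊆ {x | ∀ i, |x i| ≤ δ} ⊆ ball 0 r`.
-/
import Crest.Agent.R130.Coord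

set_option autoImplicit false
open MeasureTheory Set Metric
open scoped ENNReal ContDiff RealInnerProductSpace

namespace Crest.Agent.R130

theorem Rsw_apply (n : ℕ) (x : EE n) (i : Fin (n + 2)) :
    Rsw n x i = x (Equiv.swap (0 : Fin (n + 2)) 1 i) := by
  simp [Rsw, LinearIsometryEquiv.piLpCongrLeft_apply, Equiv.piCongrLeft'_apply]

theorem Rsw_invol (n : ℕ) (x : EE n) : Rsw n (Rsw n x) = x := by
  ext i
  rw [Rsw_apply, Rsw_apply, Equiv.swap_apply_self]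

theorem e1_norm (n : ℕ) : ‖e1 n‖ = 1 := by
  simp [e1]

theorem e1_orth (n : ℕ) : ⟪e1 n, Rsw n (e1 n)⟫ = 0 := by
  rw [e1, EuclideanSpace.inner_single_left, Rsw_apply]
  simp

theorem continuous_coord (n : ℕ) (i : Fin (n + 2)) : Continuous (fun x : EE n => x i) :=
  (EuclideanSpace.proj i : EE n →L[ℝ] ℝ).continuous

theorem cube_open (n : ℕ) (δ : ℝ) : IsOpen (cube n δ) := by
  have : cube n δ = ⋂ i, (fun x : EE n => x i) ⁻¹' Ioo (-δ) δ := by
    ext x
    simp [cube]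
  rw [this]
  exact isOpen_iInter_of_finite (fun i => isOpen_Ioo.preimage (continuous_coord n i))

theorem cube_meas (n : ℕ) (δ : ℝ) : MeasurableSet (cube n δ) :=
  (cube_open n δ).measurableSet

theorem cube_R (n : ℕ) (δ : ℝ) (x : EE n) (hx : x ∈ cube n δ) : Rsw n x ∈ cube n δ := by
  intro i
  rw [Rsw_apply]
  exact hx _

theorem bumpF_smooth (n : ℕ) (φ : ℝ → ℝ) (hφ : ContDiff ℝ ∞ φ) (c₀ : ℝ) :
    ContDiff ℝ ∞ (bumpF n φ c₀) := by
  unfold bumpF
  refine contDiff_const.mul (contDiff_prod (fun i _ => ?_))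
  exact hφ.comp (EuclideanSpace.proj i : EE n →L[ℝ] ℝ).contDiff

theorem bumpF_nonneg (n : ℕ) (φ : ℝ → ℝ) (hφ : ∀ t, 0 ≤ φ t) (c₀ : ℝ) (hc : 0 ≤ c₀) (x : EE n) :
    0 ≤ bumpF n φ c₀ x :=
  mul_nonneg hc (Finset.prod_nonneg (fun _ _ => hφ _))

theorem bumpF_zero (n : ℕ) (φ : ℝ → ℝ) (δ : ℝ) (hφ : ∀ t, t ∉ Ioo (-δ) δ → φ t = 0) (c₀ : ℝ)
    (x : EE n) (hx : x ∉ cube n δ) : bumpF n φ c₀ x = 0 := by
  have hx' : ¬ ∀ i, x i ∈ Ioo (-δ) δ := hx
  rw [not_forall] at hx'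
  obtain ⟨i, hi⟩ := hx'
  unfold bumpF
  rw [Finset.prod_eq_zero (Finset.mem_univ i) (hφ _ hi), mul_zero]

theorem bumpF_R (n : ℕ) (φ : ℝ → ℝ) (c₀ : ℝ) (x : EE n) :
    bumpF n φ c₀ (Rsw n x) = bumpF n φ c₀ x := by
  unfold bumpF
  congr 1
  simp only [Rsw_apply]
  exact Equiv.prod_comp (Equiv.swap (0 : Fin (n + 2)) 1) (fun i => φ (x i))

theorem norm_lt_of_abs_le (n : ℕ) (r : ℝ) (hr : 0 < r) (x : EE n)
    (h : ∀ i, |x i| ≤ r / ((n : ℝ) + 3)) : ‖x‖ < r := by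
  have h1 : ‖x‖ ^ 2 ≤ ((n : ℝ) + 2) * (r / ((n : ℝ) + 3)) ^ 2 := by
    rw [EuclideanSpace.norm_sq_eq]
    calc ∑ i, ‖x i‖ ^ 2 ≤ ∑ _i : Fin (n + 2), (r / ((n : ℝ) + 3)) ^ 2 := by
          refine Finset.sum_le_sum (fun i _ => ?_)
          rw [Real.norm_eq_abs]
          exact pow_le_pow_left₀ (abs_nonneg _) (h i) 2
      _ = ((n : ℝ) + 2) * (r / ((n : ℝ) + 3)) ^ 2 := by
          simp
  have h2 : ((n : ℝ) + 2) * (r / ((n : ℝ) + 3)) ^ 2 < r ^ 2 := by
    have hn : (0 : ℝ) ≤ n := Nat.cast_nonneg n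
    rw [div_pow, mul_div_assoc', div_lt_iff₀ (by positivity)]
    have h3 : 0 < r ^ 2 := by positivity
    have h4 : (n : ℝ) + 2 < ((n : ℝ) + 3) ^ 2 := by nlinarith
    calc ((n : ℝ) + 2) * r ^ 2 < ((n : ℝ) + 3) ^ 2 * r ^ 2 := mul_lt_mul_of_pos_right h4 h3
      _ = r ^ 2 * ((n : ℝ) + 3) ^ 2 := by ring
  exact lt_of_pow_lt_pow_left₀ 2 hr.le (lt_of_le_of_lt h1 h2)

theorem exists_bump (n : ℕ) (r : ℝ) (hr : 0 < r) :
    ∃ (δ : ℝ) (φ : ℝ → ℝ) (c₀ : ℝ), 0 < δ ∧ ContDiff ℝ ∞ φ ∧ (∀ t ∈ Ioo (-δ) δ, 0 < φ t) ∧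
      (∀ t, t ∉ Ioo (-δ) δ → φ t = 0) ∧ 0 < c₀ ∧ cube n δ ⊆ ball 0 r ∧
      tsupport (bumpF n φ c₀) ⊆ ball 0 r ∧ HasCompactSupport (bumpF n φ c₀) ∧
      ∫⁻ x, ENNReal.ofReal (bumpF n φ c₀ x ^ 2) = 1 / 6 := by
  have hn : (0 : ℝ) ≤ n := Nat.cast_nonneg n
  set δ : ℝ := r / ((n : ℝ) + 3) with hδ
  have hδpos : 0 < δ := by positivity
  let f : ContDiffBump (0 : ℝ) := ⟨δ / 2, δ, by positivity, by linarith⟩
  have hball : ball (0 : ℝ) δ = Ioo (-δ) δ := by
    rw [Real.ball_eq_Ioo]; simp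
  have hφs : ContDiff ℝ ∞ (f : ℝ → ℝ) := f.contDiff (n := ⊤)
  have hφpos : ∀ t ∈ Ioo (-δ) δ, 0 < f t := by
    intro t ht
    rw [← hball] at ht
    exact f.pos_of_mem_ball ht
  have hφzero : ∀ t, t ∉ Ioo (-δ) δ → f t = 0 := by
    intro t ht
    rw [← hball, mem_ball, not_lt] at ht
    exact f.zero_of_le_dist ht
  have hφnn : ∀ t, 0 ≤ f t := fun t => f.nonneg
  have hφle : ∀ t, f t ≤ 1 := fun t => f.le_one
  have hcube : cube n δ ⊆ ball 0 r := by
    intro x hx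
    rw [mem_ball_zero_iff]
    refine norm_lt_of_abs_le n r hr x (fun i => ?_)
    exact (abs_lt.2 (hx i)).le
  -- the integral
  set g : EE n → ℝ := fun x => ∏ i, f (x i) with hg
  have hgc : Continuous g := by
    have h0 := (bumpF_smooth n f hφs 1).continuous
    have h1 : bumpF n f 1 = g := by
      funext x
      simp [bumpF, hg]
    rwa [h1] at h0
  have hgm : Measurable (fun x => ENNReal.ofReal (g x ^ 2)) :=
    (hgc.pow 2).measurable.ennreal_ofReal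
  set I : ℝ≥0∞ := ∫⁻ x, ENNReal.ofReal (g x ^ 2) with hI
  have hg0 : ∀ x, x ∉ cube n δ → g x = 0 := by
    intro x hx
    have := bumpF_zero n f δ hφzero 1 x hx
    simpa [bumpF] using this
  have hg1 : ∀ x, g x ^ 2 ≤ 1 := by
    intro x
    have h0 : 0 ≤ g x := Finset.prod_nonneg (fun i _ => hφnn _)
    have h1 : g x ≤ 1 := Finset.prod_le_one (fun i _ => hφnn _) (fun i _ => hφle _)
    nlinarith
  have hItop : I ≠ ⊤ := by
    have h1 : I ≤ ∫⁻ x, (ball (0 : EE n) r).indicator (fun _ => (1 : ℝ≥0∞)) x := by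
      refine lintegral_mono (fun x => ?_)
      by_cases hx : x ∈ cube n δ
      · rw [indicator_of_mem (hcube hx)]
        exact ENNReal.ofReal_le_one.2 (hg1 x)
      · simp [hg0 x hx]
    rw [lintegral_indicator measurableSet_ball, setLIntegral_one] at h1
    exact ne_top_of_le_ne_top measure_ball_lt_top.ne h1
  have hIpos : I ≠ 0 := by
    have h1 : 0 < I := by
      rw [hI, lintegral_pos_iff_support hgm]
      refine lt_of_lt_of_le ((cube_open n δ).measure_pos volume ⟨0, fun i => ?_⟩) (measure_mono ?_)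
      · simp [hδpos]
      · intro x hx
        rw [Function.mem_support]
        have : 0 < g x := Finset.prod_pos (fun i _ => hφpos _ (hx i))
        have h2 : 0 < g x ^ 2 := by positivity
        exact (ENNReal.ofReal_pos.2 h2).ne'
    exact h1.ne'
  set a : ℝ := I.toReal with ha
  have hapos : 0 < a := ENNReal.toReal_pos hIpos hItop
  set c₀ : ℝ := 1 / Real.sqrt (6 * a) with hc₀
  have hc₀pos : 0 < c₀ := by positivity
  have hsupp : tsupport (bumpF n f c₀) ⊆ {x : EE n | ∀ i, |x i| ≤ δ} := by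
    refine closure_minimal ?_ ?_
    · intro x hx
      by_contra hcon
      apply hx
      refine bumpF_zero n f δ hφzero c₀ x (fun hxc => hcon (fun i => (abs_lt.2 (hxc i)).le))
    · have : {x : EE n | ∀ i, |x i| ≤ δ} = ⋂ i, {x : EE n | |x i| ≤ δ} := by
        ext x; simp
      rw [this]
      exact isClosed_iInter (fun i => isClosed_le (continuous_coord n i).abs continuous_const)
  have hsupp2 : tsupport (bumpF n f c₀) ⊆ ball 0 r := by
    intro x hx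
    rw [mem_ball_zero_iff]
    exact norm_lt_of_abs_le n r hr x (hsupp hx)
  refine ⟨δ, f, c₀, hδpos, hφs, hφpos, hφzero, hc₀pos, hcube, hsupp2, ?_, ?_⟩
  · exact (isCompact_closedBall (0 : EE n) r).of_isClosed_subset (isClosed_tsupport _)
      (hsupp2.trans ball_subset_closedBall)
  · have h1 : ∀ x, ENNReal.ofReal (bumpF n f c₀ x ^ 2) =
        ENNReal.ofReal (c₀ ^ 2) * ENNReal.ofReal (g x ^ 2) := by
      intro x
      rw [← ENNReal.ofReal_mul (by positivity)]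
      congr 1
      simp only [bumpF, hg]
      ring
    simp only [h1]
    rw [lintegral_const_mul _ hgm, ← hI, ← ENNReal.ofReal_toReal hItop, ← ha,
      ← ENNReal.ofReal_mul (by positivity)]
    have h2 : c₀ ^ 2 * a = 1 / 6 := by
      rw [hc₀, div_pow, one_pow, Real.sq_sqrt (by positivity)]
      field_simp
    rw [h2, ENNReal.ofReal_div_of_pos (by norm_num)]
    simp

end Crest.Agent.R130
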