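/-
R130 (S0175): concrete definitions for the construction.

Geometry: unit vector `e`; clusters around `P = e`, `Q = 0`, `S = -e` (type `true`) and around
`R e`, `0`, `-R e` (type `false`), where `R` is an involutive linear isometry with `⟪e, R e⟫ = 0`.

`Hs s v = ‖v‖^(-s)`, `gs s v = ∇ Hs`, `cR` the real three-point cost,
potentials `uP` (on the cluster at `e`), `uQ` (on the central cluster),
`G1`, `G2`: gradient of `(a,q) ↦ cR a q b - uP a - uQ q`.
-/
import Crest.Prelude.Def_MultiMarginal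

set_option autoImplicit false
open MeasureTheory Set Metric
open scoped ENNReal ContDiff RealInnerProductSpace
open Crest.AnalysisR.OT

namespace Crest.Agent.R130

section
variable {E : Type*} [NormedAddCommGroup E] [InnerProductSpace ℝ E]

/-- `H(v) = ‖v‖^(-s)` -/
noncomputable def Hs (s : ℝ) (v : E) : ℝ := ‖v‖ ^ (-s)

/-- the gradient of `Hs s`: `-s ‖v‖^(-s-2) v` -/
noncomputable def gs (s : ℝ) (v : E) : E := (-s * ‖v‖ ^ (-s - 2)) • v

/-- the derivative of `gs s` at a unit vector `e`: `w ↦ -s w + s (s+2) ⟪e,w⟫ e` -/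
noncomputable def hop (s : ℝ) (e : E) : E →L[ℝ] E :=
  (-s) • ContinuousLinearMap.id ℝ E + (s * (s + 2)) • (innerSL ℝ e).smulRight e

/-- real three-point cost -/
noncomputable def cR (s : ℝ) (a q b : E) : ℝ := Hs s (a - q) + Hs s (a - b) + Hs s (q - b)

/-- value of the potential at the outer centres -/
noncomputable def c0 (s : ℝ) : ℝ := (2:ℝ) ^ (-s) / 2

/-- `∇_a cR (e, 0, -e)` -/
noncomputable def ell (s : ℝ) (e : E) : E := gs s e + gs s ((2:ℝ) • e)

/-- potential on the cluster around `e` -/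
noncomputable def uP (s K : ℝ) (e a : E) : ℝ := c0 s + ⟪ell s e, a - e⟫ - K / 2 * ‖a - e‖ ^ 2

/-- potential on the central cluster -/
noncomputable def uQ (K : ℝ) (q : E) : ℝ := 2 - K / 2 * ‖q‖ ^ 2

/-- the function minimised in `(a,q)` for fixed `b` -/
noncomputable def Fb (s K : ℝ) (e a q b : E) : ℝ := cR s a q b - uP s K e a - uQ K q

/-- `∇_a Fb` -/
noncomputable def G1 (s K : ℝ) (e a q b : E) : E :=
  gs s (a - q) + gs s (a - b) - ell s e + K • (a - e)

/-- `∇_q Fb` -/
noncomputable def G2 (s K : ℝ) (a q b : E) : E := -gs s (a - q) + gs s (q - b) + K • q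

/-- smallness conditions on the cluster radius `ϱ` and the oscillation `om` of the potentials -/
def Small (s ϱ om : ℝ) : Prop :=
  0 < ϱ ∧ ϱ ≤ 1 / 8 ∧ 0 < om ∧ om < c0 s ∧
  3 * (2 + om) < (2 * ϱ) ^ (-s) ∧
  c0 s + om < (2 + 2 * ϱ) ^ (-s) ∧
  2 + (2:ℝ) ^ (-s) + 3 * om < 2 * (1 + 2 * ϱ) ^ (-s) + (Real.sqrt 2 + 2 * ϱ) ^ (-s)

end

end Crest.Agent.R130
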