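/-
R130 task C1: calculus of `Hs s v = ‖v‖^(-s)` and its gradient `gs s v = -s ‖v‖^(-s-2) v`.
-/
import Crest.Agent.R130.Defs

set_option autoImplicit false
open Set Metric
open scoped ContDiff RealInnerProductSpace

namespace Crest.Agent.R130

variable {E : Type*} [NormedAddCommGroup E] [InnerProductSpace ℝ E]

theorem contDiffAt_Hs (s : ℝ) (v : E) (hv : v ≠ 0) : ContDiffAt ℝ ∞ (Hs s) v := by
  unfold Hs
  exact (contDiffAt_norm ℝ hv).rpow_const_of_ne (norm_ne_zero_iff.2 hv)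

theorem contDiffAt_gs (s : ℝ) (v : E) (hv : v ≠ 0) : ContDiffAt ℝ ∞ (gs s) v := by
  unfold gs
  exact (contDiffAt_const.mul
    ((contDiffAt_norm ℝ hv).rpow_const_of_ne (norm_ne_zero_iff.2 hv))).smul contDiffAt_id

theorem hasFDerivAt_Hs (s : ℝ) (v : E) (hv : v ≠ 0) :
    HasFDerivAt (Hs s) (innerSL ℝ (gs s v)) v := by
  have hn : 0 < ‖v‖ := norm_pos_iff.2 hv
  have h1 : HasFDerivAt (fun x : E => ‖x‖ ^ 2) (2 • (innerSL ℝ) v) v :=
    (hasStrictFDerivAt_norm_sq v).hasFDerivAt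
  have h2 := h1.rpow_const (p := -s / 2) (Or.inl (by positivity))
  have hfun : (fun x : E => (‖x‖ ^ 2) ^ (-s / 2)) = Hs s := by
    funext x
    unfold Hs
    rw [← Real.rpow_natCast, ← Real.rpow_mul (norm_nonneg x)]
    congr 1
    push_cast
    ring
  rw [hfun] at h2
  have hp : (‖v‖ ^ 2) ^ (-s / 2 - 1) = ‖v‖ ^ (-s - 2) := by
    rw [← Real.rpow_natCast, ← Real.rpow_mul (norm_nonneg v)]
    congr 1
    push_cast
    ring
  have heq : innerSL ℝ (gs s v) = (-s / 2 * (‖v‖ ^ 2) ^ (-s / 2 - 1)) • 2 • (innerSL ℝ) v := by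
    rw [hp]
    unfold gs
    ext w
    simp only [innerSL_apply_apply, inner_smul_left, smul_apply, smul_eq_mul,
      conj_trivial, nsmul_eq_mul]
    push_cast
    ring
  rw [heq]
  exact h2

theorem hop_apply (s : ℝ) (e w : E) : hop s e w = (-s) • w + (s * (s + 2) * ⟪e, w⟫) • e := by
  simp [hop, smul_smul]

theorem hasFDerivAt_gs (s : ℝ) (e : E) (he : ‖e‖ = 1) (t : ℝ) (ht : 0 < t) :
    HasFDerivAt (gs s) (t ^ (-s - 2) • hop s e) (t • e) := by
  have he0 : e ≠ 0 := by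
    intro h
    rw [h, norm_zero] at he
    exact zero_ne_one he
  have hv : t • e ≠ 0 := smul_ne_zero ht.ne' he0
  have hnorm : ‖t • e‖ = t := by rw [norm_smul, he, mul_one, Real.norm_eq_abs, abs_of_pos ht]
  have h1 : HasFDerivAt (fun v : E => -s * Hs (s + 2) v)
      ((-s) • innerSL ℝ (gs (s + 2) (t • e))) (t • e) :=
    (hasFDerivAt_Hs (s + 2) (t • e) hv).const_mul (-s)
  have h2 := h1.smul (hasFDerivAt_id (𝕜 := ℝ) (t • e))
  have hfun : ((fun v : E => -s * Hs (s + 2) v) • (id : E → E)) = gs s := by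
    funext v
    simp only [Pi.smul_apply', id, gs, Hs]
    congr 2
    congr 1
    ring
  rw [hfun] at h2
  convert h2 using 1
  have hp : t ^ (-(s + 2) - 2) = t ^ (-s - 2) * (t ^ 2)⁻¹ := by
    rw [show -(s + 2) - 2 = (-s - 2) + (-2 : ℝ) by ring, Real.rpow_add ht, Real.rpow_neg ht.le]
    congr 2
    exact Real.rpow_two t
  have hp2 : t ^ (-(s + 2)) = t ^ (-s - 2) := by
    congr 1
    ring
  ext w
  simp only [smul_apply, hop_apply, add_apply,
    ContinuousLinearMap.smulRight_apply, innerSL_apply_apply, ContinuousLinearMap.id_apply,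
    gs, Hs, hnorm, inner_smul_left, conj_trivial, smul_eq_mul, id, hp, hp2, smul_add, smul_smul]
  congr 1
  · congr 1
    ring
  · congr 1
    field_simp

theorem hop_injective (s : ℝ) (hs : 0 < s) (e : E) (he : ‖e‖ = 1) :
    Function.Injective (hop s e) := by
  rw [injective_iff_map_eq_zero]
  intro w hw
  rw [hop_apply] at hw
  have h1 : ⟪e, (-s) • w + (s * (s + 2) * ⟪e, w⟫) • e⟫ = 0 := by rw [hw, inner_zero_right]
  rw [inner_add_right, inner_smul_right, inner_smul_right, real_inner_self_eq_norm_sq, he] at h1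
  have h2 : s * (s + 1) * ⟪e, w⟫ = 0 := by nlinarith [h1]
  have h3 : ⟪e, w⟫ = 0 := by
    rcases mul_eq_zero.1 h2 with h | h
    · exfalso
      have : 0 < s * (s + 1) := by positivity
      linarith
    · exact h
  rw [h3, mul_zero, zero_smul, add_zero] at hw
  rcases smul_eq_zero.1 hw with h | h
  · exfalso; linarith
  · exact h

theorem norm_hop_le (s : ℝ) (hs : 0 < s) (e : E) (he : ‖e‖ = 1) (w : E) :
    ‖hop s e w‖ ≤ s * (s + 3) * ‖w‖ := by
  rw [hop_apply]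
  have h1 : ‖(-s) • w‖ = s * ‖w‖ := by
    rw [norm_smul, Real.norm_eq_abs, abs_neg, abs_of_pos hs]
  have h2 : ‖(s * (s + 2) * ⟪e, w⟫) • e‖ ≤ s * (s + 2) * ‖w‖ := by
    rw [norm_smul, he, mul_one, Real.norm_eq_abs, abs_mul, abs_of_pos (by positivity : 0 < s * (s + 2))]
    have := abs_real_inner_le_norm e w
    rw [he, one_mul] at this
    exact mul_le_mul_of_nonneg_left this (by positivity)
  calc ‖(-s) • w + (s * (s + 2) * ⟪e, w⟫) • e‖ ≤ ‖(-s) • w‖ + ‖(s * (s + 2) * ⟪e, w⟫) • e‖ :=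
        norm_add_le _ _
    _ ≤ s * ‖w‖ + s * (s + 2) * ‖w‖ := by rw [h1]; linarith
    _ = s * (s + 3) * ‖w‖ := by ring

/-- local Lipschitz data for `gs` and `Hs` near `e` and `2e` -/
def LipData (s : ℝ) (e : E) (ϱ₀ L : ℝ) : Prop :=
  0 < ϱ₀ ∧ ϱ₀ ≤ 1 / 8 ∧ 0 ≤ L ∧
  ∀ c ∈ ({e, (2:ℝ) • e} : Set E), ∀ v ∈ closedBall c (2 * ϱ₀), ∀ v' ∈ closedBall c (2 * ϱ₀),
    ‖gs s v - gs s v'‖ ≤ L * ‖v - v'‖ ∧ |Hs s v - Hs s v'| ≤ L * ‖v - v'‖

theorem exists_local_lip {F : Type*} [NormedAddCommGroup F] [NormedSpace ℝ F] (f : E → F) (c : E)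
    (hf : ContDiffAt ℝ ∞ f c) :
    ∃ ε L : ℝ, 0 < ε ∧ 0 ≤ L ∧ ∀ v ∈ ball c ε, ∀ v' ∈ ball c ε, ‖f v - f v'‖ ≤ L * ‖v - v'‖ := by
  obtain ⟨K, t, ht, hK⟩ := (hf.of_le (by exact_mod_cast le_top)).exists_lipschitzOnWith
  obtain ⟨ε, hε, hball⟩ := Metric.mem_nhds_iff.1 ht
  exact ⟨ε, K, hε, K.coe_nonneg, fun v hv v' hv' => hK.norm_sub_le (hball hv) (hball hv')⟩

/-- hint: `ContDiffAt.exists_lipschitzOnWith` four times -/
theorem exists_lip (s : ℝ) (e : E) (he : ‖e‖ = 1) : ∃ ϱ₀ L : ℝ, LipData s e ϱ₀ L := by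
  have he0 : e ≠ 0 := by
    intro h
    rw [h, norm_zero] at he
    exact zero_ne_one he
  have h2e : (2 : ℝ) • e ≠ 0 := smul_ne_zero two_ne_zero he0
  obtain ⟨ε1, L1, hε1, hL1, h1⟩ := exists_local_lip (gs s) e (contDiffAt_gs s e he0)
  obtain ⟨ε2, L2, hε2, hL2, h2⟩ := exists_local_lip (gs s) ((2 : ℝ) • e) (contDiffAt_gs s _ h2e)
  obtain ⟨ε3, L3, hε3, hL3, h3⟩ := exists_local_lip (Hs s) e (contDiffAt_Hs s e he0)
  obtain ⟨ε4, L4, hε4, hL4, h4⟩ := exists_local_lip (Hs s) ((2 : ℝ) • e) (contDiffAt_Hs s _ h2e)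
  set ε := min (min ε1 ε2) (min ε3 ε4) with hε
  have hεpos : 0 < ε := lt_min (lt_min hε1 hε2) (lt_min hε3 hε4)
  have e1 : ε ≤ ε1 := le_trans (min_le_left _ _) (min_le_left _ _)
  have e2 : ε ≤ ε2 := le_trans (min_le_left _ _) (min_le_right _ _)
  have e3 : ε ≤ ε3 := le_trans (min_le_right _ _) (min_le_left _ _)
  have e4 : ε ≤ ε4 := le_trans (min_le_right _ _) (min_le_right _ _)
  refine ⟨min (1 / 8) (ε / 4), L1 + L2 + L3 + L4, lt_min (by norm_num) (by positivity),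
    min_le_left _ _, by positivity, ?_⟩
  have hsub : ∀ c : E, closedBall c (2 * min (1 / 8) (ε / 4)) ⊆ ball c ε := by
    intro c
    refine closedBall_subset_ball ?_
    have := min_le_right (1 / 8 : ℝ) (ε / 4)
    linarith
  intro c hc v hv v' hv'
  have hn := norm_nonneg (v - v')
  have hv1 := hsub c hv
  have hv1' := hsub c hv'
  rcases hc with rfl | hc
  · have a := h1 v (ball_subset_ball e1 hv1) v' (ball_subset_ball e1 hv1')
    have b := h3 v (ball_subset_ball e3 hv1) v' (ball_subset_ball e3 hv1')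
    rw [Real.norm_eq_abs] at b
    constructor <;> nlinarith
  · rw [Set.mem_singleton_iff] at hc
    subst hc
    have a := h2 v (ball_subset_ball e2 hv1) v' (ball_subset_ball e2 hv1')
    have b := h4 v (ball_subset_ball e4 hv1) v' (ball_subset_ball e4 hv1')
    rw [Real.norm_eq_abs] at b
    constructor <;> nlinarith

end Crest.Agent.R130
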