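/-
R130 (row 130, S0175): abstract three-marginal "design".

A `Design c` packages: a finite measure `ν` on the central cluster `SQ`, two families
(`i : Bool`) of maps `p i`, `b i` from the central cluster to outer clusters `SP i`, `SS i`,
a "label" map `k` (left inverse of all the `p i`, `b i`), a dual potential `u`, the duality
inequality on the support, equality on the graphs and the description of the contact set.
The marginal is `μ = ∑ i, (p i)_# ν + ν + (b i)_# ν`.
-/
import Crest.Prelude.Def_MultiMarginal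

set_option autoImplicit false
open MeasureTheory Set
open scoped ENNReal
open Crest.AnalysisR.OT

namespace Crest.Agent.R130

universe u

/-- `(x,y,z)` is one of the six orderings of `(a,q,b)`. -/
def Perm3 {X : Type u} (x y z a q b : X) : Prop :=
  (x = a ∧ y = q ∧ z = b) ∨ (x = a ∧ y = b ∧ z = q) ∨ (x = q ∧ y = a ∧ z = b) ∨
  (x = q ∧ y = b ∧ z = a) ∨ (x = b ∧ y = a ∧ z = q) ∨ (x = b ∧ y = q ∧ z = a)

/-- union of the five clusters -/
def supp5 {X : Type u} (SQ : Set X) (SP SS : Bool → Set X) : Set X :=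
  SQ ∪ (SP true ∪ SP false) ∪ (SS true ∪ SS false)

structure Design {X : Type u} [MeasurableSpace X] (c : X × X × X → ℝ≥0∞) : Type u where
  ν : Measure X
  p : Bool → X → X
  b : Bool → X → X
  k : X → X
  u : X → ℝ≥0∞
  SQ : Set X
  SP : Bool → Set X
  SS : Bool → Set X
  ν_fin : IsFiniteMeasure ν
  ν_ne : ν ≠ 0
  c_meas : Measurable c
  c_rot : ∀ x y z, c (y, z, x) = c (x, y, z)
  p_meas : ∀ i, Measurable (p i)
  b_meas : ∀ i, Measurable (b i)
  k_meas : Measurable k
  u_meas : Measurable u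
  SQ_meas : MeasurableSet SQ
  SP_meas : ∀ i, MeasurableSet (SP i)
  SS_meas : ∀ i, MeasurableSet (SS i)
  ν_SQ : ν SQᶜ = 0
  p_mem : ∀ i, ∀ q ∈ SQ, p i q ∈ SP i
  b_mem : ∀ i, ∀ q ∈ SQ, b i q ∈ SS i
  k_p : ∀ i, ∀ q ∈ SQ, k (p i q) = q
  k_b : ∀ i, ∀ q ∈ SQ, k (b i q) = q
  disj_QP : ∀ i, Disjoint SQ (SP i)
  disj_QS : ∀ i, Disjoint SQ (SS i)
  disj_PS : ∀ i j, Disjoint (SP i) (SS j)
  disj_PP : Disjoint (SP true) (SP false)
  disj_SS : Disjoint (SS true) (SS false)
  u_bdd : ∃ M : ℝ≥0∞, M ≠ ⊤ ∧ ∀ x, u x ≤ M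
  ineq : ∀ x ∈ supp5 SQ SP SS, ∀ y ∈ supp5 SQ SP SS, ∀ z ∈ supp5 SQ SP SS,
    u x + u y + u z ≤ c (x, y, z)
  eq : ∀ i, ∀ q ∈ SQ, c (p i q, q, b i q) = u (p i q) + u q + u (b i q)
  contact : ∀ x ∈ supp5 SQ SP SS, ∀ y ∈ supp5 SQ SP SS, ∀ z ∈ supp5 SQ SP SS,
    c (x, y, z) = u x + u y + u z → ∃ i, ∃ q ∈ SQ, Perm3 x y z (p i q) q (b i q)

namespace Design

variable {X : Type u} [MeasurableSpace X] {c : X × X × X → ℝ≥0∞}

/-- the support (union of the five clusters) -/
def S (D : Design c) : Set X := supp5 D.SQ D.SP D.SS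

/-- the contribution of type `i` to the marginal -/
noncomputable def μi (D : Design c) (i : Bool) : Measure X :=
  D.ν.map (D.p i) + D.ν + D.ν.map (D.b i)

/-- the marginal -/
noncomputable def μ (D : Design c) : Measure X := D.μi true + D.μi false

/-- the contribution of type `i` to the optimal plan: the three cyclic orderings of the graph. -/
noncomputable def πi (D : Design c) (i : Bool) : Measure (X × X × X) :=
  D.ν.map (fun q => (D.p i q, q, D.b i q)) + D.ν.map (fun q => (q, D.b i q, D.p i q)) +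
    D.ν.map (fun q => (D.b i q, D.p i q, q))

/-- the optimal plan -/
noncomputable def π₀ (D : Design c) : Measure (X × X × X) := D.πi true + D.πi false

/-- fine splittings of the central cluster: for every `ε` the measure `2ν` is the sum of the
images of `ν` under two injective maps `Ξ true`, `Ξ false` with disjoint ranges that change the
cost of the graph triples by at most `ε`. -/
def Approx (D : Design c) : Prop :=
  ∀ ε : ℝ≥0∞, 0 < ε → ∃ (Ξ Θ : Bool → X → X) (A : Bool → Set X),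
    (∀ i, Measurable (Ξ i)) ∧ (∀ i, Measurable (Θ i)) ∧ (∀ i, MeasurableSet (A i)) ∧
    Disjoint (A true) (A false) ∧
    (∀ i, ∀ q ∈ D.SQ, Ξ i q ∈ A i ∧ Ξ i q ∈ D.SQ ∧ Θ i (Ξ i q) = q ∧
      c (D.p i q, Ξ i q, D.b i q) ≤ c (D.p i q, q, D.b i q) + ε) ∧
    D.ν.map (Ξ true) + D.ν.map (Ξ false) = D.ν + D.ν

end Design

end Crest.Agent.R130
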