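/-
R130 task C7: elementary facts on `pairCost` / `tripleCost`.
-/
import Crest.Agent.R130.Defs
import Crest.Agent.R130.Design

set_option autoImplicit false
open MeasureTheory Set Metric
open scoped ENNReal ContDiff RealInnerProductSpace
open Crest.AnalysisR.OT

namespace Crest.Agent.R130

variable {E : Type*} [NormedAddCommGroup E] [InnerProductSpace ℝ E]

theorem pairCost_comm (s : ℝ) (x y : E) : pairCost s x y = pairCost s y x := by
  unfold pairCost
  rw [norm_sub_rev]

theorem pairCost_eq_ofReal (s : ℝ) (x y : E) (h : x ≠ y) :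
    pairCost s x y = ENNReal.ofReal (Hs s (x - y)) := by
  unfold pairCost Hs
  exact ENNReal.ofReal_rpow_of_pos (norm_pos_iff.2 (sub_ne_zero.2 h))

/-- lower bound from an upper bound on the distance (also valid when `x = y`) -/
theorem le_pairCost (s : ℝ) (hs : 0 < s) (x y : E) (D : ℝ) (hD : 0 < D) (h : ‖x - y‖ ≤ D) :
    ENNReal.ofReal (D ^ (-s)) ≤ pairCost s x y := by
  unfold pairCost
  rw [← ENNReal.ofReal_rpow_of_pos hD, ENNReal.rpow_neg, ENNReal.rpow_neg]
  exact ENNReal.inv_le_inv.2 (ENNReal.rpow_le_rpow (ENNReal.ofReal_le_ofReal h) hs.le)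

theorem tripleCost_rot (s : ℝ) (x y z : E) : tripleCost s (y, z, x) = tripleCost s (x, y, z) := by
  simp only [tripleCost]
  rw [pairCost_comm s y x, pairCost_comm s z x]
  ac_rfl

theorem tripleCost_swap (s : ℝ) (x y z : E) : tripleCost s (x, z, y) = tripleCost s (x, y, z) := by
  simp only [tripleCost]
  rw [pairCost_comm s z y]
  ac_rfl

theorem tripleCost_perm (s : ℝ) (x y z a q b : E) (h : Perm3 x y z a q b) :
    tripleCost s (x, y, z) = tripleCost s (a, q, b) := by
  rcases h with ⟨rfl, rfl, rfl⟩ | ⟨rfl, rfl, rfl⟩ | ⟨rfl, rfl, rfl⟩ | ⟨rfl, rfl, rfl⟩ |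
    ⟨rfl, rfl, rfl⟩ | ⟨rfl, rfl, rfl⟩
  · rfl
  · exact tripleCost_swap s _ _ _
  · rw [← tripleCost_rot s y x z, tripleCost_swap]
  · exact tripleCost_rot s _ _ _
  · rw [← tripleCost_rot s x y z, ← tripleCost_rot s y z x]
  · rw [← tripleCost_rot s z y x, tripleCost_swap, tripleCost_rot]

theorem pairCost_isometry (s : ℝ) (R : E ≃ₗᵢ[ℝ] E) (x y : E) :
    pairCost s (R x) (R y) = pairCost s x y := by
  unfold pairCost
  rw [← map_sub, LinearIsometryEquiv.norm_map]

theorem tripleCost_isometry (s : ℝ) (R : E ≃ₗᵢ[ℝ] E) (x y z : E) :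
    tripleCost s (R x, R y, R z) = tripleCost s (x, y, z) := by
  simp only [tripleCost, pairCost_isometry]

theorem Hs_nonneg (s : ℝ) (v : E) : 0 ≤ Hs s v := Real.rpow_nonneg (norm_nonneg _) _

theorem tripleCost_eq_ofReal (s : ℝ) (a q b : E) (h1 : a ≠ q) (h2 : a ≠ b) (h3 : q ≠ b) :
    tripleCost s (a, q, b) = ENNReal.ofReal (cR s a q b) := by
  simp only [tripleCost, cR]
  rw [pairCost_eq_ofReal s a q h1, pairCost_eq_ofReal s a b h2, pairCost_eq_ofReal s q b h3,
    ENNReal.ofReal_add (add_nonneg (Hs_nonneg _ _) (Hs_nonneg _ _)) (Hs_nonneg _ _),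
    ENNReal.ofReal_add (Hs_nonneg _ _) (Hs_nonneg _ _)]

theorem cR_isometry (s : ℝ) (R : E ≃ₗᵢ[ℝ] E) (a q b : E) : cR s (R a) (R q) (R b) = cR s a q b := by
  simp only [cR, Hs, ← map_sub, LinearIsometryEquiv.norm_map]

theorem measurable_tripleCost [MeasurableSpace E] [BorelSpace E] [SecondCountableTopology E]
    (s : ℝ) : Measurable (tripleCost s : E × E × E → ℝ≥0∞) := by
  unfold tripleCost pairCost
  have h1 : Measurable fun p : E × E × E => p.1 := measurable_fst
  have h2 : Measurable fun p : E × E × E => p.2.1 := measurable_fst.comp measurable_snd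
  have h3 : Measurable fun p : E × E × E => p.2.2 := measurable_snd.comp measurable_snd
  exact (((h1.sub h2).norm.ennreal_ofReal.pow_const _).add
    ((h1.sub h3).norm.ennreal_ofReal.pow_const _)).add
    ((h2.sub h3).norm.ennreal_ofReal.pow_const _)

end Crest.Agent.R130
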