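/-
R130 task C8: strict duality inequality for all triples of clusters that are not of one of the two
optimal types.

Labels: `Q` (centre `0`, value `2`), `P i` (centre `e` / `e'`, value `c0 s`), `S i` (centre `-e` / `-e'`,
value `c0 s`).  Distances of centres: `Q`-outer `1`; `P i`-`S i` `2`; all other outer pairs `√2`.
Cases for a triple of labels which is not a permutation of `(P i, Q, S i)`:
 * two equal labels: one pair at distance `≤ 2ϱ`, cost `≥ (2ϱ)^(-s) > 3 (2 + om)`;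
 * three distinct outer labels: all three pairs at distance `≤ 2 + 2ϱ`, cost `≥ 3 (2+2ϱ)^(-s) > 3 (c0 + om)`;
 * `Q` and two distinct non antipodal outer labels: cost `≥ 2 (1+2ϱ)^(-s) + (√2+2ϱ)^(-s) > 2 + 2^(-s) + 3 om`
   and `2 + 2 c0 s = 2 + 2^(-s)`.
Use `le_pairCost` (Cost.lean).
-/
import Crest.Agent.R130.Cost

set_option autoImplicit false
open MeasureTheory Set Metric
open scoped ENNReal ContDiff RealInnerProductSpace
open Crest.AnalysisR.OT

namespace Crest.Agent.R130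

/-- cluster labels -/
inductive Lab : Type
  | Q : Lab
  | P : Bool → Lab
  | S : Bool → Lab
  deriving DecidableEq

variable {E : Type*} [NormedAddCommGroup E] [InnerProductSpace ℝ E]

/-- centre of a cluster; `ee true = e`, `ee false = e'` -/
def Lab.cen (ee : Bool → E) : Lab → E
  | .Q => 0
  | .P i => ee i
  | .S i => -ee i

/-- value of the potential at the centre -/
noncomputable def Lab.val (s : ℝ) : Lab → ℝ
  | .Q => 2
  | .P _ => c0 s
  | .S _ => c0 s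

/-- distance of the centres of two clusters -/
noncomputable def Lab.dd : Lab → Lab → ℝ
  | .Q, .Q => 0
  | .Q, .P _ => 1
  | .Q, .S _ => 1
  | .P _, .Q => 1
  | .S _, .Q => 1
  | .P i, .P j => if i = j then 0 else Real.sqrt 2
  | .S i, .S j => if i = j then 0 else Real.sqrt 2
  | .P i, .S j => if i = j then 2 else Real.sqrt 2
  | .S i, .P j => if i = j then 2 else Real.sqrt 2

theorem norm_sub_orth (a b : E) (ha : ‖a‖ = 1) (hb : ‖b‖ = 1) (hab : ⟪a, b⟫ = 0) :
    ‖a - b‖ = Real.sqrt 2 := by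
  have h := norm_sub_sq_real a b
  rw [ha, hb, hab] at h
  rw [← Real.sqrt_sq (norm_nonneg (a - b)), h]
  norm_num

theorem norm_add_orth (a b : E) (ha : ‖a‖ = 1) (hb : ‖b‖ = 1) (hab : ⟪a, b⟫ = 0) :
    ‖a + b‖ = Real.sqrt 2 := by
  have h := norm_add_sq_real a b
  rw [ha, hb, hab] at h
  rw [← Real.sqrt_sq (norm_nonneg (a + b)), h]
  norm_num

theorem orth_of_ne (ee : Bool → E) (horth : ⟪ee true, ee false⟫ = 0) (i j : Bool) (h : i ≠ j) :
    ⟪ee i, ee j⟫ = 0 := by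
  cases i <;> cases j
  · exact absurd rfl h
  · rw [real_inner_comm]; exact horth
  · exact horth
  · exact absurd rfl h

theorem cen_dist (ee : Bool → E) (hee : ∀ i, ‖ee i‖ = 1)
    (horth : ⟪ee true, ee false⟫ = 0) (l₁ l₂ : Lab) :
    ‖l₁.cen ee - l₂.cen ee‖ = l₁.dd l₂ := by
  rcases l₁ with _ | i | i <;> rcases l₂ with _ | j | j <;> simp only [Lab.cen, Lab.dd]
  · simp
  · simp [hee]
  · simp [hee]
  · simp [hee]
  · by_cases h : i = j
    · subst h; simp
    · rw [if_neg h]; exact norm_sub_orth _ _ (hee i) (hee j) (orth_of_ne ee horth i j h)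
  · by_cases h : i = j
    · subst h
      rw [if_pos rfl, sub_neg_eq_add, ← two_smul ℝ (ee i), norm_smul, hee]; norm_num
    · rw [if_neg h, sub_neg_eq_add]
      exact norm_add_orth _ _ (hee i) (hee j) (orth_of_ne ee horth i j h)
  · simp [hee]
  · by_cases h : i = j
    · subst h
      rw [if_pos rfl, ← neg_add', norm_neg, ← two_smul ℝ (ee i), norm_smul, hee]; norm_num
    · rw [if_neg h, ← neg_add', norm_neg]
      exact norm_add_orth _ _ (hee i) (hee j) (orth_of_ne ee horth i j h)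
  · by_cases h : i = j
    · subst h; simp
    · rw [if_neg h, ← neg_sub', norm_neg]
      exact norm_sub_orth _ _ (hee i) (hee j) (orth_of_ne ee horth i j h)

theorem one_le_dd (l₁ l₂ : Lab) (h : l₁ ≠ l₂) : 1 ≤ l₁.dd l₂ := by
  have hsq : (1:ℝ) ≤ Real.sqrt 2 := by
    rw [show (1:ℝ) = Real.sqrt 1 by simp]
    exact Real.sqrt_le_sqrt (by norm_num)
  rcases l₁ with _ | i | i <;> rcases l₂ with _ | j | j <;> simp only [Lab.dd]
  · exact absurd rfl h
  · exact le_rfl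
  · exact le_rfl
  · exact le_rfl
  · by_cases hij : i = j
    · subst hij; exact absurd rfl h
    · rw [if_neg hij]; exact hsq
  · split_ifs
    · norm_num
    · exact hsq
  · exact le_rfl
  · split_ifs
    · norm_num
    · exact hsq
  · by_cases hij : i = j
    · subst hij; exact absurd rfl h
    · rw [if_neg hij]; exact hsq

theorem dd_nonneg (l₁ l₂ : Lab) : 0 ≤ l₁.dd l₂ := by
  by_cases h : l₁ = l₂
  · subst h
    rcases l₁ with _ | i | i <;> simp [Lab.dd]
  · linarith [one_le_dd l₁ l₂ h]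

theorem dist_le_dd (ee : Bool → E) (hee : ∀ i, ‖ee i‖ = 1)
    (horth : ⟪ee true, ee false⟫ = 0) (ϱ : ℝ) (l₁ l₂ : Lab) (x y : E)
    (hx : ‖x - l₁.cen ee‖ ≤ ϱ) (hy : ‖y - l₂.cen ee‖ ≤ ϱ) :
    ‖x - y‖ ≤ l₁.dd l₂ + 2 * ϱ := by
  have h : x - y = (x - l₁.cen ee) + (l₁.cen ee - l₂.cen ee) - (y - l₂.cen ee) := by abel
  rw [h]
  have h1 := norm_sub_le ((x - l₁.cen ee) + (l₁.cen ee - l₂.cen ee)) (y - l₂.cen ee)
  have h2 := norm_add_le (x - l₁.cen ee) (l₁.cen ee - l₂.cen ee)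
  rw [cen_dist ee hee horth] at h2
  linarith

/-- the purely numerical inequality -/
theorem cluster_num (s : ℝ) (hs : 0 < s) (ϱ om : ℝ) (hsmall : Small s ϱ om)
    (l₁ l₂ l₃ : Lab) (hbad : ¬ ∃ i, Perm3 l₁ l₂ l₃ (Lab.P i) Lab.Q (Lab.S i)) :
    (l₁.val s + om) + (l₂.val s + om) + (l₃.val s + om) <
      (l₁.dd l₂ + 2 * ϱ) ^ (-s) + (l₁.dd l₃ + 2 * ϱ) ^ (-s) + (l₂.dd l₃ + 2 * ϱ) ^ (-s) := by
  obtain ⟨h0, h1, h2, h3, h5, h6, h7⟩ := hsmall
  have hsq : (1:ℝ) ≤ Real.sqrt 2 := by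
    rw [show (1:ℝ) = Real.sqrt 1 by simp]
    exact Real.sqrt_le_sqrt (by norm_num)
  have hsq2 : Real.sqrt 2 ≤ 2 := by
    rw [Real.sqrt_le_left (by norm_num)]
    norm_num
  have hc0 : c0 s = (2:ℝ) ^ (-s) / 2 := rfl
  have hc1 : (2:ℝ) ^ (-s) ≤ 1 := by
    have := Real.rpow_le_rpow_of_nonpos (x := 1) (y := 2) (z := -s) (by norm_num)
      (by norm_num) (by linarith)
    simpa using this
  have hc2 : 0 < (2:ℝ) ^ (-s) := by positivity
  have mono : ∀ a b : ℝ, 0 ≤ a → a ≤ b → (b + 2 * ϱ) ^ (-s) ≤ (a + 2 * ϱ) ^ (-s) := by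
    intro a b ha hab
    exact Real.rpow_le_rpow_of_nonpos (by positivity) (by linarith) (by linarith)
  have m1 := mono 0 1 le_rfl (by norm_num)
  have m2 := mono 1 (Real.sqrt 2) (by norm_num) hsq
  have m3 := mono (Real.sqrt 2) 2 (by positivity) hsq2
  have p2 : 0 < ((2:ℝ) + 2 * ϱ) ^ (-s) := by positivity
  rw [zero_add] at m1
  clear mono
  rcases l₁ with _ | i | i <;> rcases l₂ with _ | j | j <;> rcases l₃ with _ | k | k <;>
    (try cases i) <;> (try cases j) <;> (try cases k) <;>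
    first
    | (exfalso; exact hbad ⟨true, by unfold Perm3; decide⟩)
    | (exfalso; exact hbad ⟨false, by unfold Perm3; decide⟩)
    | (simp only [Lab.dd, Lab.val, if_true, if_false, zero_add, Bool.false_eq_true,
        Bool.true_eq_false]
       linarith)

theorem cluster_strict (s : ℝ) (hs : 0 < s) (ee : Bool → E) (hee : ∀ i, ‖ee i‖ = 1)
    (horth : ⟪ee true, ee false⟫ = 0) (ϱ om : ℝ) (hsmall : Small s ϱ om)
    (l₁ l₂ l₃ : Lab) (x y z : E)
    (hx : ‖x - l₁.cen ee‖ ≤ ϱ) (hy : ‖y - l₂.cen ee‖ ≤ ϱ) (hz : ‖z - l₃.cen ee‖ ≤ ϱ)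
    (ux uy uz : ℝ) (hux : ux ≤ l₁.val s + om) (huy : uy ≤ l₂.val s + om)
    (huz : uz ≤ l₃.val s + om)
    (hbad : ¬ ∃ i, Perm3 l₁ l₂ l₃ (Lab.P i) Lab.Q (Lab.S i)) :
    ENNReal.ofReal ux + ENNReal.ofReal uy + ENNReal.ofReal uz < tripleCost s (x, y, z) := by
  have hnum := cluster_num s hs ϱ om hsmall l₁ l₂ l₃ hbad
  have hϱ : 0 < ϱ := hsmall.1
  have hom : 0 < om := hsmall.2.2.1
  have hval : ∀ l : Lab, 0 ≤ l.val s + om := by
    intro l
    have : 0 < c0 s := by unfold c0; positivity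
    rcases l with _ | i | i <;> simp only [Lab.val] <;> linarith
  have hpos : ∀ l l' : Lab, 0 < l.dd l' + 2 * ϱ := fun l l' => by
    have := dd_nonneg l l'
    linarith
  have hp : ∀ l l' : Lab, 0 ≤ (l.dd l' + 2 * ϱ) ^ (-s) := fun l l' =>
    Real.rpow_nonneg (hpos l l').le _
  have h12 := le_pairCost s hs x y _ (hpos l₁ l₂) (dist_le_dd ee hee horth ϱ l₁ l₂ x y hx hy)
  have h13 := le_pairCost s hs x z _ (hpos l₁ l₃) (dist_le_dd ee hee horth ϱ l₁ l₃ x z hx hz)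
  have h23 := le_pairCost s hs y z _ (hpos l₂ l₃) (dist_le_dd ee hee horth ϱ l₂ l₃ y z hy hz)
  calc ENNReal.ofReal ux + ENNReal.ofReal uy + ENNReal.ofReal uz
      ≤ ENNReal.ofReal (l₁.val s + om) + ENNReal.ofReal (l₂.val s + om)
          + ENNReal.ofReal (l₃.val s + om) :=
        add_le_add (add_le_add (ENNReal.ofReal_le_ofReal hux) (ENNReal.ofReal_le_ofReal huy))
          (ENNReal.ofReal_le_ofReal huz)
    _ = ENNReal.ofReal ((l₁.val s + om) + (l₂.val s + om) + (l₃.val s + om)) := by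
        rw [ENNReal.ofReal_add (add_nonneg (hval _) (hval _)) (hval _),
          ENNReal.ofReal_add (hval _) (hval _)]
    _ < ENNReal.ofReal ((l₁.dd l₂ + 2 * ϱ) ^ (-s) + (l₁.dd l₃ + 2 * ϱ) ^ (-s)
          + (l₂.dd l₃ + 2 * ϱ) ^ (-s)) := by
        refine (ENNReal.ofReal_lt_ofReal_iff ?_).2 hnum
        exact lt_of_le_of_lt (add_nonneg (add_nonneg (hval _) (hval _)) (hval _)) hnum
    _ = ENNReal.ofReal ((l₁.dd l₂ + 2 * ϱ) ^ (-s)) + ENNReal.ofReal ((l₁.dd l₃ + 2 * ϱ) ^ (-s))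
          + ENNReal.ofReal ((l₂.dd l₃ + 2 * ϱ) ^ (-s)) := by
        rw [ENNReal.ofReal_add (add_nonneg (hp _ _) (hp _ _)) (hp _ _),
          ENNReal.ofReal_add (hp _ _) (hp _ _)]
    _ ≤ tripleCost s (x, y, z) := by
        simp only [tripleCost]
        exact add_le_add (add_le_add h12 h13) h23

/-- clusters with different labels are disjoint -/
theorem cluster_disjoint (ee : Bool → E) (hee : ∀ i, ‖ee i‖ = 1)
    (horth : ⟪ee true, ee false⟫ = 0) (ϱ : ℝ) (hϱ : ϱ ≤ 1 / 8)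
    (l₁ l₂ : Lab) (hl : l₁ ≠ l₂) (x y : E)
    (hx : ‖x - l₁.cen ee‖ ≤ ϱ) (hy : ‖y - l₂.cen ee‖ ≤ ϱ) : x ≠ y := by
  rintro rfl
  have h1 := one_le_dd l₁ l₂ hl
  rw [← cen_dist ee hee horth] at h1
  have h : l₁.cen ee - l₂.cen ee = (x - l₂.cen ee) - (x - l₁.cen ee) := by abel
  rw [h] at h1
  have h2 := norm_sub_le (x - l₂.cen ee) (x - l₁.cen ee)
  linarith

end Crest.Agent.R130
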