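/-
R130 task C3: a critical point of `(a,q) ↦ Fb s K e a q b` is the strict minimiser on the product
of the two closed balls (strong monotonicity of the gradient `(G1,G2)` for `K > 3L`).

Plan: `φ t = Fb (a₀ + t (a - a₀)) (q₀ + t (q - q₀)) b` on `[0,1]`;
`φ' t = ⟪G1 (a_t,q_t,b), a - a₀⟫ + ⟪G2 (a_t,q_t,b), q - q₀⟫` (from `hasFDerivAt_Hs`), and, since
`G1 = G2 = 0` at `(a₀,q₀)`,
`t φ' t = ⟪gs(a_t-q_t) - gs(a₀-q₀), (a_t-q_t)-(a₀-q₀)⟫ + ⟪gs(a_t-b)-gs(a₀-b), a_t-a₀⟫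
          + ⟪gs(q_t-b)-gs(q₀-b), q_t-q₀⟫ + K ‖a_t-a₀‖² + K ‖q_t-q₀‖²
        ≥ (K - 3L) (‖a_t-a₀‖² + ‖q_t-q₀‖²) > 0` for `t ∈ (0,1]`
(the arguments lie in `closedBall e (2ϱ₀)`, `closedBall (2e) (2ϱ₀)`, `closedBall e (2ϱ₀)`), so `φ` is
strictly increasing (`strictMonoOn_of_deriv_pos`).
-/
import Crest.Agent.R130.Calc

set_option autoImplicit false
open Set Metric
open scoped ContDiff RealInnerProductSpace

namespace Crest.Agent.R130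

variable {E : Type*} [NormedAddCommGroup E] [InnerProductSpace ℝ E]

section aux

theorem C3_mem1 {e a q : E} {ϱ₀ : ℝ} (ha : ‖a - e‖ ≤ ϱ₀) (hq : ‖q‖ ≤ ϱ₀) :
    a - q ∈ closedBall e (2 * ϱ₀) := by
  rw [mem_closedBall, dist_eq_norm]
  have : a - q - e = (a - e) - q := by abel
  rw [this]
  linarith [norm_sub_le (a - e) q]

theorem C3_mem2 {e a b : E} {ϱ₀ : ℝ} (ha : ‖a - e‖ ≤ ϱ₀) (hb : ‖b + e‖ ≤ ϱ₀) :
    a - b ∈ closedBall ((2:ℝ) • e) (2 * ϱ₀) := by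
  rw [mem_closedBall, dist_eq_norm]
  have : a - b - (2:ℝ) • e = (a - e) - (b + e) := by rw [two_smul]; abel
  rw [this]
  linarith [norm_sub_le (a - e) (b + e)]

theorem C3_mem3 {e q b : E} {ϱ₀ : ℝ} (hq : ‖q‖ ≤ ϱ₀) (hb : ‖b + e‖ ≤ ϱ₀) :
    q - b ∈ closedBall e (2 * ϱ₀) := by
  rw [mem_closedBall, dist_eq_norm]
  have : q - b - e = q - (b + e) := by abel
  rw [this]
  linarith [norm_sub_le q (b + e)]

theorem C3_ne1 {e v : E} (he : ‖e‖ = 1) {ϱ₀ : ℝ} (h8 : ϱ₀ ≤ 1 / 8)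
    (hv : v ∈ closedBall e (2 * ϱ₀)) : v ≠ 0 := by
  rintro rfl
  rw [mem_closedBall, dist_eq_norm, zero_sub, norm_neg, he] at hv
  linarith

theorem C3_ne2 {e v : E} (he : ‖e‖ = 1) {ϱ₀ : ℝ} (h8 : ϱ₀ ≤ 1 / 8)
    (hv : v ∈ closedBall ((2:ℝ) • e) (2 * ϱ₀)) : v ≠ 0 := by
  rintro rfl
  rw [mem_closedBall, dist_eq_norm, zero_sub, norm_neg, norm_smul, he] at hv
  norm_num at hv
  linarith

theorem C3_inner_ge {L : ℝ} {D w : E} (h : ‖D‖ ≤ L * ‖w‖) : -(L * ‖w‖ ^ 2) ≤ ⟪D, w⟫ := by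
  have h1 := abs_real_inner_le_norm D w
  have h2 : ‖D‖ * ‖w‖ ≤ L * ‖w‖ * ‖w‖ := mul_le_mul_of_nonneg_right h (norm_nonneg _)
  have h3 := neg_abs_le ⟪D, w⟫
  nlinarith

theorem C3_mono (s : ℝ) (e : E) (ϱ₀ L : ℝ) (hL : LipData s e ϱ₀ L)
    (K : ℝ) (a₀ q₀ b : E)
    (ha₀ : ‖a₀ - e‖ ≤ ϱ₀) (hq₀ : ‖q₀‖ ≤ ϱ₀) (hb : ‖b + e‖ ≤ ϱ₀)
    (a q : E) (ha : ‖a - e‖ ≤ ϱ₀) (hq : ‖q‖ ≤ ϱ₀) :
    (K - 3 * L) * (‖a - a₀‖ ^ 2 + ‖q - q₀‖ ^ 2) ≤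
      ⟪G1 s K e a q b - G1 s K e a₀ q₀ b, a - a₀⟫ + ⟪G2 s K a q b - G2 s K a₀ q₀ b, q - q₀⟫ := by
  obtain ⟨_, _, hL0, hlip⟩ := hL
  have l1 := (hlip e (by simp) _ (C3_mem1 ha hq) _ (C3_mem1 ha₀ hq₀)).1
  have l2 := (hlip ((2:ℝ) • e) (by simp) _ (C3_mem2 ha hb) _ (C3_mem2 ha₀ hb)).1
  have l3 := (hlip e (by simp) _ (C3_mem3 hq hb) _ (C3_mem3 hq₀ hb)).1
  set D1 := gs s (a - q) - gs s (a₀ - q₀) with hD1
  set D2 := gs s (a - b) - gs s (a₀ - b) with hD2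
  set D3 := gs s (q - b) - gs s (q₀ - b) with hD3
  set α := a - a₀ with hα
  set β := q - q₀ with hβ
  have e1 : a - q - (a₀ - q₀) = α - β := by rw [hα, hβ]; abel
  have e2 : a - b - (a₀ - b) = α := by rw [hα]; abel
  have e3 : q - b - (q₀ - b) = β := by rw [hβ]; abel
  rw [e1] at l1; rw [e2] at l2; rw [e3] at l3
  have g1 : G1 s K e a q b - G1 s K e a₀ q₀ b = D1 + D2 + K • α := by
    simp only [G1, hD1, hD2, hα, smul_sub]; abel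
  have g2 : G2 s K a q b - G2 s K a₀ q₀ b = -D1 + D3 + K • β := by
    simp only [G2, hD1, hD3, hβ, smul_sub]; abel
  rw [g1, g2]
  have i1 := C3_inner_ge l1
  have i2 := C3_inner_ge l2
  have i3 := C3_inner_ge l3
  have par : ‖α - β‖ ^ 2 ≤ 2 * (‖α‖ ^ 2 + ‖β‖ ^ 2) := by
    have h1 := norm_sub_le α β
    have h2 : ‖α - β‖ ^ 2 ≤ (‖α‖ + ‖β‖) ^ 2 := pow_le_pow_left₀ (norm_nonneg _) h1 2
    nlinarith [sq_nonneg (‖α‖ - ‖β‖)]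
  have expand : ⟪D1 + D2 + K • α, α⟫ + ⟪-D1 + D3 + K • β, β⟫
      = ⟪D1, α - β⟫ + ⟪D2, α⟫ + ⟪D3, β⟫ + K * (‖α‖ ^ 2 + ‖β‖ ^ 2) := by
    simp only [inner_add_left, inner_neg_left, inner_smul_left, inner_sub_right,
      real_inner_self_eq_norm_sq, RCLike.conj_to_real]
    ring
  rw [expand]
  nlinarith [mul_le_mul_of_nonneg_left par hL0]

theorem C3_hasDerivAt_line (v₀ w : E) (t : ℝ) : HasDerivAt (fun t : ℝ => v₀ + t • w) w t := by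
  simpa using ((hasDerivAt_id t).smul_const w).const_add v₀

theorem C3_hasDerivAt_Hs (s : ℝ) (v₀ w : E) (t : ℝ) (h : v₀ + t • w ≠ 0) :
    HasDerivAt (fun t : ℝ => Hs s (v₀ + t • w)) ⟪gs s (v₀ + t • w), w⟫ t := by
  have h1 := (hasFDerivAt_Hs s (v₀ + t • w) h).comp_hasDerivAt t (C3_hasDerivAt_line v₀ w t)
  have h3 : (innerSL ℝ (gs s (v₀ + t • w))) w = ⟪gs s (v₀ + t • w), w⟫ := by simp
  rw [h3] at h1
  exact h1

theorem C3_hasDerivAt_sq (v₀ w : E) (t : ℝ) :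
    HasDerivAt (fun t : ℝ => ‖v₀ + t • w‖ ^ 2) (2 * ⟪v₀ + t • w, w⟫) t := by
  have := (C3_hasDerivAt_line v₀ w t).norm_sq
  simpa using this

theorem C3_ball_line {c x₀ x : E} {r t : ℝ} (h0 : ‖x₀ - c‖ ≤ r) (h1 : ‖x - c‖ ≤ r)
    (ht0 : 0 ≤ t) (ht1 : t ≤ 1) : ‖x₀ + t • (x - x₀) - c‖ ≤ r := by
  have : x₀ + t • (x - x₀) - c = (1 - t) • (x₀ - c) + t • (x - c) := by
    simp only [smul_sub, sub_smul, one_smul]; abel
  rw [this]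
  calc ‖(1 - t) • (x₀ - c) + t • (x - c)‖ ≤ ‖(1 - t) • (x₀ - c)‖ + ‖t • (x - c)‖ := norm_add_le _ _
    _ = (1 - t) * ‖x₀ - c‖ + t * ‖x - c‖ := by
        rw [norm_smul, norm_smul, Real.norm_of_nonneg ht0, Real.norm_of_nonneg (by linarith)]
    _ ≤ (1 - t) * r + t * r := by
        have := mul_le_mul_of_nonneg_left h0 (by linarith : (0:ℝ) ≤ 1 - t)
        have := mul_le_mul_of_nonneg_left h1 ht0
        linarith
    _ = r := by ring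

end aux

theorem strict_min (s : ℝ) (e : E) (he : ‖e‖ = 1) (ϱ₀ L : ℝ) (hL : LipData s e ϱ₀ L)
    (K : ℝ) (hK : 3 * L < K) (a₀ q₀ b : E)
    (ha₀ : ‖a₀ - e‖ ≤ ϱ₀) (hq₀ : ‖q₀‖ ≤ ϱ₀) (hb : ‖b + e‖ ≤ ϱ₀)
    (h1 : G1 s K e a₀ q₀ b = 0) (h2 : G2 s K a₀ q₀ b = 0)
    (a q : E) (ha : ‖a - e‖ ≤ ϱ₀) (hq : ‖q‖ ≤ ϱ₀) (hne : (a, q) ≠ (a₀, q₀)) :
    Fb s K e a₀ q₀ b < Fb s K e a q b := by
  have h8 : ϱ₀ ≤ 1 / 8 := hL.2.1
  obtain ⟨da, hda⟩ : ∃ x, x = a - a₀ := ⟨_, rfl⟩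
  obtain ⟨dq, hdq⟩ : ∃ x, x = q - q₀ := ⟨_, rfl⟩
  set φ : ℝ → ℝ := fun t => Fb s K e (a₀ + t • da) (q₀ + t • dq) b with hφ
  set φ' : ℝ → ℝ := fun t => ⟪G1 s K e (a₀ + t • da) (q₀ + t • dq) b, da⟫
      + ⟪G2 s K (a₀ + t • da) (q₀ + t • dq) b, dq⟫ with hφ'
  have hat : ∀ t : ℝ, 0 ≤ t → t ≤ 1 → ‖a₀ + t • da - e‖ ≤ ϱ₀ := fun t h0 h1 => by
    rw [hda]; exact C3_ball_line ha₀ ha h0 h1
  have hqt : ∀ t : ℝ, 0 ≤ t → t ≤ 1 → ‖q₀ + t • dq‖ ≤ ϱ₀ := fun t h0 h1 => by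
    have := C3_ball_line (c := (0:E)) (x₀ := q₀) (x := q) (r := ϱ₀) (by simpa using hq₀)
      (by simpa using hq) h0 h1
    rw [hdq]
    simpa using this
  have hder : ∀ t : ℝ, 0 ≤ t → t ≤ 1 → HasDerivAt φ (φ' t) t := by
    intro t h0 h1
    have A := hat t h0 h1
    have Q := hqt t h0 h1
    have n1 := C3_ne1 he h8 (C3_mem1 A Q)
    have n2 := C3_ne2 he h8 (C3_mem2 A hb)
    have n3 := C3_ne1 he h8 (C3_mem3 Q hb)
    have r1 : ∀ t : ℝ, a₀ + t • da - (q₀ + t • dq) = (a₀ - q₀) + t • (da - dq) := by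
      intro t; rw [smul_sub]; abel
    have r2 : ∀ t : ℝ, a₀ + t • da - b = (a₀ - b) + t • da := by intro t; abel
    have r3 : ∀ t : ℝ, q₀ + t • dq - b = (q₀ - b) + t • dq := by intro t; abel
    have r4 : ∀ t : ℝ, a₀ + t • da - e = (a₀ - e) + t • da := by intro t; abel
    rw [r1] at n1; rw [r2] at n2; rw [r3] at n3
    have d1 := C3_hasDerivAt_Hs s (a₀ - q₀) (da - dq) t n1
    have d2 := C3_hasDerivAt_Hs s (a₀ - b) da t n2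
    have d3 := C3_hasDerivAt_Hs s (q₀ - b) dq t n3
    have d4 := C3_hasDerivAt_sq (a₀ - e) da t
    have d5 := C3_hasDerivAt_sq q₀ dq t
    have d6 : HasDerivAt (fun t : ℝ => ⟪ell s e, (a₀ - e) + t • da⟫) ⟪ell s e, da⟫ t := by
      have := (C3_hasDerivAt_line (a₀ - e) da t).inner ℝ (hasDerivAt_const t (ell s e))
      simpa [real_inner_comm] using this
    have hall := ((d1.add d2).add d3).sub (((d6.const_add (c0 s)).sub (d4.const_mul (K / 2)))) |>.sub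
      ((d5.const_mul (K / 2)).const_sub 2)
    have hfun : φ = fun t : ℝ => Hs s (a₀ - q₀ + t • (da - dq)) + Hs s (a₀ - b + t • da)
        + Hs s (q₀ - b + t • dq)
        - (c0 s + ⟪ell s e, a₀ - e + t • da⟫ - K / 2 * ‖a₀ - e + t • da‖ ^ 2)
        - (2 - K / 2 * ‖q₀ + t • dq‖ ^ 2) := by
      funext t
      simp only [hφ, Fb, cR, uP, uQ, r1, r2, r3, r4]
    have hval : φ' t = ⟪gs s (a₀ - q₀ + t • (da - dq)), da - dq⟫ + ⟪gs s (a₀ - b + t • da), da⟫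
        + ⟪gs s (q₀ - b + t • dq), dq⟫
        - (⟪ell s e, da⟫ - K / 2 * (2 * ⟪a₀ - e + t • da, da⟫))
        - -(K / 2 * (2 * ⟪q₀ + t • dq, dq⟫)) := by
      simp only [hφ', G1, G2, r1, r2, r3, r4, inner_add_left, inner_sub_left, inner_neg_left,
        inner_smul_left, inner_sub_right, RCLike.conj_to_real]
      ring
    rw [hfun, hval]
    exact hall
  have hcont : ContinuousOn φ (Icc 0 1) := fun t ht =>
    (hder t ht.1 ht.2).continuousAt.continuousWithinAt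
  obtain ⟨c, hc, hslope⟩ := exists_hasDerivAt_eq_slope φ φ' (by norm_num : (0:ℝ) < 1) hcont
    (fun t ht => hder t ht.1.le ht.2.le)
  have hφ0 : φ 0 = Fb s K e a₀ q₀ b := by simp [hφ]
  have hφ1 : φ 1 = Fb s K e a q b := by simp [hφ, hda, hdq]
  rw [hφ0, hφ1] at hslope
  have hmono := C3_mono s e ϱ₀ L hL K a₀ q₀ b ha₀ hq₀ hb (a₀ + c • da) (q₀ + c • dq)
    (hat c hc.1.le hc.2.le) (hqt c hc.1.le hc.2.le)
  rw [h1, h2, sub_zero, sub_zero, add_sub_cancel_left, add_sub_cancel_left, inner_smul_right,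
    inner_smul_right, norm_smul, norm_smul, Real.norm_of_nonneg hc.1.le] at hmono
  have hpos : 0 < ‖da‖ ^ 2 + ‖dq‖ ^ 2 := by
    by_contra hcon
    have h0 : ‖da‖ ^ 2 + ‖dq‖ ^ 2 = 0 := le_antisymm (not_lt.mp hcon) (by positivity)
    have hz1 : ‖da‖ = 0 := by nlinarith [sq_nonneg ‖da‖, sq_nonneg ‖dq‖]
    have hz2 : ‖dq‖ = 0 := by nlinarith [sq_nonneg ‖da‖, sq_nonneg ‖dq‖]
    apply hne
    rw [norm_eq_zero, hda, sub_eq_zero] at hz1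
    rw [norm_eq_zero, hdq, sub_eq_zero] at hz2
    rw [hz1, hz2]
  have hφc : 0 < c * φ' c := by
    have hh : c * φ' c = c * ⟪G1 s K e (a₀ + c • da) (q₀ + c • dq) b, da⟫
        + c * ⟪G2 s K (a₀ + c • da) (q₀ + c • dq) b, dq⟫ := by simp only [hφ']; ring
    rw [hh]
    refine lt_of_lt_of_le ?_ hmono
    have : (c * ‖da‖) ^ 2 + (c * ‖dq‖) ^ 2 = c ^ 2 * (‖da‖ ^ 2 + ‖dq‖ ^ 2) := by ring
    rw [this]
    have hc2 : 0 < c ^ 2 := by have := hc.1; positivity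
    have hK' : 0 < K - 3 * L := by linarith
    positivity
  have hφc' : 0 < φ' c := by
    by_contra hcon
    have := mul_nonpos_of_nonneg_of_nonpos hc.1.le (not_lt.mp hcon)
    linarith
  rw [hslope] at hφc'
  simp only [sub_zero, div_one] at hφc'
  linarith

/-- moving only the middle point changes the cost by at most `2 L ‖q - q₀‖` -/
theorem cR_lip (s : ℝ) (e : E) (he : ‖e‖ = 1) (ϱ₀ L : ℝ) (hL : LipData s e ϱ₀ L)
    (a q₀ q b : E) (ha : ‖a - e‖ ≤ ϱ₀) (hq₀ : ‖q₀‖ ≤ ϱ₀) (hq : ‖q‖ ≤ ϱ₀) (hb : ‖b + e‖ ≤ ϱ₀) :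
    cR s a q b ≤ cR s a q₀ b + 2 * L * ‖q - q₀‖ := by
  obtain ⟨_, _, hL0, hlip⟩ := hL
  have l1 := (hlip e (by simp) _ (C3_mem1 ha hq) _ (C3_mem1 ha hq₀)).2
  have l3 := (hlip e (by simp) _ (C3_mem3 hq hb) _ (C3_mem3 hq₀ hb)).2
  have e1 : a - q - (a - q₀) = -(q - q₀) := by abel
  have e3 : q - b - (q₀ - b) = q - q₀ := by abel
  rw [e1, norm_neg] at l1
  rw [e3] at l3
  have := le_abs_self (Hs s (a - q) - Hs s (a - q₀))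
  have := le_abs_self (Hs s (q - b) - Hs s (q₀ - b))
  simp only [cR]
  linarith

end Crest.Agent.R130
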