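/-
R130: the local analytic data `Loc s e` (definition) .
-/
import Crest.Agent.R130.Defs

set_option autoImplicit false
open MeasureTheory Set Metric
open scoped ENNReal ContDiff RealInnerProductSpace

namespace Crest.Agent.R130

universe u

/-- All local analytic data around the collinear configuration `(e, 0, -e)`:
the optimal maps `pi : Q-cluster → P-cluster`, `be : Q-cluster → S-cluster` on `ball 0 r`, their
smooth inverses `sP`, `sS` on the open images `VP`, `VS`, and all estimates used later. -/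
structure Loc {E : Type u} [NormedAddCommGroup E] [InnerProductSpace ℝ E]
    [MeasurableSpace E] (s : ℝ) (e : E) : Type u where
  K : ℝ
  ϱ : ℝ
  om : ℝ
  r : ℝ
  L : ℝ
  pi : E → E
  be : E → E
  sP : E → E
  sS : E → E
  VP : Set E
  VS : Set E
  r_pos : 0 < r
  L_nonneg : 0 ≤ L
  small : Small s ϱ om
  VP_open : IsOpen VP
  VS_open : IsOpen VS
  pi_smooth : ContDiffOn ℝ ∞ pi (ball 0 r)
  be_smooth : ContDiffOn ℝ ∞ be (ball 0 r)
  sP_smooth : ContDiffOn ℝ ∞ sP VP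
  sS_smooth : ContDiffOn ℝ ∞ sS VS
  pi_maps : MapsTo pi (ball 0 r) VP
  be_maps : MapsTo be (ball 0 r) VS
  sP_maps : MapsTo sP VP (ball 0 r)
  sS_maps : MapsTo sS VS (ball 0 r)
  sP_pi : ∀ q ∈ ball (0:E) r, sP (pi q) = q
  sS_be : ∀ q ∈ ball (0:E) r, sS (be q) = q
  pi_sP : ∀ y ∈ VP, pi (sP y) = y
  be_sS : ∀ y ∈ VS, be (sS y) = y
  pi_meas : Measurable pi
  be_meas : Measurable be
  sP_meas : Measurable sP
  sS_meas : Measurable sS
  q_close : ∀ q ∈ ball (0:E) r, ‖q‖ ≤ ϱ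
  pi_close : ∀ q ∈ ball (0:E) r, ‖pi q - e‖ ≤ ϱ
  be_close : ∀ q ∈ ball (0:E) r, ‖be q + e‖ ≤ ϱ
  uP_close : ∀ q ∈ ball (0:E) r, |uP s K e (pi q) - c0 s| ≤ om
  uQ_close : ∀ q ∈ ball (0:E) r, |uQ K q - 2| ≤ om
  uS_close : ∀ q ∈ ball (0:E) r, |Fb s K e (pi q) q (be q) - c0 s| ≤ om
  strict_min : ∀ q₀ ∈ ball (0:E) r, ∀ a q : E, ‖a - e‖ ≤ ϱ → ‖q‖ ≤ ϱ → (a, q) ≠ (pi q₀, q₀) →
    Fb s K e (pi q₀) q₀ (be q₀) < Fb s K e a q (be q₀)
  lip : ∀ q₀ ∈ ball (0:E) r, ∀ q : E, ‖q‖ ≤ ϱ →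
    cR s (pi q₀) q (be q₀) ≤ cR s (pi q₀) q₀ (be q₀) + L * ‖q - q₀‖

end Crest.Agent.R130
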