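/-
R130: the global set-up `Setup s E` (definition) and the objects derived from it.
-/
import Crest.Agent.R130.Loc
import Crest.Agent.R130.Design

set_option autoImplicit false
open MeasureTheory Set Metric
open scoped ENNReal ContDiff RealInnerProductSpace
open Crest.AnalysisR.OT

namespace Crest.Agent.R130

universe u

/-- Local data + the symmetry `R` + the density `f²` of the measure `ν` on the central cluster `C`
+ fine splittings of `ν`. -/
structure Setup (s : ℝ) (E : Type u) [NormedAddCommGroup E] [InnerProductSpace ℝ E]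
    [FiniteDimensional ℝ E] [MeasurableSpace E] [BorelSpace E] : Type u where
  hs : 0 < s
  e : E
  he : ‖e‖ = 1
  R : E ≃ₗᵢ[ℝ] E
  R_invol : ∀ x, R (R x) = x
  R_orth : ⟪e, R e⟫ = 0
  loc : Loc s e
  f : E → ℝ
  C : Set E
  f_smooth : ContDiff ℝ ∞ f
  f_nonneg : ∀ x, 0 ≤ f x
  f_compact : HasCompactSupport f
  f_tsupport : tsupport f ⊆ ball 0 loc.r
  C_meas : MeasurableSet C
  C_sub : C ⊆ ball 0 loc.r
  f_zero : ∀ x, x ∉ C → f x = 0
  C_R : ∀ x ∈ C, R x ∈ C
  f_R : ∀ x, f (R x) = f x
  mass : ∫⁻ x, ENNReal.ofReal (f x ^ 2) = 1 / 6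
  split : ∀ η : ℝ, 0 < η → ∃ (Ξ Θ : Bool → E → E) (A : Bool → Set E),
    (∀ i, Measurable (Ξ i)) ∧ (∀ i, Measurable (Θ i)) ∧ (∀ i, MeasurableSet (A i)) ∧
    Disjoint (A true) (A false) ∧
    (∀ i, ∀ x ∈ C, Ξ i x ∈ A i ∧ Ξ i x ∈ C ∧ Θ i (Ξ i x) = x ∧ ‖Ξ i x - x‖ ≤ η) ∧
    (volume.withDensity fun x => ENNReal.ofReal (f x ^ 2)).map (Ξ true)
      + (volume.withDensity fun x => ENNReal.ofReal (f x ^ 2)).map (Ξ false)
      = (volume.withDensity fun x => ENNReal.ofReal (f x ^ 2))
        + (volume.withDensity fun x => ENNReal.ofReal (f x ^ 2))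

namespace Setup

variable {s : ℝ} {E : Type u} [NormedAddCommGroup E] [InnerProductSpace ℝ E]
  [FiniteDimensional ℝ E] [MeasurableSpace E] [BorelSpace E]

/-- the measure on the central cluster (each of the two types uses one copy) -/
noncomputable def ν (T : Setup s E) : Measure E :=
  volume.withDensity fun x => ENNReal.ofReal (T.f x ^ 2)

/-- `Rb true = id`, `Rb false = R` -/
def Rb (T : Setup s E) : Bool → E → E
  | true => fun x => x
  | false => fun x => T.R x

/-- the optimal maps of type `i` -/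
def p (T : Setup s E) (i : Bool) (q : E) : E := T.Rb i (T.loc.pi (T.Rb i q))
def b (T : Setup s E) (i : Bool) (q : E) : E := T.Rb i (T.loc.be (T.Rb i q))

/-- the outer clusters -/
def SP (T : Setup s E) (i : Bool) : Set E := {y | T.Rb i y ∈ T.loc.VP ∧ T.loc.sP (T.Rb i y) ∈ T.C}
def SS (T : Setup s E) (i : Bool) : Set E := {y | T.Rb i y ∈ T.loc.VS ∧ T.loc.sS (T.Rb i y) ∈ T.C}

open Classical in
/-- the label map -/
noncomputable def k (T : Setup s E) (y : E) : E :=
  if y ∈ T.SP true then T.loc.sP y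
  else if y ∈ T.SS true then T.loc.sS y
  else if y ∈ T.SP false then T.R (T.loc.sP (T.R y))
  else if y ∈ T.SS false then T.R (T.loc.sS (T.R y))
  else y

/-- the potential on the `S`-cluster of type `true` -/
noncomputable def uS (T : Setup s E) (y : E) : ℝ :=
  Fb s T.loc.K T.e (T.loc.pi (T.loc.sS y)) (T.loc.sS y) y

open Classical in
/-- the real potential -/
noncomputable def uR (T : Setup s E) (y : E) : ℝ :=
  if y ∈ T.C then uQ T.loc.K y
  else if y ∈ T.SP true then uP s T.loc.K T.e y
  else if y ∈ T.SS true then T.uS y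
  else if y ∈ T.SP false then uP s T.loc.K T.e (T.R y)
  else if y ∈ T.SS false then T.uS (T.R y)
  else 0

/-- the potential -/
noncomputable def u (T : Setup s E) (y : E) : ℝ≥0∞ := ENNReal.ofReal (T.uR y)

/-- the two axis directions -/
def ee (T : Setup s E) (i : Bool) : E := T.Rb i T.e

end Setup

end Crest.Agent.R130
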