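/-
R130: coordinates.  `EE n = EuclideanSpace ℝ (Fin (n+2))`, the swap `Rsw` of the first two coordinates,
product bumps and cubes (definitions).
-/
import Crest.Agent.R130.Setup

set_option autoImplicit false
open MeasureTheory Set Metric
open scoped ENNReal ContDiff RealInnerProductSpace

namespace Crest.Agent.R130

abbrev EE (n : ℕ) : Type := EuclideanSpace ℝ (Fin (n + 2))

/-- swap of the coordinates `0` and `1` -/
noncomputable def Rsw (n : ℕ) : EE n ≃ₗᵢ[ℝ] EE n :=
  LinearIsometryEquiv.piLpCongrLeft 2 ℝ ℝ (Equiv.swap (0 : Fin (n + 2)) 1)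

/-- the axis direction of type `true` -/
noncomputable def e1 (n : ℕ) : EE n := EuclideanSpace.single (1 : Fin (n + 2)) (1 : ℝ)

/-- open cube -/
def cube (n : ℕ) (δ : ℝ) : Set (EE n) := {x | ∀ i, x i ∈ Ioo (-δ) δ}

/-- product bump -/
noncomputable def bumpF (n : ℕ) (φ : ℝ → ℝ) (c₀ : ℝ) (x : EE n) : ℝ := c₀ * ∏ i, φ (x i)

end Crest.Agent.R130
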