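/-
R130 task A1: the plan `π₀` of a design is a coupling, its cost is `3 ∫ u dμ < ∞`, and every
coupling costs at least that much (weak duality).
-/
import Crest.Agent.R130.Design

set_option autoImplicit false
open MeasureTheory Set
open scoped ENNReal
open Crest.AnalysisR.OT

namespace Crest.Agent.R130
namespace Design

universe u
variable {X : Type u} [MeasurableSpace X] {c : X × X × X → ℝ≥0∞}

theorem S_meas (D : Design c) : MeasurableSet D.S :=
  (D.SQ_meas.union ((D.SP_meas true).union (D.SP_meas false))).union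
    ((D.SS_meas true).union (D.SS_meas false))

theorem SQ_sub_S (D : Design c) : D.SQ ⊆ D.S := fun _ hx => Or.inl (Or.inl hx)

theorem SP_sub_S (D : Design c) (i : Bool) : D.SP i ⊆ D.S := by
  intro x hx
  cases i
  · exact Or.inl (Or.inr (Or.inr hx))
  · exact Or.inl (Or.inr (Or.inl hx))

theorem SS_sub_S (D : Design c) (i : Bool) : D.SS i ⊆ D.S := by
  intro x hx
  cases i
  · exact Or.inr (Or.inr hx)
  · exact Or.inr (Or.inl hx)

theorem ae_mem_SQ (D : Design c) : ∀ᵐ q ∂D.ν, q ∈ D.SQ := mem_ae_iff.mpr D.ν_SQ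

theorem μi_compl_S (D : Design c) (i : Bool) : D.μi i D.Sᶜ = 0 := by
  have hS := D.S_meas.compl
  have h1 : D.ν.map (D.p i) D.Sᶜ = 0 := by
    rw [Measure.map_apply (D.p_meas i) hS]
    refine measure_mono_null (t := D.SQᶜ) (fun q hq hqS => hq ?_) D.ν_SQ
    exact D.SP_sub_S i (D.p_mem i q hqS)
  have h2 : D.ν.map (D.b i) D.Sᶜ = 0 := by
    rw [Measure.map_apply (D.b_meas i) hS]
    refine measure_mono_null (t := D.SQᶜ) (fun q hq hqS => hq ?_) D.ν_SQ
    exact D.SS_sub_S i (D.b_mem i q hqS)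
  have h3 : D.ν D.Sᶜ = 0 := measure_mono_null (compl_subset_compl.mpr D.SQ_sub_S) D.ν_SQ
  simp [μi, h1, h2, h3]

/-- the complement of the support is `μ`-null -/
theorem μ_compl_S (D : Design c) : D.μ D.Sᶜ = 0 := by
  simp [μ, D.μi_compl_S]

theorem μ_finite (D : Design c) : IsFiniteMeasure D.μ := by
  have := D.ν_fin
  unfold μ μi
  infer_instance

theorem μ_univ (D : Design c) : D.μ univ = 6 * D.ν univ := by
  simp only [μ, μi, Measure.add_apply, Measure.map_apply (D.p_meas _) MeasurableSet.univ,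
    Measure.map_apply (D.b_meas _) MeasurableSet.univ, preimage_univ]
  ring

theorem lintegral_u_lt_top (D : Design c) : ∫⁻ x, D.u x ∂D.μ < ⊤ := by
  have := D.μ_finite
  obtain ⟨M, hM, hu⟩ := D.u_bdd
  calc ∫⁻ x, D.u x ∂D.μ ≤ ∫⁻ _, M ∂D.μ := lintegral_mono hu
    _ = M * D.μ univ := lintegral_const M
    _ < ⊤ := ENNReal.mul_lt_top hM.lt_top (measure_lt_top _ _)

theorem meas_g1 (D : Design c) (i : Bool) : Measurable (fun q => (D.p i q, q, D.b i q)) :=
  (D.p_meas i).prodMk (measurable_id.prodMk (D.b_meas i))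

theorem meas_g2 (D : Design c) (i : Bool) : Measurable (fun q => (q, D.b i q, D.p i q)) :=
  measurable_id.prodMk ((D.b_meas i).prodMk (D.p_meas i))

theorem meas_g3 (D : Design c) (i : Bool) : Measurable (fun q => (D.b i q, D.p i q, q)) :=
  (D.b_meas i).prodMk ((D.p_meas i).prodMk measurable_id)

theorem map_πi (D : Design c) (i : Bool) :
    (D.πi i).map (fun t => t.1) = D.μi i ∧ (D.πi i).map (fun t => t.2.1) = D.μi i ∧
      (D.πi i).map (fun t => t.2.2) = D.μi i := by
  have m1 : Measurable (fun t : X × X × X => t.1) := measurable_fst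
  have m2 : Measurable (fun t : X × X × X => t.2.1) := measurable_fst.comp measurable_snd
  have m3 : Measurable (fun t : X × X × X => t.2.2) := measurable_snd.comp measurable_snd
  have hid : D.ν.map (fun q => q) = D.ν := Measure.map_id
  refine ⟨?_, ?_, ?_⟩
  · rw [πi, Measure.map_add _ _ m1, Measure.map_add _ _ m1, Measure.map_map m1 (D.meas_g1 i),
      Measure.map_map m1 (D.meas_g2 i), Measure.map_map m1 (D.meas_g3 i)]
    simp only [Function.comp_def, hid, μi]
  · rw [πi, Measure.map_add _ _ m2, Measure.map_add _ _ m2, Measure.map_map m2 (D.meas_g1 i),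
      Measure.map_map m2 (D.meas_g2 i), Measure.map_map m2 (D.meas_g3 i)]
    simp only [Function.comp_def, hid, μi]
    abel
  · rw [πi, Measure.map_add _ _ m3, Measure.map_add _ _ m3, Measure.map_map m3 (D.meas_g1 i),
      Measure.map_map m3 (D.meas_g2 i), Measure.map_map m3 (D.meas_g3 i)]
    simp only [Function.comp_def, hid, μi]
    abel

theorem isCoupling_π₀ (D : Design c) : IsCoupling₃ D.μ D.π₀ := by
  have m1 : Measurable (fun t : X × X × X => t.1) := measurable_fst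
  have m2 : Measurable (fun t : X × X × X => t.2.1) := measurable_fst.comp measurable_snd
  have m3 : Measurable (fun t : X × X × X => t.2.2) := measurable_snd.comp measurable_snd
  refine ⟨?_, ?_, ?_⟩
  · rw [π₀, Measure.map_add _ _ m1, (D.map_πi true).1, (D.map_πi false).1, μ]
  · rw [π₀, Measure.map_add _ _ m2, (D.map_πi true).2.1, (D.map_πi false).2.1, μ]
  · rw [π₀, Measure.map_add _ _ m3, (D.map_πi true).2.2, (D.map_πi false).2.2, μ]

theorem cost_πi (D : Design c) (i : Bool) :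
    ∫⁻ t, c t ∂D.πi i = 3 * ∫⁻ q, c (D.p i q, q, D.b i q) ∂D.ν := by
  rw [πi, lintegral_add_measure, lintegral_add_measure, lintegral_map D.c_meas (D.meas_g1 i),
    lintegral_map D.c_meas (D.meas_g2 i), lintegral_map D.c_meas (D.meas_g3 i)]
  have e2 : ∀ q, c (q, D.b i q, D.p i q) = c (D.p i q, q, D.b i q) := fun q => D.c_rot _ _ _
  have e3 : ∀ q, c (D.b i q, D.p i q, q) = c (D.p i q, q, D.b i q) := fun q => by
    rw [D.c_rot, D.c_rot]
  simp only [e2, e3]
  ring

theorem lintegral_u_μi (D : Design c) (i : Bool) :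
    ∫⁻ q, c (D.p i q, q, D.b i q) ∂D.ν = ∫⁻ x, D.u x ∂D.μi i := by
  have hm1 : Measurable (fun a => D.u (D.p i a)) := D.u_meas.comp (D.p_meas i)
  have hm2 : Measurable (fun a => D.u (D.p i a) + D.u a) := hm1.add D.u_meas
  rw [μi, lintegral_add_measure, lintegral_add_measure, lintegral_map D.u_meas (D.p_meas i),
    lintegral_map D.u_meas (D.b_meas i),
    ← lintegral_add_left hm1, ← lintegral_add_left hm2]
  refine lintegral_congr_ae ?_
  filter_upwards [D.ae_mem_SQ] with q hq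
  exact D.eq i q hq

/-- cost of `π₀` in terms of the graph costs -/
theorem cost_π₀' (D : Design c) :
    ∫⁻ t, c t ∂D.π₀ = 3 * ∫⁻ q, c (D.p true q, q, D.b true q) ∂D.ν
      + 3 * ∫⁻ q, c (D.p false q, q, D.b false q) ∂D.ν := by
  rw [π₀, lintegral_add_measure, D.cost_πi, D.cost_πi]

theorem cost_π₀ (D : Design c) : ∫⁻ t, c t ∂D.π₀ = 3 * ∫⁻ x, D.u x ∂D.μ := by
  rw [D.cost_π₀', D.lintegral_u_μi, D.lintegral_u_μi, μ, lintegral_add_measure, mul_add]

theorem cost_π₀_lt_top (D : Design c) : ∫⁻ t, c t ∂D.π₀ < ⊤ := by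
  rw [D.cost_π₀]
  exact ENNReal.mul_lt_top (by simp) D.lintegral_u_lt_top

/-- weak duality -/
theorem le_cost_of_coupling (D : Design c) (π : Measure (X × X × X))
    (hπ : IsCoupling₃ D.μ π) : 3 * ∫⁻ x, D.u x ∂D.μ ≤ ∫⁻ t, c t ∂π := by
  have m1 : Measurable (fun t : X × X × X => t.1) := measurable_fst
  have m2 : Measurable (fun t : X × X × X => t.2.1) := measurable_fst.comp measurable_snd
  have m3 : Measurable (fun t : X × X × X => t.2.2) := measurable_snd.comp measurable_snd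
  obtain ⟨h1, h2, h3⟩ := hπ
  have i1 : ∫⁻ x, D.u x ∂D.μ = ∫⁻ t, D.u t.1 ∂π := by
    conv_lhs => rw [← h1]
    exact lintegral_map D.u_meas m1
  have i2 : ∫⁻ x, D.u x ∂D.μ = ∫⁻ t, D.u t.2.1 ∂π := by
    conv_lhs => rw [← h2]
    exact lintegral_map D.u_meas m2
  have i3 : ∫⁻ x, D.u x ∂D.μ = ∫⁻ t, D.u t.2.2 ∂π := by
    conv_lhs => rw [← h3]
    exact lintegral_map D.u_meas m3
  have a1 : ∀ᵐ t ∂π, t.1 ∈ D.S := by
    have : π ((fun t : X × X × X => t.1) ⁻¹' D.Sᶜ) = 0 := by
      rw [← Measure.map_apply m1 D.S_meas.compl, h1, D.μ_compl_S]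
    exact mem_ae_iff.mpr this
  have a2 : ∀ᵐ t ∂π, t.2.1 ∈ D.S := by
    have : π ((fun t : X × X × X => t.2.1) ⁻¹' D.Sᶜ) = 0 := by
      rw [← Measure.map_apply m2 D.S_meas.compl, h2, D.μ_compl_S]
    exact mem_ae_iff.mpr this
  have a3 : ∀ᵐ t ∂π, t.2.2 ∈ D.S := by
    have : π ((fun t : X × X × X => t.2.2) ⁻¹' D.Sᶜ) = 0 := by
      rw [← Measure.map_apply m3 D.S_meas.compl, h3, D.μ_compl_S]
    exact mem_ae_iff.mpr this
  calc 3 * ∫⁻ x, D.u x ∂D.μ
      = ∫⁻ x, D.u x ∂D.μ + ∫⁻ x, D.u x ∂D.μ + ∫⁻ x, D.u x ∂D.μ := by ring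
    _ = ∫⁻ t, D.u t.1 ∂π + ∫⁻ t, D.u t.2.1 ∂π + ∫⁻ t, D.u t.2.2 ∂π := by
        rw [← i1, ← i2, ← i3]
    _ = ∫⁻ t, (D.u t.1 + D.u t.2.1 + D.u t.2.2) ∂π := by
        have hm1 : Measurable (fun t : X × X × X => D.u t.1) := D.u_meas.comp m1
        have hm2 : Measurable (fun t : X × X × X => D.u t.1 + D.u t.2.1) :=
          hm1.add (D.u_meas.comp m2)
        rw [lintegral_add_left hm2, lintegral_add_left hm1]
    _ ≤ ∫⁻ t, c t ∂π := by
        refine lintegral_mono_ae ?_
        filter_upwards [a1, a2, a3] with t t1 t2 t3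
        exact D.ineq t.1 t1 t.2.1 t2 t.2.2 t3

end Design
end Crest.Agent.R130
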