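/-
R130 task A3: Monge pairs approach the minimum.

Given `ε`, take `Ξ Θ A` from `D.Approx` for a small `ε'` (with `6 * ε' * ν univ < ε`).  Define
  T₂ x = Ξ i (k x)      on SP i        T₃ x = b i (k x)      on SP i
  T₂ x = p i (k x)      on SS i        T₃ x = Ξ i (k x)      on SS i
  T₂ x = b i (Θ i x)    on SQ ∩ A i    T₃ x = p i (Θ i x)    on SQ ∩ A i
  T₂ x = T₃ x = x       elsewhere.
Write `μ = ∑ i, ν.map (p i) + ν.map (b i) + ν.map (Ξ i)` (using `ν + ν = ν.map (Ξ true) + ν.map (Ξ false)`),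
use `Measure.map_add`, `Measure.map_map`, `Measure.map_congr` (a.e. on `SQ`).
The triples are cyclic rotations of `(p i q, Ξ i q, b i q)`.
-/
import Crest.Agent.R130.DesignOpt

set_option autoImplicit false
open MeasureTheory Set
open scoped ENNReal
open Crest.AnalysisR.OT

namespace Crest.Agent.R130
namespace Design

universe u
variable {X : Type u} [MeasurableSpace X] {c : X × X × X → ℝ≥0∞}

open Classical in
/-- glue six maps along six sets (first match wins), identity elsewhere -/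
noncomputable def glue6 (P S A : Bool → Set X) (f g h : Bool → X → X) (x : X) : X :=
  if x ∈ P true then f true x else if x ∈ P false then f false x
  else if x ∈ S true then g true x else if x ∈ S false then g false x
  else if x ∈ A true then h true x else if x ∈ A false then h false x else x

theorem measurable_glue6 {P S A : Bool → Set X} {f g h : Bool → X → X}
    (hP : ∀ i, MeasurableSet (P i)) (hS : ∀ i, MeasurableSet (S i)) (hA : ∀ i, MeasurableSet (A i))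
    (hf : ∀ i, Measurable (f i)) (hg : ∀ i, Measurable (g i)) (hh : ∀ i, Measurable (h i)) :
    Measurable (glue6 P S A f g h) := by
  classical
  unfold glue6
  exact Measurable.ite (hP _) (hf _) (Measurable.ite (hP _) (hf _) (Measurable.ite (hS _) (hg _)
    (Measurable.ite (hS _) (hg _) (Measurable.ite (hA _) (hh _)
      (Measurable.ite (hA _) (hh _) measurable_id)))))

theorem glue6_P {P S A : Bool → Set X} {f g h : Bool → X → X}
    (hPP : Disjoint (P true) (P false)) (i : Bool) {x : X} (hx : x ∈ P i) :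
    glue6 P S A f g h x = f i x := by
  classical
  unfold glue6
  cases i
  · have : x ∉ P true := fun h' => (Set.disjoint_left.1 hPP h') hx
    simp [this, hx]
  · simp [hx]

theorem glue6_S {P S A : Bool → Set X} {f g h : Bool → X → X}
    (hSS : Disjoint (S true) (S false)) (i : Bool) {x : X} (hx : x ∈ S i)
    (hxP : ∀ j, x ∉ P j) :
    glue6 P S A f g h x = g i x := by
  classical
  unfold glue6
  cases i
  · have : x ∉ S true := fun h' => (Set.disjoint_left.1 hSS h') hx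
    simp [this, hx, hxP]
  · simp [hx, hxP]

theorem glue6_A {P S A : Bool → Set X} {f g h : Bool → X → X}
    (hAA : Disjoint (A true) (A false)) (i : Bool) {x : X} (hx : x ∈ A i)
    (hxP : ∀ j, x ∉ P j) (hxS : ∀ j, x ∉ S j) :
    glue6 P S A f g h x = h i x := by
  classical
  unfold glue6
  cases i
  · have : x ∉ A true := fun h' => (Set.disjoint_left.1 hAA h') hx
    simp [this, hx, hxP, hxS]
  · simp [hx, hxP, hxS]

theorem map_piece (D : Design c) {T f g : X → X} (hT : Measurable T) (hf : Measurable f)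
    (h : ∀ q ∈ D.SQ, T (f q) = g q) : (D.ν.map f).map T = D.ν.map g := by
  rw [Measure.map_map hT hf]
  apply Measure.map_congr
  filter_upwards [D.ae_mem_SQ] with q hq
  exact h q hq

theorem cost_piece (D : Design c) {F : X → ℝ≥0∞} {f : X → X} (hF : Measurable F)
    (hf : Measurable f) (i : Bool) (ε' : ℝ≥0∞)
    (h : ∀ q ∈ D.SQ, F (f q) ≤ c (D.p i q, q, D.b i q) + ε') :
    ∫⁻ x, F x ∂(D.ν.map f) ≤ ∫⁻ q, c (D.p i q, q, D.b i q) ∂D.ν + ε' * D.ν univ := by
  rw [lintegral_map hF hf]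
  calc ∫⁻ q, F (f q) ∂D.ν ≤ ∫⁻ q, (c (D.p i q, q, D.b i q) + ε') ∂D.ν := by
        apply lintegral_mono_ae
        filter_upwards [D.ae_mem_SQ] with q hq
        exact h q hq
    _ = ∫⁻ q, c (D.p i q, q, D.b i q) ∂D.ν + ε' * D.ν univ := by
        rw [lintegral_add_right _ measurable_const, lintegral_const]

theorem approx_core (D : Design c) (ε' : ℝ≥0∞) (Ξ Θ : Bool → X → X) (A : Bool → Set X)
    (hΞ : ∀ i, Measurable (Ξ i)) (hΘ : ∀ i, Measurable (Θ i)) (hAm : ∀ i, MeasurableSet (A i))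
    (hAA : Disjoint (A true) (A false))
    (hq : ∀ i, ∀ q ∈ D.SQ, Ξ i q ∈ A i ∧ Ξ i q ∈ D.SQ ∧ Θ i (Ξ i q) = q ∧
      c (D.p i q, Ξ i q, D.b i q) ≤ c (D.p i q, q, D.b i q) + ε')
    (hsum : D.ν.map (Ξ true) + D.ν.map (Ξ false) = D.ν + D.ν) :
    ∃ T₂ T₃ : X → X, Measurable T₂ ∧ Measurable T₃ ∧ D.μ.map T₂ = D.μ ∧ D.μ.map T₃ = D.μ ∧
      ∫⁻ x, c (x, T₂ x, T₃ x) ∂D.μ ≤ ∫⁻ t, c t ∂D.π₀ + 6 * (ε' * D.ν univ) := by
  set T₂ : X → X := glue6 D.SP D.SS A (fun i x => Ξ i (D.k x)) (fun i x => D.p i (D.k x))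
    (fun i x => D.b i (Θ i x)) with hT₂def
  set T₃ : X → X := glue6 D.SP D.SS A (fun i x => D.b i (D.k x)) (fun i x => Ξ i (D.k x))
    (fun i x => D.p i (Θ i x)) with hT₃def
  have hT₂ : Measurable T₂ := measurable_glue6 D.SP_meas D.SS_meas hAm
    (fun i => (hΞ i).comp D.k_meas) (fun i => (D.p_meas i).comp D.k_meas)
    (fun i => (D.b_meas i).comp (hΘ i))
  have hT₃ : Measurable T₃ := measurable_glue6 D.SP_meas D.SS_meas hAm
    (fun i => (D.b_meas i).comp D.k_meas) (fun i => (hΞ i).comp D.k_meas)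
    (fun i => (D.p_meas i).comp (hΘ i))
  -- membership facts
  have nbP : ∀ i q, q ∈ D.SQ → ∀ j, D.b i q ∉ D.SP j := fun i q h j h' =>
    Set.disjoint_left.1 (D.disj_PS j i) h' (D.b_mem i q h)
  have nXP : ∀ i q, q ∈ D.SQ → ∀ j, Ξ i q ∉ D.SP j := fun i q h j h' =>
    Set.disjoint_left.1 (D.disj_QP j) (hq i q h).2.1 h'
  have nXS : ∀ i q, q ∈ D.SQ → ∀ j, Ξ i q ∉ D.SS j := fun i q h j h' =>
    Set.disjoint_left.1 (D.disj_QS j) (hq i q h).2.1 h'
  -- evaluation
  have e2p : ∀ i, ∀ q ∈ D.SQ, T₂ (D.p i q) = Ξ i q := fun i q h => by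
    rw [hT₂def, glue6_P D.disj_PP i (D.p_mem i q h)]; simp only [D.k_p i q h]
  have e3p : ∀ i, ∀ q ∈ D.SQ, T₃ (D.p i q) = D.b i q := fun i q h => by
    rw [hT₃def, glue6_P D.disj_PP i (D.p_mem i q h)]; simp only [D.k_p i q h]
  have e2b : ∀ i, ∀ q ∈ D.SQ, T₂ (D.b i q) = D.p i q := fun i q h => by
    rw [hT₂def, glue6_S D.disj_SS i (D.b_mem i q h) (nbP i q h)]; simp only [D.k_b i q h]
  have e3b : ∀ i, ∀ q ∈ D.SQ, T₃ (D.b i q) = Ξ i q := fun i q h => by
    rw [hT₃def, glue6_S D.disj_SS i (D.b_mem i q h) (nbP i q h)]; simp only [D.k_b i q h]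
  have e2X : ∀ i, ∀ q ∈ D.SQ, T₂ (Ξ i q) = D.b i q := fun i q h => by
    rw [hT₂def, glue6_A hAA i (hq i q h).1 (nXP i q h) (nXS i q h)]; simp only [(hq i q h).2.2.1]
  have e3X : ∀ i, ∀ q ∈ D.SQ, T₃ (Ξ i q) = D.p i q := fun i q h => by
    rw [hT₃def, glue6_A hAA i (hq i q h).1 (nXP i q h) (nXS i q h)]; simp only [(hq i q h).2.2.1]
  -- representation of μ
  have hμ : D.μ = (D.ν.map (D.p true) + D.ν.map (Ξ true) + D.ν.map (D.b true)) +
      (D.ν.map (D.p false) + D.ν.map (Ξ false) + D.ν.map (D.b false)) := by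
    unfold Design.μ Design.μi
    calc D.ν.map (D.p true) + D.ν + D.ν.map (D.b true) +
          (D.ν.map (D.p false) + D.ν + D.ν.map (D.b false))
        = D.ν.map (D.p true) + D.ν.map (D.b true) + D.ν.map (D.p false) + D.ν.map (D.b false)
          + (D.ν + D.ν) := by abel
      _ = D.ν.map (D.p true) + D.ν.map (D.b true) + D.ν.map (D.p false) + D.ν.map (D.b false)
          + (D.ν.map (Ξ true) + D.ν.map (Ξ false)) := by rw [hsum]
      _ = _ := by abel
  refine ⟨T₂, T₃, hT₂, hT₃, ?_, ?_, ?_⟩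
  · conv_lhs => rw [hμ]
    simp only [Measure.map_add _ _ hT₂]
    rw [D.map_piece hT₂ (D.p_meas true) (e2p true), D.map_piece hT₂ (D.p_meas false) (e2p false),
      D.map_piece hT₂ (D.b_meas true) (e2b true), D.map_piece hT₂ (D.b_meas false) (e2b false),
      D.map_piece hT₂ (hΞ true) (e2X true), D.map_piece hT₂ (hΞ false) (e2X false), hμ]
    abel
  · conv_lhs => rw [hμ]
    simp only [Measure.map_add _ _ hT₃]
    rw [D.map_piece hT₃ (D.p_meas true) (e3p true), D.map_piece hT₃ (D.p_meas false) (e3p false),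
      D.map_piece hT₃ (D.b_meas true) (e3b true), D.map_piece hT₃ (D.b_meas false) (e3b false),
      D.map_piece hT₃ (hΞ true) (e3X true), D.map_piece hT₃ (hΞ false) (e3X false), hμ]
    abel
  · have hF : Measurable (fun x => c (x, T₂ x, T₃ x)) :=
      D.c_meas.comp (measurable_id.prodMk (hT₂.prodMk hT₃))
    have cp : ∀ i, ∫⁻ x, c (x, T₂ x, T₃ x) ∂(D.ν.map (D.p i)) ≤
        ∫⁻ q, c (D.p i q, q, D.b i q) ∂D.ν + ε' * D.ν univ := fun i =>
      D.cost_piece hF (D.p_meas i) i ε' (fun q h => by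
        simp only [e2p i q h, e3p i q h]; exact (hq i q h).2.2.2)
    have cX : ∀ i, ∫⁻ x, c (x, T₂ x, T₃ x) ∂(D.ν.map (Ξ i)) ≤
        ∫⁻ q, c (D.p i q, q, D.b i q) ∂D.ν + ε' * D.ν univ := fun i =>
      D.cost_piece hF (hΞ i) i ε' (fun q h => by
        simp only [e2X i q h, e3X i q h]; rw [D.c_rot]; exact (hq i q h).2.2.2)
    have cb : ∀ i, ∫⁻ x, c (x, T₂ x, T₃ x) ∂(D.ν.map (D.b i)) ≤
        ∫⁻ q, c (D.p i q, q, D.b i q) ∂D.ν + ε' * D.ν univ := fun i =>
      D.cost_piece hF (D.b_meas i) i ε' (fun q h => by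
        simp only [e2b i q h, e3b i q h]; rw [D.c_rot, D.c_rot]; exact (hq i q h).2.2.2)
    rw [hμ, D.cost_π₀']
    simp only [lintegral_add_measure]
    calc _ ≤ ((∫⁻ q, c (D.p true q, q, D.b true q) ∂D.ν + ε' * D.ν univ) +
            (∫⁻ q, c (D.p true q, q, D.b true q) ∂D.ν + ε' * D.ν univ) +
            (∫⁻ q, c (D.p true q, q, D.b true q) ∂D.ν + ε' * D.ν univ)) +
          ((∫⁻ q, c (D.p false q, q, D.b false q) ∂D.ν + ε' * D.ν univ) +
            (∫⁻ q, c (D.p false q, q, D.b false q) ∂D.ν + ε' * D.ν univ) +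
            (∫⁻ q, c (D.p false q, q, D.b false q) ∂D.ν + ε' * D.ν univ)) :=
          add_le_add (add_le_add (add_le_add (cp true) (cX true)) (cb true))
            (add_le_add (add_le_add (cp false) (cX false)) (cb false))
      _ = _ := by ring

theorem approx_monge (D : Design c) (hA : D.Approx) (ε : ℝ≥0∞) (hε : 0 < ε) :
    ∃ T₂ T₃ : X → X, Measurable T₂ ∧ Measurable T₃ ∧ D.μ.map T₂ = D.μ ∧ D.μ.map T₃ = D.μ ∧
      ∫⁻ x, c (x, T₂ x, T₃ x) ∂D.μ < ∫⁻ t, c t ∂D.π₀ + ε := by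
  have := D.ν_fin
  have hN : 6 * D.ν univ ≠ ⊤ := ENNReal.mul_ne_top (by norm_num) (measure_ne_top _ _)
  obtain ⟨n, hn0, hn⟩ := ENNReal.exists_nnreal_pos_mul_lt hN hε.ne'
  obtain ⟨Ξ, Θ, A, hΞ, hΘ, hAm, hAA, hq, hsum⟩ := hA (n : ℝ≥0∞) (by exact_mod_cast hn0)
  obtain ⟨T₂, T₃, h₂, h₃, m₂, m₃, hc⟩ := D.approx_core n Ξ Θ A hΞ hΘ hAm hAA hq hsum
  refine ⟨T₂, T₃, h₂, h₃, m₂, m₃, lt_of_le_of_lt hc ?_⟩
  apply ENNReal.add_lt_add_left D.cost_π₀_lt_top.ne
  calc 6 * ((n : ℝ≥0∞) * D.ν univ) = (n : ℝ≥0∞) * (6 * D.ν univ) := by ring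
    _ < ε := hn

end Design
end Crest.Agent.R130
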