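/-
R130 task A2: no Monge pair attains the minimum.

Proof sketch.  Suppose `∫ c(x,T₂x,T₃x) dμ ≤ 3 ∫ u dμ`.  For μ-a.e. x the points x, T₂x, T₃x lie
in `D.S` (as `μ.map Tᵢ = μ` and `μ Sᶜ = 0`), so `u x + u (T₂x) + u (T₃x) ≤ c (x,T₂x,T₃x)` a.e.,
the integral of the left side is `3 ∫ u dμ` (finite), hence equality a.e.
(`ae_eq_of_ae_le_of_lintegral_le`), hence by `D.contact` a.e. triple is a permutation of
`(p i q, q, b i q)`.  For measurable `E` put `B := SS true ∩ k⁻¹ E`.  Then `μ B = ν E`, and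
`3 ν E = μ B + μ (T₂⁻¹ B) + μ (T₃⁻¹ B) = ∫ (number of coordinates of (x,T₂x,T₃x) in B) dμ`.
For a contact triple that number is `1` if `i = true ∧ q ∈ E` and `0` otherwise; splitting x over
the clusters gives `ν E + ν E + 2 ν (Aᵀ ∩ E)` with
`Aᵀ := {x ∈ SQ | T₂ x ∈ SS true ∨ T₃ x ∈ SS true}`.  So `ν E = 2 ν (Aᵀ ∩ E)` for all measurable E;
`E = Aᵀ` gives `ν Aᵀ = 0`, `E = univ` gives `ν univ = 0`, contradiction with `ν ≠ 0`.
-/
import Crest.Agent.R130.DesignOpt

set_option autoImplicit false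
open MeasureTheory Set
open scoped ENNReal
open Crest.AnalysisR.OT

namespace Crest.Agent.R130
namespace Design

universe u
variable {X : Type u} [MeasurableSpace X] {c : X × X × X → ℝ≥0∞}

omit [MeasurableSpace X] in
theorem perm3_sum {x y z a q b : X} (f : X → ℝ≥0∞) (h : Perm3 x y z a q b) :
    f x + f y + f z = f a + f q + f b := by
  rcases h with ⟨rfl, rfl, rfl⟩ | ⟨rfl, rfl, rfl⟩ | ⟨rfl, rfl, rfl⟩ | ⟨rfl, rfl, rfl⟩ |
    ⟨rfl, rfl, rfl⟩ | ⟨rfl, rfl, rfl⟩ <;> ring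

theorem lint_zero {m : Measure X} {g : X → ℝ≥0∞} (h : ∀ᵐ x ∂m, g x = 0) :
    ∫⁻ x, g x ∂m = 0 := by
  rw [lintegral_congr_ae (g := fun _ => 0) h]; simp

theorem lintegral_μ (D : Design c) (f : X → ℝ≥0∞) (hf : Measurable f) :
    ∫⁻ x, f x ∂D.μ =
      (∫⁻ q, f (D.p true q) ∂D.ν + ∫⁻ q, f q ∂D.ν + ∫⁻ q, f (D.b true q) ∂D.ν)
      + (∫⁻ q, f (D.p false q) ∂D.ν + ∫⁻ q, f q ∂D.ν + ∫⁻ q, f (D.b false q) ∂D.ν) := by
  simp only [μ, μi, lintegral_add_measure, lintegral_map hf (D.p_meas _),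
    lintegral_map hf (D.b_meas _)]

theorem ae_μ (D : Design c) {P : X → Prop} (h : ∀ᵐ x ∂D.μ, P x) (i : Bool) :
    (∀ᵐ q ∂D.ν, P (D.p i q)) ∧ (∀ᵐ q ∂D.ν, P q) ∧ (∀ᵐ q ∂D.ν, P (D.b i q)) := by
  simp only [μ, μi, ae_add_measure_iff] at h
  obtain ⟨⟨⟨h1, h2⟩, h3⟩, ⟨⟨h4, h5⟩, h6⟩⟩ := h
  cases i
  · exact ⟨ae_of_ae_map (D.p_meas false).aemeasurable h4, h5,
      ae_of_ae_map (D.b_meas false).aemeasurable h6⟩
  · exact ⟨ae_of_ae_map (D.p_meas true).aemeasurable h1, h2,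
      ae_of_ae_map (D.b_meas true).aemeasurable h3⟩

theorem SP_ne (D : Design c) {i j : Bool} {x : X} (hi : x ∈ D.SP i) (hj : x ∈ D.SP j) : i = j := by
  cases i <;> cases j
  · rfl
  · exact (Set.disjoint_left.mp D.disj_PP hj hi).elim
  · exact (Set.disjoint_left.mp D.disj_PP hi hj).elim
  · rfl

theorem SS_ne (D : Design c) {i j : Bool} {x : X} (hi : x ∈ D.SS i) (hj : x ∈ D.SS j) : i = j := by
  cases i <;> cases j
  · rfl
  · exact (Set.disjoint_left.mp D.disj_SS hj hi).elim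
  · exact (Set.disjoint_left.mp D.disj_SS hi hj).elim
  · rfl

/-- a contact triple whose first entry is `p i' q'` has label `(i', q')`. -/
theorem idP (D : Design c) {i' i : Bool} {q' q y z : X} (hq' : q' ∈ D.SQ) (hq : q ∈ D.SQ)
    (h : Perm3 (D.p i' q') y z (D.p i q) q (D.b i q)) : i = i' ∧ q = q' := by
  have hx := D.p_mem i' q' hq'
  have key : D.p i' q' = D.p i q ∨ D.p i' q' = q ∨ D.p i' q' = D.b i q := by
    rcases h with ⟨e, -, -⟩ | ⟨e, -, -⟩ | ⟨e, -, -⟩ | ⟨e, -, -⟩ | ⟨e, -, -⟩ | ⟨e, -, -⟩ <;> simp [e]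
  rcases key with e | e | e
  · refine ⟨?_, ?_⟩
    · exact D.SP_ne (D.p_mem i q hq) (e ▸ hx)
    · rw [← D.k_p i q hq, ← e, D.k_p i' q' hq']
  · exact (Set.disjoint_left.mp (D.disj_QP i') (e ▸ hq) hx).elim
  · exact (Set.disjoint_left.mp (D.disj_PS i' i) hx (e ▸ D.b_mem i q hq)).elim

/-- a contact triple whose first entry is `b i' q'` has label `(i', q')`. -/
theorem idB (D : Design c) {i' i : Bool} {q' q y z : X} (hq' : q' ∈ D.SQ) (hq : q ∈ D.SQ)
    (h : Perm3 (D.b i' q') y z (D.p i q) q (D.b i q)) : i = i' ∧ q = q' := by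
  have hx := D.b_mem i' q' hq'
  have key : D.b i' q' = D.p i q ∨ D.b i' q' = q ∨ D.b i' q' = D.b i q := by
    rcases h with ⟨e, -, -⟩ | ⟨e, -, -⟩ | ⟨e, -, -⟩ | ⟨e, -, -⟩ | ⟨e, -, -⟩ | ⟨e, -, -⟩ <;> simp [e]
  rcases key with e | e | e
  · exact (Set.disjoint_left.mp (D.disj_PS i i') (e ▸ D.p_mem i q hq) hx).elim
  · exact (Set.disjoint_left.mp (D.disj_QS i') (e ▸ hq) hx).elim
  · refine ⟨?_, ?_⟩
    · exact D.SS_ne (D.b_mem i q hq) (e ▸ hx)
    · rw [← D.k_b i q hq, ← e, D.k_b i' q' hq']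

/-- a contact triple whose first entry `q'` lies in the central cluster. -/
theorem idQ (D : Design c) {i : Bool} {q' q y z : X} (hq' : q' ∈ D.SQ) (hq : q ∈ D.SQ)
    (h : Perm3 q' y z (D.p i q) q (D.b i q)) :
    q = q' ∧ ((y ∈ D.SS true ∨ z ∈ D.SS true) ↔ i = true) := by
  have hp := D.p_mem i q hq
  have hb := D.b_mem i q hq
  have np : D.p i q ∉ D.SS true := fun h => Set.disjoint_left.mp (D.disj_PS i true) hp h
  have hbi : D.b i q ∈ D.SS true ↔ i = true :=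
    ⟨fun h => D.SS_ne hb h, fun h => h ▸ hb⟩
  rcases h with ⟨e, -, -⟩ | ⟨e, -, -⟩ | ⟨e, rfl, rfl⟩ | ⟨e, rfl, rfl⟩ | ⟨e, -, -⟩ | ⟨e, -, -⟩
  · exact (Set.disjoint_left.mp (D.disj_QP i) hq' (e ▸ hp)).elim
  · exact (Set.disjoint_left.mp (D.disj_QP i) hq' (e ▸ hp)).elim
  · exact ⟨e.symm, by simp [np, hbi]⟩
  · exact ⟨e.symm, by simp [np, hbi]⟩
  · exact (Set.disjoint_left.mp (D.disj_QS i) hq' (e ▸ hb)).elim
  · exact (Set.disjoint_left.mp (D.disj_QS i) hq' (e ▸ hb)).elim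

theorem no_monge (D : Design c) (T₂ T₃ : X → X) (h₂ : Measurable T₂) (h₃ : Measurable T₃)
    (m₂ : D.μ.map T₂ = D.μ) (m₃ : D.μ.map T₃ = D.μ) :
    3 * ∫⁻ x, D.u x ∂D.μ < ∫⁻ x, c (x, T₂ x, T₃ x) ∂D.μ := by
  classical
  by_contra hcon
  rw [not_lt] at hcon
  have hfin := D.μ_finite
  have hνfin := D.ν_fin
  have aS : ∀ᵐ x ∂D.μ, x ∈ D.S := mem_ae_iff.mpr D.μ_compl_S
  have aS2 : ∀ᵐ x ∂D.μ, T₂ x ∈ D.S := by
    have : D.μ (T₂ ⁻¹' D.Sᶜ) = 0 := by
      rw [← Measure.map_apply h₂ D.S_meas.compl, m₂, D.μ_compl_S]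
    exact mem_ae_iff.mpr this
  have aS3 : ∀ᵐ x ∂D.μ, T₃ x ∈ D.S := by
    have : D.μ (T₃ ⁻¹' D.Sᶜ) = 0 := by
      rw [← Measure.map_apply h₃ D.S_meas.compl, m₃, D.μ_compl_S]
    exact mem_ae_iff.mpr this
  have inv2 : ∀ f : X → ℝ≥0∞, Measurable f → ∫⁻ x, f (T₂ x) ∂D.μ = ∫⁻ x, f x ∂D.μ := by
    intro f hf
    rw [← lintegral_map hf h₂, m₂]
  have inv3 : ∀ f : X → ℝ≥0∞, Measurable f → ∫⁻ x, f (T₃ x) ∂D.μ = ∫⁻ x, f x ∂D.μ := by
    intro f hf
    rw [← lintegral_map hf h₃, m₃]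
  have sum3 : ∀ f : X → ℝ≥0∞, Measurable f →
      ∫⁻ x, (f x + f (T₂ x) + f (T₃ x)) ∂D.μ = 3 * ∫⁻ x, f x ∂D.μ := by
    intro f hf
    have hm2 : Measurable (fun x => f x + f (T₂ x)) := hf.add (hf.comp h₂)
    rw [lintegral_add_left hm2, lintegral_add_left hf, inv2 f hf, inv3 f hf]
    ring
  have hle : (fun x => D.u x + D.u (T₂ x) + D.u (T₃ x)) ≤ᵐ[D.μ] fun x => c (x, T₂ x, T₃ x) := by
    filter_upwards [aS, aS2, aS3] with x a b c'
    exact D.ineq x a _ b _ c'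
  have hgm : Measurable (fun x => c (x, T₂ x, T₃ x)) :=
    D.c_meas.comp (measurable_id.prodMk (h₂.prodMk h₃))
  have heq := ae_eq_of_ae_le_of_lintegral_le hle
    (by rw [sum3 _ D.u_meas]; exact (ENNReal.mul_lt_top (by simp) D.lintegral_u_lt_top).ne)
    hgm.aemeasurable (by rw [sum3 _ D.u_meas]; exact hcon)
  have hcontact : ∀ᵐ x ∂D.μ, ∃ i, ∃ q ∈ D.SQ, Perm3 x (T₂ x) (T₃ x) (D.p i q) q (D.b i q) := by
    filter_upwards [aS, aS2, aS3, heq] with x a b c' e
    exact D.contact x a _ b _ c' e.symm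
  set AT : Set X := T₂ ⁻¹' D.SS true ∪ T₃ ⁻¹' D.SS true with hAT
  have hATm : MeasurableSet AT := (h₂ (D.SS_meas true)).union (h₃ (D.SS_meas true))
  have key : ∀ E : Set X, MeasurableSet E → D.ν E = 2 * D.ν (AT ∩ E) := by
    intro E hE
    set B : Set X := D.SS true ∩ D.k ⁻¹' E with hB
    have hBm : MeasurableSet B := (D.SS_meas true).inter (D.k_meas hE)
    set f : X → ℝ≥0∞ := B.indicator 1 with hf
    have hfm : Measurable f := measurable_one.indicator hBm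
    have hBp : ∀ i, ∀ q ∈ D.SQ, f (D.p i q) = 0 := by
      intro i q hq
      refine Set.indicator_of_notMem (fun h => ?_) _
      exact Set.disjoint_left.mp (D.disj_PS i true) (D.p_mem i q hq) h.1
    have hBq : ∀ q ∈ D.SQ, f q = 0 := by
      intro q hq
      refine Set.indicator_of_notMem (fun h => ?_) _
      exact Set.disjoint_left.mp (D.disj_QS true) hq h.1
    have hBbf : ∀ q ∈ D.SQ, f (D.b false q) = 0 := by
      intro q hq
      refine Set.indicator_of_notMem (fun h => ?_) _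
      exact Set.disjoint_left.mp D.disj_SS h.1 (D.b_mem false q hq)
    have hBbt : ∀ q ∈ D.SQ, f (D.b true q) = E.indicator 1 q := by
      intro q hq
      have hmem : D.b true q ∈ B ↔ q ∈ E := by
        constructor
        · intro h
          have := h.2
          simp only [Set.mem_preimage, D.k_b true q hq] at this
          exact this
        · intro h
          refine ⟨D.b_mem true q hq, ?_⟩
          simp only [Set.mem_preimage, D.k_b true q hq]
          exact h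
      by_cases hqE : q ∈ E
      · rw [Set.indicator_of_mem hqE, hf, Set.indicator_of_mem (hmem.mpr hqE)]
        rfl
      · rw [Set.indicator_of_notMem hqE, hf, Set.indicator_of_notMem (fun h => hqE (hmem.mp h))]
    have hN : ∀ x, ∀ i, ∀ q ∈ D.SQ, Perm3 x (T₂ x) (T₃ x) (D.p i q) q (D.b i q) →
        f x + f (T₂ x) + f (T₃ x) = f (D.b i q) := by
      intro x i q hq h
      rw [perm3_sum f h, hBp i q hq, hBq q hq, zero_add, zero_add]
    -- the measure of `B`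
    have hμB : ∫⁻ x, f x ∂D.μ = D.ν E := by
      rw [D.lintegral_μ f hfm]
      have z1 : ∀ i, ∫⁻ q, f (D.p i q) ∂D.ν = 0 := by
        intro i
        refine lint_zero ?_
        filter_upwards [D.ae_mem_SQ] with q hq using hBp i q hq
      have z2 : ∫⁻ q, f q ∂D.ν = 0 := by
        refine lint_zero ?_
        filter_upwards [D.ae_mem_SQ] with q hq using hBq q hq
      have z3 : ∫⁻ q, f (D.b false q) ∂D.ν = 0 := by
        refine lint_zero ?_
        filter_upwards [D.ae_mem_SQ] with q hq using hBbf q hq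
      have z4 : ∫⁻ q, f (D.b true q) ∂D.ν = D.ν E := by
        rw [← lintegral_indicator_one hE]
        refine lintegral_congr_ae ?_
        filter_upwards [D.ae_mem_SQ] with q hq using hBbt q hq
      rw [z1, z1, z2, z3, z4]
      simp
    -- the counting function
    set N : X → ℝ≥0∞ := fun x => f x + f (T₂ x) + f (T₃ x) with hNdef
    have hNm : Measurable N := (hfm.add (hfm.comp h₂)).add (hfm.comp h₃)
    have hint : ∫⁻ x, N x ∂D.μ = 3 * D.ν E := by
      rw [hNdef, sum3 f hfm, hμB]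
    have c1 : ∫⁻ q, N (D.p true q) ∂D.ν = D.ν E := by
      rw [← lintegral_indicator_one hE]
      refine lintegral_congr_ae ?_
      filter_upwards [D.ae_mem_SQ, (D.ae_μ hcontact true).1] with q' hq' ⟨i, q, hq, h⟩
      obtain ⟨rfl, rfl⟩ := D.idP hq' hq h
      rw [hNdef]
      simp only
      rw [hN _ _ q hq h, hBbt q hq]
    have c2 : ∫⁻ q, N (D.p false q) ∂D.ν = 0 := by
      refine lint_zero ?_
      filter_upwards [D.ae_mem_SQ, (D.ae_μ hcontact false).1] with q' hq' ⟨i, q, hq, h⟩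
      obtain ⟨rfl, rfl⟩ := D.idP hq' hq h
      rw [hNdef]
      simp only
      rw [hN _ _ q hq h, hBbf q hq]
    have c3 : ∫⁻ q, N (D.b true q) ∂D.ν = D.ν E := by
      rw [← lintegral_indicator_one hE]
      refine lintegral_congr_ae ?_
      filter_upwards [D.ae_mem_SQ, (D.ae_μ hcontact true).2.2] with q' hq' ⟨i, q, hq, h⟩
      obtain ⟨rfl, rfl⟩ := D.idB hq' hq h
      rw [hNdef]
      simp only
      rw [hN _ _ q hq h, hBbt q hq]
    have c4 : ∫⁻ q, N (D.b false q) ∂D.ν = 0 := by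
      refine lint_zero ?_
      filter_upwards [D.ae_mem_SQ, (D.ae_μ hcontact false).2.2] with q' hq' ⟨i, q, hq, h⟩
      obtain ⟨rfl, rfl⟩ := D.idB hq' hq h
      rw [hNdef]
      simp only
      rw [hN _ _ q hq h, hBbf q hq]
    have c5 : ∫⁻ q, N q ∂D.ν = D.ν (AT ∩ E) := by
      rw [← lintegral_indicator_one (hATm.inter hE)]
      refine lintegral_congr_ae ?_
      filter_upwards [D.ae_mem_SQ, (D.ae_μ hcontact true).2.1] with q' hq' ⟨i, q, hq, h⟩
      obtain ⟨rfl, hi⟩ := D.idQ hq' hq h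
      rw [hNdef]
      simp only
      rw [hN _ _ q hq h]
      have hmem : q ∈ AT ↔ i = true := hi
      cases i
      · rw [hBbf q hq, Set.indicator_of_notMem]
        intro hh
        exact absurd (hmem.mp hh.1) (by simp)
      · rw [hBbt q hq]
        have hqA : q ∈ AT := hmem.mpr rfl
        by_cases hqE : q ∈ E
        · have hqAE : q ∈ AT ∩ E := Set.mem_inter hqA hqE
          rw [Set.indicator_of_mem hqE, Set.indicator_of_mem hqAE]
        · have hqAE : q ∉ AT ∩ E := fun hh => hqE hh.2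
          rw [Set.indicator_of_notMem hqE, Set.indicator_of_notMem hqAE]
    rw [D.lintegral_μ N hNm, c1, c2, c3, c4, c5] at hint
    have hfinE : D.ν E ≠ ⊤ := measure_ne_top _ _
    have h2 : 2 * D.ν E + 2 * D.ν (AT ∩ E) = 2 * D.ν E + D.ν E := by
      calc 2 * D.ν E + 2 * D.ν (AT ∩ E)
          = D.ν E + D.ν (AT ∩ E) + D.ν E + (0 + D.ν (AT ∩ E) + 0) := by ring
        _ = 3 * D.ν E := hint
        _ = 2 * D.ν E + D.ν E := by ring
    exact ((ENNReal.add_right_inj (ENNReal.mul_ne_top (by simp) hfinE)).mp h2).symm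
  have k1 := key AT hATm
  rw [Set.inter_self] at k1
  have hAT0 : D.ν AT = 0 := by
    have hfinA : D.ν AT ≠ ⊤ := measure_ne_top _ _
    have : D.ν AT + 0 = D.ν AT + D.ν AT := by
      rw [add_zero, ← two_mul]; exact k1
    exact ((ENNReal.add_right_inj hfinA).mp this).symm
  have k2 := key Set.univ MeasurableSet.univ
  rw [Set.inter_univ, hAT0, mul_zero] at k2
  exact D.ν_ne (Measure.measure_univ_eq_zero.mp k2)

end Design
end Crest.Agent.R130
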