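/-
R130: the abstract main theorem (glue of A1, A2, A3).
-/
import Crest.Agent.R130.DesignOpt
import Crest.Agent.R130.DesignNoMonge
import Crest.Agent.R130.DesignApprox

set_option autoImplicit false
open MeasureTheory Set
open scoped ENNReal
open Crest.AnalysisR.OT

namespace Crest.Agent.R130
namespace Design

universe u
variable {X : Type u} [MeasurableSpace X] {c : X × X × X → ℝ≥0∞}

theorem main (D : Design c) (hA : D.Approx) :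
    ∃ π₀ : Measure (X × X × X), IsCoupling₃ D.μ π₀ ∧ ∫⁻ t, c t ∂π₀ < ⊤ ∧
      (∀ π : Measure (X × X × X), IsCoupling₃ D.μ π → ∫⁻ t, c t ∂π₀ ≤ ∫⁻ t, c t ∂π) ∧
      (∀ T₂ T₃ : X → X, Measurable T₂ → Measurable T₃ → D.μ.map T₂ = D.μ → D.μ.map T₃ = D.μ →
        ∫⁻ t, c t ∂π₀ < ∫⁻ x, c (x, T₂ x, T₃ x) ∂D.μ) ∧
      (∀ ε : ℝ≥0∞, 0 < ε → ∃ T₂ T₃ : X → X, Measurable T₂ ∧ Measurable T₃ ∧
        D.μ.map T₂ = D.μ ∧ D.μ.map T₃ = D.μ ∧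
        ∫⁻ x, c (x, T₂ x, T₃ x) ∂D.μ < ∫⁻ t, c t ∂π₀ + ε) := by
  refine ⟨D.π₀, D.isCoupling_π₀, D.cost_π₀_lt_top, ?_, ?_, ?_⟩
  · intro π hπ
    rw [D.cost_π₀]
    exact D.le_cost_of_coupling π hπ
  · intro T₂ T₃ h₂ h₃ m₂ m₃
    rw [D.cost_π₀]
    exact D.no_monge T₂ T₃ h₂ h₃ m₂ m₃
  · intro ε hε
    exact D.approx_monge hA ε hε

end Design
end Crest.Agent.R130
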