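/-
R130 task G1: a convenient smooth inverse function theorem (finite dimension, `C^∞`).

Hints: `ContDiffAt.toOpenPartialHomeomorph`, `OpenPartialHomeomorph.contDiffAt_symm`,
`ContinuousLinearEquiv.isOpen` / `ContinuousLinearEquiv.nhds` (invertible operators are open),
`LinearEquiv.ofInjectiveEndo` + `LinearEquiv.toContinuousLinearEquiv` (injective ⇒ equivalence),
`OpenPartialHomeomorph.isOpen_image_of_subset_source`.
-/
import Mathlib

set_option autoImplicit false
open Set Metric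
open scoped ContDiff

namespace Crest.Agent.R130

theorem ift_smooth {F : Type*} [NormedAddCommGroup F] [NormedSpace ℝ F] [FiniteDimensional ℝ F]
    (φ : F → F) (x₀ : F) (r₁ : ℝ) (hr₁ : 0 < r₁)
    (hφ : ContDiffOn ℝ ∞ φ (ball x₀ r₁))
    (hinj : Function.Injective (fderiv ℝ φ x₀)) :
    ∃ r₀ : ℝ, 0 < r₀ ∧ r₀ ≤ r₁ ∧ ∃ σ : F → F,
      (∀ x ∈ ball x₀ r₀, σ (φ x) = x) ∧
      (∀ r, r ≤ r₀ → IsOpen (φ '' ball x₀ r)) ∧
      ContDiffOn ℝ ∞ σ (φ '' ball x₀ r₀) := by
  haveI : CompleteSpace F := FiniteDimensional.complete ℝ F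
  have hat : ∀ x ∈ ball x₀ r₁, ContDiffAt ℝ ∞ φ x := fun x hx =>
    hφ.contDiffAt (isOpen_ball.mem_nhds hx)
  have hx₀ : x₀ ∈ ball x₀ r₁ := mem_ball_self hr₁
  -- the derivative at `x₀` as an equivalence
  let e₀ : F ≃ₗ[ℝ] F := LinearEquiv.ofInjectiveEndo (fderiv ℝ φ x₀ : F →ₗ[ℝ] F) hinj
  let e : F ≃L[ℝ] F := e₀.toContinuousLinearEquiv
  have he : (e : F →L[ℝ] F) = fderiv ℝ φ x₀ := by
    ext v
    rfl
  have hd₀ : HasFDerivAt φ (e : F →L[ℝ] F) x₀ := by
    rw [he]
    exact ((hat x₀ hx₀).differentiableAt (by simp)).hasFDerivAt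
  have hn : (∞ : WithTop ℕ∞) ≠ 0 := by simp
  let h : OpenPartialHomeomorph F F := (hat x₀ hx₀).toOpenPartialHomeomorph φ hd₀ hn
  have hcoe : (h : F → F) = φ := rfl
  have hsrc : x₀ ∈ h.source := (hat x₀ hx₀).mem_toOpenPartialHomeomorph_source hd₀ hn
  -- continuity of the derivative
  have hcont : ContinuousAt (fderiv ℝ φ) x₀ := by
    have h1 : ContDiffAt ℝ ∞ (fderiv ℝ φ) x₀ := (hat x₀ hx₀).fderiv_right (m := ∞) (by simp)
    exact h1.continuousAt
  have hopen : IsOpen (range ((↑) : (F ≃L[ℝ] F) → F →L[ℝ] F)) := ContinuousLinearEquiv.isOpen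
  have hmem : fderiv ℝ φ x₀ ∈ range ((↑) : (F ≃L[ℝ] F) → F →L[ℝ] F) := ⟨e, he⟩
  have hnh : ∀ᶠ x in nhds x₀, fderiv ℝ φ x ∈ range ((↑) : (F ≃L[ℝ] F) → F →L[ℝ] F) :=
    hcont.eventually (hopen.mem_nhds hmem)
  have hnh2 : ∀ᶠ x in nhds x₀, x ∈ h.source := h.open_source.mem_nhds hsrc
  obtain ⟨r, hr, hball⟩ := Metric.eventually_nhds_iff_ball.1 (hnh.and hnh2)
  refine ⟨min r r₁, lt_min hr hr₁, min_le_right _ _, h.symm, ?_, ?_, ?_⟩
  · intro x hx
    have hx' : x ∈ ball x₀ r := ball_subset_ball (min_le_left _ _) hx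
    have := h.left_inv (hball x hx').2
    simpa [hcoe] using this
  · intro s hs
    have hsub : ball x₀ s ⊆ h.source := fun x hx =>
      (hball x (ball_subset_ball (hs.trans (min_le_left _ _)) hx)).2
    have := h.isOpen_image_of_subset_source isOpen_ball hsub
    simpa [hcoe] using this
  · rintro y ⟨x, hx, rfl⟩
    have hx' : x ∈ ball x₀ r := ball_subset_ball (min_le_left _ _) hx
    have hx1 : x ∈ ball x₀ r₁ := ball_subset_ball (min_le_right _ _) hx
    obtain ⟨⟨e', he'⟩, hxs⟩ := hball x hx'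
    have hinv : h.symm (φ x) = x := by
      have := h.left_inv hxs
      simpa [hcoe] using this
    have htar : φ x ∈ h.target := by
      have := h.map_source hxs
      simpa [hcoe] using this
    refine ContDiffAt.contDiffWithinAt ?_
    refine h.contDiffAt_symm (f₀' := e') htar ?_ ?_
    · rw [hinv, he']
      exact ((hat x hx1).differentiableAt (by simp)).hasFDerivAt
    · rw [hinv]
      exact hat x hx1

end Crest.Agent.R130
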