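/-
R130 task C2: the kernel of the linearised critical point system is a graph over each of the
three coordinates.  (Pure norm estimates: see the comments.)
-/
import Mathlib

set_option autoImplicit false

namespace Crest.Agent.R130

variable {E : Type*} [NormedAddCommGroup E] [NormedSpace ℝ E]

/-
(i)  dq = 0: h2 gives h (da + db) = 0, so db = -da; h1 gives (1+2τ) h da + K da = 0, so
     K ‖da‖ ≤ (1+2τ) M ‖da‖.
(ii) da = 0: h1 gives h (dq + τ db) = 0, so dq = -τ db; h2 gives (1+2τ) h db + τ K db = 0.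
(iii) db = 0: K ‖da‖ ≤ M (‖da‖+‖dq‖) + τ M ‖da‖, K ‖dq‖ ≤ M (‖da‖+‖dq‖) + M ‖dq‖; add.
-/
theorem ker_facts (h : E →L[ℝ] E) (hinj : Function.Injective h) (M τ K : ℝ) (hM0 : 0 ≤ M)
    (hM : ∀ w, ‖h w‖ ≤ M * ‖w‖) (hτ : 0 < τ) (hτ1 : τ ≤ 1 / 4) (hK : 3 * M / τ < K)
    (da dq db : E)
    (h1 : h (da - dq) + τ • h (da - db) + K • da = 0)
    (h2 : -h (da - dq) + h (dq - db) + K • dq = 0) :
    (dq = 0 → da = 0 ∧ db = 0) ∧ (da = 0 → dq = 0 ∧ db = 0) ∧ (db = 0 → da = 0 ∧ dq = 0) := by
  have hKτ : 3 * M < K * τ := by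
    rwa [div_lt_iff₀ hτ] at hK
  have hK0 : 0 < K := by
    have : 0 ≤ 3 * M / τ := by positivity
    linarith
  have hK12 : 12 * M < K := by nlinarith
  refine ⟨?_, ?_, ?_⟩
  · intro h0
    subst h0
    have e1 : h (da + db) = 0 := by
      have : -h (da - 0) + h (0 - db) + K • (0:E) = -(h (da + db)) := by
        simp [map_add, map_neg]; abel
      rw [this] at h2
      exact neg_eq_zero.mp h2
    have e2 : da + db = 0 := hinj (by rw [e1, map_zero])
    have e3 : db = -da := by
      rw [add_comm] at e2; exact eq_neg_of_add_eq_zero_left e2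
    subst e3
    have e4 : K • da = -((1 + 2 * τ) • h da) := by
      have : h (da - 0) + τ • h (da - -da) + K • da = (1 + 2 * τ) • h da + K • da := by
        have : da - -da = (2:ℝ) • da := by rw [two_smul]; abel
        rw [this, map_smul, sub_zero, smul_smul, add_smul, one_smul, mul_comm τ 2]
      rw [this] at h1
      exact eq_neg_of_add_eq_zero_right h1
    have e5 : K * ‖da‖ ≤ (1 + 2 * τ) * (M * ‖da‖) := by
      have := congrArg norm e4
      rw [norm_smul, norm_neg, norm_smul, Real.norm_of_nonneg hK0.le,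
        Real.norm_of_nonneg (by positivity)] at this
      rw [this]
      exact mul_le_mul_of_nonneg_left (hM da) (by positivity)
    have e6 : ‖da‖ = 0 := by
      have hn := norm_nonneg da
      by_contra hne
      have hpos : 0 < ‖da‖ := lt_of_le_of_ne hn (Ne.symm hne)
      have : K ≤ (1 + 2 * τ) * M := by
        have : K * ‖da‖ ≤ ((1 + 2 * τ) * M) * ‖da‖ := by linarith
        exact le_of_mul_le_mul_right this hpos
      nlinarith
    have e7 : da = 0 := norm_eq_zero.mp e6
    exact ⟨e7, by rw [e7, neg_zero]⟩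
  · intro h0
    subst h0
    have e1 : h (dq + τ • db) = 0 := by
      have : h (0 - dq) + τ • h (0 - db) + K • (0:E) = -(h (dq + τ • db)) := by
        simp [map_add, map_neg, map_smul]; abel
      rw [this] at h1
      exact neg_eq_zero.mp h1
    have e2 : dq + τ • db = 0 := hinj (by rw [e1, map_zero])
    have e3 : dq = -(τ • db) := eq_neg_of_add_eq_zero_left e2
    subst e3
    have e4 : (K * τ) • db = -((1 + 2 * τ) • h db) := by
      have : -h (0 - -(τ • db)) + h (-(τ • db) - db) + K • (-(τ • db))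
          = -((1 + 2 * τ) • h db) - (K * τ) • db := by
        simp only [zero_sub, neg_neg, map_smul, map_sub, map_neg, smul_neg, smul_smul, add_smul,
          one_smul, two_mul]
        abel
      rw [this] at h2
      exact (sub_eq_zero.mp h2).symm
    have e5 : (K * τ) * ‖db‖ ≤ (1 + 2 * τ) * (M * ‖db‖) := by
      have := congrArg norm e4
      rw [norm_smul, norm_neg, norm_smul, Real.norm_of_nonneg (by positivity),
        Real.norm_of_nonneg (by positivity)] at this
      rw [this]
      exact mul_le_mul_of_nonneg_left (hM db) (by positivity)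
    have e6 : ‖db‖ = 0 := by
      have hn := norm_nonneg db
      by_contra hne
      have hpos : 0 < ‖db‖ := lt_of_le_of_ne hn (Ne.symm hne)
      have : K * τ ≤ (1 + 2 * τ) * M := by
        have : (K * τ) * ‖db‖ ≤ ((1 + 2 * τ) * M) * ‖db‖ := by linarith
        exact le_of_mul_le_mul_right this hpos
      nlinarith
    have e7 : db = 0 := norm_eq_zero.mp e6
    exact ⟨by rw [e7, smul_zero, neg_zero], e7⟩
  · intro h0
    subst h0
    have e1 : K • da = -(h (da - dq) + τ • h da) := by
      rw [sub_zero] at h1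
      exact eq_neg_of_add_eq_zero_right h1
    have e2 : K • dq = -(-h (da - dq) + h dq) := by
      rw [sub_zero] at h2
      exact eq_neg_of_add_eq_zero_right h2
    have n1 : K * ‖da‖ ≤ M * (‖da‖ + ‖dq‖) + τ * (M * ‖da‖) := by
      have := congrArg norm e1
      rw [norm_smul, norm_neg, Real.norm_of_nonneg hK0.le] at this
      rw [this]
      calc ‖h (da - dq) + τ • h da‖ ≤ ‖h (da - dq)‖ + ‖τ • h da‖ := norm_add_le _ _
        _ ≤ M * (‖da‖ + ‖dq‖) + τ * (M * ‖da‖) := by
          gcongr
          · exact (hM _).trans (mul_le_mul_of_nonneg_left (norm_sub_le _ _) hM0)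
          · rw [norm_smul, Real.norm_of_nonneg hτ.le]
            exact mul_le_mul_of_nonneg_left (hM _) hτ.le
    have n2 : K * ‖dq‖ ≤ M * (‖da‖ + ‖dq‖) + M * ‖dq‖ := by
      have := congrArg norm e2
      rw [norm_smul, norm_neg, Real.norm_of_nonneg hK0.le] at this
      rw [this]
      calc ‖-h (da - dq) + h dq‖ ≤ ‖-h (da - dq)‖ + ‖h dq‖ := norm_add_le _ _
        _ ≤ M * (‖da‖ + ‖dq‖) + M * ‖dq‖ := by
          gcongr
          · rw [norm_neg]
            exact (hM _).trans (mul_le_mul_of_nonneg_left (norm_sub_le _ _) hM0)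
          · exact hM _
    have ha := norm_nonneg da
    have hq := norm_nonneg dq
    have hsum : ‖da‖ + ‖dq‖ = 0 := by
      by_contra hne
      have hpos : 0 < ‖da‖ + ‖dq‖ := lt_of_le_of_ne (by positivity) (Ne.symm hne)
      have h3 : K * (‖da‖ + ‖dq‖) ≤ 3 * M * (‖da‖ + ‖dq‖) := by nlinarith [mul_nonneg hM0 ha, mul_nonneg hM0 hq]
      have : K ≤ 3 * M := le_of_mul_le_mul_right h3 hpos
      linarith
    have ha0 : ‖da‖ = 0 := by linarith
    have hq0 : ‖dq‖ = 0 := by linarith
    exact ⟨norm_eq_zero.mp ha0, norm_eq_zero.mp hq0⟩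

end Crest.Agent.R130
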