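/-
R130 task C4: the critical point system `G1 = G2 = 0` near `(e, 0, -e)` is a smooth graph
`q ↦ (pi q, q, be q)`, and `pi`, `be` have injective derivative at `0`.

Plan: `Ψ (a,q,b) = (G1 a q b, G2 a q b, q)` on `E × E × E`, `x₀ = (e,0,-e)`, `Ψ x₀ = 0`
(`gs s (-(-e)) ...`: `a-q = e`, `a-b = 2e`, `q-b = e`).  `Ψ` is smooth on `ball x₀ (1/4)`
(`contDiffAt_gs`, arguments ≠ 0).  Its derivative at `x₀` is
`(da,dq,db) ↦ (h (da-dq) + τ h (da-db) + K da, -h (da-dq) + h (dq-db) + K dq, dq)` with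
`h = hop s e`, `τ = 2^(-s-2)` (`hasFDerivAt_gs` with `t = 1, 2`), injective by `ker_facts` (i).
`ift_smooth` gives `σ`; put `Φ q = σ (0,0,q)`, `pi = Prod.fst ∘ Φ`, `be = Prod.snd ∘ Prod.snd ∘ Φ`.
For small `q`, `(0,0,q) ∈ Ψ '' ball`, so `Ψ (Φ q) = (0,0,q)`.
Differentiating `G1 (pi q) q (be q) = 0 = G2 (pi q) q (be q)` at `0` in direction `w` gives the
hypotheses of `ker_facts` with `(da,dq,db) = (Dpi w, w, Dbe w)`; (ii), (iii) give injectivity.
-/
import Crest.Agent.R130.Calc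
import Crest.Agent.R130.LinAlg
import Crest.Agent.R130.IFT

set_option autoImplicit false
open Set Metric
open scoped ContDiff RealInnerProductSpace

namespace Crest.Agent.R130

variable {E : Type*} [NormedAddCommGroup E] [InnerProductSpace ℝ E]

/-- the map whose zero set (in the first two components) is the critical manifold -/
noncomputable def Psi (s K : ℝ) (e : E) (x : E × E × E) : E × E × E :=
  (G1 s K e x.1 x.2.1 x.2.2, G2 s K x.1 x.2.1 x.2.2, x.2.1)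

/-- the derivative of `Psi` at `(e,0,-e)` -/
noncomputable def dPsi (s K : ℝ) (e : E) : (E × E × E) →L[ℝ] (E × E × E) :=
  let p1 : (E × E × E) →L[ℝ] E := ContinuousLinearMap.fst ℝ E (E × E)
  let p2 : (E × E × E) →L[ℝ] E :=
    (ContinuousLinearMap.fst ℝ E E).comp (ContinuousLinearMap.snd ℝ E (E × E))
  let p3 : (E × E × E) →L[ℝ] E :=
    (ContinuousLinearMap.snd ℝ E E).comp (ContinuousLinearMap.snd ℝ E (E × E))
  ((hop s e).comp (p1 - p2) + ((2:ℝ) ^ (-s - 2) • hop s e).comp (p1 - p3) + K • p1).prod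
    ((-(hop s e).comp (p1 - p2) + (hop s e).comp (p2 - p3) + K • p2).prod p2)

theorem dPsi_apply (s K : ℝ) (e : E) (da dq db : E) :
    dPsi s K e (da, dq, db) =
      (hop s e (da - dq) + (2:ℝ) ^ (-s - 2) • hop s e (da - db) + K • da,
        -hop s e (da - dq) + hop s e (dq - db) + K • dq, dq) := by
  simp [dPsi, smul_sub]

theorem Psi_base (s K : ℝ) (e : E) : Psi s K e (e, 0, -e) = 0 := by
  have h2 : e - -e = (2:ℝ) • e := by rw [two_smul]; abel
  simp only [Psi, G1, G2, ell, sub_zero, zero_sub, neg_neg, sub_self, smul_zero, add_zero, h2]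
  ext <;> simp

theorem hasFDerivAt_Psi (s K : ℝ) (e : E) (he : ‖e‖ = 1) :
    HasFDerivAt (Psi s K e) (dPsi s K e) (e, 0, -e) := by
  set p1 : (E × E × E) →L[ℝ] E := ContinuousLinearMap.fst ℝ E (E × E) with hp1
  set p2 : (E × E × E) →L[ℝ] E :=
    (ContinuousLinearMap.fst ℝ E E).comp (ContinuousLinearMap.snd ℝ E (E × E)) with hp2
  set p3 : (E × E × E) →L[ℝ] E :=
    (ContinuousLinearMap.snd ℝ E E).comp (ContinuousLinearMap.snd ℝ E (E × E)) with hp3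
  have g1 : HasFDerivAt (gs s) (hop s e) e := by
    have := hasFDerivAt_gs s e he 1 one_pos
    simpa using this
  have g2 : HasFDerivAt (gs s) ((2:ℝ) ^ (-s - 2) • hop s e) ((2:ℝ) • e) :=
    hasFDerivAt_gs s e he 2 two_pos
  have d12 : HasFDerivAt (fun x : E × E × E => gs s (x.1 - x.2.1)) ((hop s e).comp (p1 - p2))
      (e, 0, -e) := by
    have hin : HasFDerivAt (fun x : E × E × E => x.1 - x.2.1) (p1 - p2) (e, 0, -e) :=
      (p1 - p2).hasFDerivAt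
    have hg : HasFDerivAt (gs s) (hop s e) ((fun x : E × E × E => x.1 - x.2.1) (e, 0, -e)) := by
      simpa using g1
    exact hg.comp ((e, 0, -e) : E × E × E) hin
  have d13 : HasFDerivAt (fun x : E × E × E => gs s (x.1 - x.2.2))
      (((2:ℝ) ^ (-s - 2) • hop s e).comp (p1 - p3)) (e, 0, -e) := by
    have hin : HasFDerivAt (fun x : E × E × E => x.1 - x.2.2) (p1 - p3) (e, 0, -e) :=
      (p1 - p3).hasFDerivAt
    have hg : HasFDerivAt (gs s) ((2:ℝ) ^ (-s - 2) • hop s e)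
        ((fun x : E × E × E => x.1 - x.2.2) (e, 0, -e)) := by
      have h2 : e - -e = (2:ℝ) • e := by rw [two_smul]; abel
      simpa [h2] using g2
    exact hg.comp ((e, 0, -e) : E × E × E) hin
  have d23 : HasFDerivAt (fun x : E × E × E => gs s (x.2.1 - x.2.2)) ((hop s e).comp (p2 - p3))
      (e, 0, -e) := by
    have hin : HasFDerivAt (fun x : E × E × E => x.2.1 - x.2.2) (p2 - p3) (e, 0, -e) :=
      (p2 - p3).hasFDerivAt
    have hg : HasFDerivAt (gs s) (hop s e) ((fun x : E × E × E => x.2.1 - x.2.2) (e, 0, -e)) := by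
      simpa using g1
    exact hg.comp ((e, 0, -e) : E × E × E) hin
  have dK1 : HasFDerivAt (fun x : E × E × E => K • (x.1 - e)) (K • p1) (e, 0, -e) := by
    have : HasFDerivAt (fun x : E × E × E => x.1 - e) p1 (e, 0, -e) :=
      (p1.hasFDerivAt).sub_const e
    exact this.const_smul K
  have dK2 : HasFDerivAt (fun x : E × E × E => K • x.2.1) (K • p2) (e, 0, -e) :=
    (p2.hasFDerivAt).const_smul K
  have D1 : HasFDerivAt (fun x : E × E × E => G1 s K e x.1 x.2.1 x.2.2)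
      ((hop s e).comp (p1 - p2) + ((2:ℝ) ^ (-s - 2) • hop s e).comp (p1 - p3) + K • p1)
      (e, 0, -e) := by
    unfold G1
    exact ((d12.add d13).sub_const (ell s e)).add dK1
  have D2 : HasFDerivAt (fun x : E × E × E => G2 s K x.1 x.2.1 x.2.2)
      (-(hop s e).comp (p1 - p2) + (hop s e).comp (p2 - p3) + K • p2) (e, 0, -e) := by
    unfold G2
    exact (d12.neg.add d23).add dK2
  have D3 : HasFDerivAt (fun x : E × E × E => x.2.1) p2 (e, 0, -e) := p2.hasFDerivAt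
  exact D1.prodMk (D2.prodMk D3)

theorem contDiffOn_Psi (s K : ℝ) (e : E) (he : ‖e‖ = 1) :
    ContDiffOn ℝ ∞ (Psi s K e) (ball ((e, 0, -e) : E × E × E) (1 / 4)) := by
  intro x hx
  apply ContDiffAt.contDiffWithinAt
  rw [mem_ball, Prod.dist_eq, Prod.dist_eq, max_lt_iff, max_lt_iff] at hx
  obtain ⟨h1, h2, h3⟩ := hx
  simp only [dist_eq_norm] at h1 h2 h3
  rw [sub_zero] at h2
  rw [sub_neg_eq_add] at h3
  have n12 : x.1 - x.2.1 ≠ 0 := by
    intro h0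
    have : e = -(x.1 - e) + x.2.1 + (x.1 - x.2.1) := by abel
    have hn : ‖e‖ ≤ ‖x.1 - e‖ + ‖x.2.1‖ + ‖x.1 - x.2.1‖ := by
      calc ‖e‖ = ‖-(x.1 - e) + x.2.1 + (x.1 - x.2.1)‖ := by rw [← this]
        _ ≤ ‖-(x.1 - e) + x.2.1‖ + ‖x.1 - x.2.1‖ := norm_add_le _ _
        _ ≤ ‖-(x.1 - e)‖ + ‖x.2.1‖ + ‖x.1 - x.2.1‖ := by gcongr; exact norm_add_le _ _
        _ = _ := by rw [norm_neg]
    rw [h0, norm_zero, he] at hn
    linarith
  have n13 : x.1 - x.2.2 ≠ 0 := by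
    intro h0
    have : (2:ℝ) • e = -(x.1 - e) + (x.2.2 + e) + (x.1 - x.2.2) := by rw [two_smul]; abel
    have hn : ‖(2:ℝ) • e‖ ≤ ‖x.1 - e‖ + ‖x.2.2 + e‖ + ‖x.1 - x.2.2‖ := by
      calc ‖(2:ℝ) • e‖ = ‖-(x.1 - e) + (x.2.2 + e) + (x.1 - x.2.2)‖ := by rw [← this]
        _ ≤ ‖-(x.1 - e) + (x.2.2 + e)‖ + ‖x.1 - x.2.2‖ := norm_add_le _ _
        _ ≤ ‖-(x.1 - e)‖ + ‖x.2.2 + e‖ + ‖x.1 - x.2.2‖ := by gcongr; exact norm_add_le _ _
        _ = _ := by rw [norm_neg]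
    rw [h0, norm_zero, norm_smul, he] at hn
    norm_num at hn
    linarith
  have n23 : x.2.1 - x.2.2 ≠ 0 := by
    intro h0
    have : e = -x.2.1 + (x.2.2 + e) + (x.2.1 - x.2.2) := by abel
    have hn : ‖e‖ ≤ ‖x.2.1‖ + ‖x.2.2 + e‖ + ‖x.2.1 - x.2.2‖ := by
      calc ‖e‖ = ‖-x.2.1 + (x.2.2 + e) + (x.2.1 - x.2.2)‖ := by rw [← this]
        _ ≤ ‖-x.2.1 + (x.2.2 + e)‖ + ‖x.2.1 - x.2.2‖ := norm_add_le _ _
        _ ≤ ‖-x.2.1‖ + ‖x.2.2 + e‖ + ‖x.2.1 - x.2.2‖ := by gcongr; exact norm_add_le _ _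
        _ = _ := by rw [norm_neg]
    rw [h0, norm_zero, he] at hn
    linarith
  have c1 : ContDiffAt ℝ ∞ (fun x : E × E × E => x.1) x := contDiffAt_fst
  have c2 : ContDiffAt ℝ ∞ (fun x : E × E × E => x.2.1) x := contDiffAt_snd.fst
  have c3 : ContDiffAt ℝ ∞ (fun x : E × E × E => x.2.2) x := contDiffAt_snd.snd
  have d12 : ContDiffAt ℝ ∞ (fun x : E × E × E => gs s (x.1 - x.2.1)) x :=
    ContDiffAt.comp (g := gs s) x (contDiffAt_gs s _ n12) (c1.sub c2)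
  have d13 : ContDiffAt ℝ ∞ (fun x : E × E × E => gs s (x.1 - x.2.2)) x :=
    ContDiffAt.comp (g := gs s) x (contDiffAt_gs s _ n13) (c1.sub c3)
  have d23 : ContDiffAt ℝ ∞ (fun x : E × E × E => gs s (x.2.1 - x.2.2)) x :=
    ContDiffAt.comp (g := gs s) x (contDiffAt_gs s _ n23) (c2.sub c3)
  have D1 : ContDiffAt ℝ ∞ (fun x : E × E × E => G1 s K e x.1 x.2.1 x.2.2) x := by
    unfold G1
    exact ((d12.add d13).sub contDiffAt_const).add (contDiffAt_const.smul (c1.sub contDiffAt_const))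
  have D2 : ContDiffAt ℝ ∞ (fun x : E × E × E => G2 s K x.1 x.2.1 x.2.2) x := by
    unfold G2
    exact (d12.neg.add d23).add (contDiffAt_const.smul c2)
  exact D1.prodMk (D2.prodMk c2)

variable [FiniteDimensional ℝ E]

theorem exists_implicit (s : ℝ) (hs : 0 < s) (e : E) (he : ‖e‖ = 1) (K : ℝ)
    (hK : 3 * (s * (s + 3)) / (2:ℝ) ^ (-s - 2) < K) :
    ∃ r₁ : ℝ, 0 < r₁ ∧ ∃ pi be : E → E,
      ContDiffOn ℝ ∞ pi (ball 0 r₁) ∧ ContDiffOn ℝ ∞ be (ball 0 r₁) ∧ pi 0 = e ∧ be 0 = -e ∧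
      (∀ q ∈ ball (0:E) r₁, G1 s K e (pi q) q (be q) = 0 ∧ G2 s K (pi q) q (be q) = 0) ∧
      Function.Injective (fderiv ℝ pi 0) ∧ Function.Injective (fderiv ℝ be 0) := by
  set x₀ : E × E × E := (e, 0, -e) with hx₀
  have hτ : (0:ℝ) < 2 ^ (-s - 2) := by positivity
  have hτ1 : (2:ℝ) ^ (-s - 2) ≤ 1 / 4 := by
    have h1 : (2:ℝ) ^ (-s - 2) ≤ 2 ^ (-2:ℝ) :=
      Real.rpow_le_rpow_of_exponent_le (by norm_num) (by linarith)
    have h2 : (2:ℝ) ^ (-2:ℝ) = 1 / 4 := by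
      rw [Real.rpow_neg (by norm_num)]; norm_num
    exact h1.trans h2.le
  have hker := fun da dq db h1 h2 => ker_facts (hop s e) (hop_injective s hs e he) (s * (s + 3))
    (2 ^ (-s - 2)) K (by positivity) (norm_hop_le s hs e he) hτ hτ1 hK da dq db h1 h2
  have hD := hasFDerivAt_Psi s K e he
  have hinj : Function.Injective (fderiv ℝ (Psi s K e) x₀) := by
    rw [hD.fderiv, injective_iff_map_eq_zero]
    rintro ⟨da, dq, db⟩ h0
    rw [dPsi_apply] at h0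
    simp only [Prod.mk_eq_zero] at h0
    obtain ⟨h1, h2, h3⟩ := h0
    obtain ⟨ha, hb⟩ := (hker da dq db h1 h2).1 h3
    simp [ha, hb, h3]
  obtain ⟨r₀, hr₀, hr₀le, σ, hσ, hopen, hσs⟩ := ift_smooth (Psi s K e) x₀ (1 / 4) (by norm_num)
    (contDiffOn_Psi s K e he) hinj
  have hW : IsOpen (Psi s K e '' ball x₀ r₀) := hopen r₀ le_rfl
  have h0W : (0 : E × E × E) ∈ Psi s K e '' ball x₀ r₀ :=
    ⟨x₀, mem_ball_self hr₀, Psi_base s K e⟩
  obtain ⟨r₁, hr₁, hball⟩ := Metric.isOpen_iff.mp hW 0 h0W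
  set ιL : E →L[ℝ] E × E × E :=
    (ContinuousLinearMap.inr ℝ E (E × E)).comp (ContinuousLinearMap.inr ℝ E E) with hιL
  have hιLa : ∀ q, ιL q = (0, 0, q) := fun q => by simp [hιL]
  have hι : ∀ q ∈ ball (0:E) r₁, ιL q ∈ Psi s K e '' ball x₀ r₀ := by
    intro q hq
    apply hball
    rw [mem_ball, dist_zero_right] at *
    rw [hιLa]
    simpa [Prod.norm_def] using hq
  set Φ : E → E × E × E := fun q => σ (ιL q) with hΦdef
  have hΦ : ContDiffOn ℝ ∞ Φ (ball 0 r₁) := hσs.comp ιL.contDiff.contDiffOn hι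
  have hΨΦ : ∀ q ∈ ball (0:E) r₁, Psi s K e (Φ q) = ιL q := by
    intro q hq
    obtain ⟨x, hx, hxe⟩ := hι q hq
    show Psi s K e (σ (ιL q)) = ιL q
    rw [← hxe, hσ x hx]
  have hΦ0 : Φ 0 = x₀ := by
    show σ (ιL 0) = x₀
    rw [map_zero, ← Psi_base s K e]
    exact hσ x₀ (mem_ball_self hr₀)
  have h0mem : (0:E) ∈ ball (0:E) r₁ := mem_ball_self hr₁
  have hΦat : ContDiffAt ℝ ∞ Φ 0 := hΦ.contDiffAt (isOpen_ball.mem_nhds h0mem)
  have hΦd : HasFDerivAt Φ (fderiv ℝ Φ 0) 0 :=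
    (hΦat.differentiableAt (by simp)).hasFDerivAt
  set Φ' := fderiv ℝ Φ 0 with hΦ'
  -- the linearised equation
  have hlin : ∀ w, dPsi s K e (Φ' w) = (0, 0, w) := by
    intro w
    have hcomp : HasFDerivAt (fun q => Psi s K e (Φ q)) ((dPsi s K e).comp Φ') 0 := by
      have hD' : HasFDerivAt (Psi s K e) (dPsi s K e) (Φ 0) := by rw [hΦ0]; exact hD
      exact hD'.comp 0 hΦd
    have heq : (fun q => Psi s K e (Φ q)) =ᶠ[nhds 0] ιL := by
      filter_upwards [isOpen_ball.mem_nhds h0mem] with q hq using hΨΦ q hq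
    have h2 : HasFDerivAt (fun q => Psi s K e (Φ q)) ιL 0 := ιL.hasFDerivAt.congr_of_eventuallyEq heq
    have := hcomp.unique h2
    have h3 := congrArg (fun L : E →L[ℝ] E × E × E => L w) this
    simpa [hιLa] using h3
  have hfacts : ∀ w, ((Φ' w).1 = 0 → w = 0) ∧ ((Φ' w).2.2 = 0 → w = 0) := by
    intro w
    have h : dPsi s K e ((Φ' w).1, (Φ' w).2.1, (Φ' w).2.2) = (0, 0, w) := hlin w
    rw [dPsi_apply] at h
    simp only [Prod.mk.injEq] at h
    obtain ⟨h1, h2, h3⟩ := h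
    have hk := hker _ _ _ h1 h2
    refine ⟨fun ha => ?_, fun hb => ?_⟩
    · rw [← h3]; exact (hk.2.1 ha).1
    · rw [← h3]; exact (hk.2.2 hb).2
  refine ⟨r₁, hr₁, fun q => (Φ q).1, fun q => (Φ q).2.2, ?_, ?_, ?_, ?_, ?_, ?_, ?_⟩
  · exact contDiff_fst.comp_contDiffOn hΦ
  · exact (contDiff_snd.comp contDiff_snd).comp_contDiffOn hΦ
  · show (Φ 0).1 = e
    rw [hΦ0]
  · show (Φ 0).2.2 = -e
    rw [hΦ0]
  · intro q hq
    have h := hΨΦ q hq
    rw [hιLa] at h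
    unfold Psi at h
    simp only [Prod.mk.injEq] at h
    obtain ⟨h1, h2, h3⟩ := h
    rw [h3] at h1 h2
    exact ⟨h1, h2⟩
  · have hd : HasFDerivAt (fun q => (Φ q).1) ((ContinuousLinearMap.fst ℝ E (E × E)).comp Φ') 0 :=
      (ContinuousLinearMap.fst ℝ E (E × E)).hasFDerivAt.comp 0 hΦd
    rw [hd.fderiv, injective_iff_map_eq_zero]
    intro w hw
    exact (hfacts w).1 (by simpa using hw)
  · have hd : HasFDerivAt (fun q => (Φ q).2.2)
        (((ContinuousLinearMap.snd ℝ E E).comp (ContinuousLinearMap.snd ℝ E (E × E))).comp Φ') 0 :=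
      ((ContinuousLinearMap.snd ℝ E E).comp
        (ContinuousLinearMap.snd ℝ E (E × E))).hasFDerivAt.comp 0 hΦd
    rw [hd.fderiv, injective_iff_map_eq_zero]
    intro w hw
    exact (hfacts w).2 (by simpa using hw)

end Crest.Agent.R130
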