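/-
R130 task C5: the numerical smallness conditions can be met (continuity at `ϱ = 0`, `om = 0`;
all left sides increase in `om`, all right sides decrease in `ϱ`).
Limits: `(2ϱ)^(-s) → ∞`; `c0 s = 2^(-s)/2 < 2^(-s)`; `2 + 2^(-s) < 2 + (√2)^(-s)`.
-/
import Crest.Agent.R130.Defs

set_option autoImplicit false

namespace Crest.Agent.R130

open Filter Topology in
theorem exists_small (s : ℝ) (hs : 0 < s) :
    ∃ ϱ₁ om : ℝ, 0 < ϱ₁ ∧ ∀ ϱ, 0 < ϱ → ϱ ≤ ϱ₁ → Small s ϱ om := by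
  have hc0 : 0 < c0 s := by
    unfold c0
    positivity
  have hsq : (1:ℝ) < Real.sqrt 2 := by
    rw [show (1:ℝ) = Real.sqrt 1 by simp]
    exact Real.sqrt_lt_sqrt (by norm_num) (by norm_num)
  have hsq2 : Real.sqrt 2 < 2 := by
    rw [Real.sqrt_lt' (by norm_num)]
    norm_num
  have hd : (2:ℝ) ^ (-s) < (Real.sqrt 2) ^ (-s) :=
    Real.rpow_lt_rpow_of_neg (by positivity) hsq2 (by linarith)
  set d : ℝ := (Real.sqrt 2) ^ (-s) - (2:ℝ) ^ (-s) with hdd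
  have hdpos : 0 < d := sub_pos.2 hd
  set om : ℝ := min (c0 s) (d / 3) / 2 with hom
  have hom0 : 0 < om := by
    have : 0 < min (c0 s) (d / 3) := lt_min hc0 (by positivity)
    positivity
  have hom1 : om < c0 s := by
    have : min (c0 s) (d / 3) ≤ c0 s := min_le_left _ _
    have h0 : 0 < min (c0 s) (d / 3) := lt_min hc0 (by positivity)
    rw [hom]; linarith
  have hom2 : 3 * om < d := by
    have : min (c0 s) (d / 3) ≤ d / 3 := min_le_right _ _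
    have h0 : 0 < min (c0 s) (d / 3) := lt_min hc0 (by positivity)
    rw [hom]; linarith
  -- the three limits
  have hid : Tendsto (fun ϱ : ℝ => ϱ) (𝓝[>] 0) (𝓝 0) := tendsto_nhdsWithin_of_tendsto_nhds tendsto_id
  have h5 : ∀ᶠ ϱ in 𝓝[>] (0:ℝ), 3 * (2 + om) < (2 * ϱ) ^ (-s) := by
    have h2 : Tendsto (fun ϱ : ℝ => 2 * ϱ) (𝓝[>] 0) (𝓝[>] 0) := by
      refine tendsto_nhdsWithin_iff.2 ⟨?_, ?_⟩
      · simpa using hid.const_mul 2
      · filter_upwards [self_mem_nhdsWithin] with ϱ hϱ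
        have : (0:ℝ) < ϱ := hϱ
        exact Set.mem_Ioi.2 (by positivity)
    have h3 := (tendsto_rpow_neg_nhdsGT_zero (y := -s) (by linarith)).comp h2
    exact h3.eventually (eventually_gt_atTop _)
  have hcont : ∀ c : ℝ, 0 < c → Tendsto (fun ϱ : ℝ => (c + 2 * ϱ) ^ (-s)) (𝓝[>] 0) (𝓝 (c ^ (-s))) := by
    intro c hc
    have h1 : Tendsto (fun ϱ : ℝ => c + 2 * ϱ) (𝓝[>] 0) (𝓝 c) := by
      simpa using (hid.const_mul 2).const_add c
    exact h1.rpow_const (Or.inl hc.ne')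
  have h6 : ∀ᶠ ϱ in 𝓝[>] (0:ℝ), c0 s + om < (2 + 2 * ϱ) ^ (-s) := by
    refine (hcont 2 (by norm_num)).eventually (lt_mem_nhds ?_)
    have : c0 s + c0 s = (2:ℝ) ^ (-s) := by unfold c0; ring
    linarith
  have h7 : ∀ᶠ ϱ in 𝓝[>] (0:ℝ),
      2 + (2:ℝ) ^ (-s) + 3 * om < 2 * (1 + 2 * ϱ) ^ (-s) + (Real.sqrt 2 + 2 * ϱ) ^ (-s) := by
    have h := ((hcont 1 (by norm_num)).const_mul 2).add (hcont (Real.sqrt 2) (by positivity))
    refine h.eventually (lt_mem_nhds ?_)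
    rw [Real.one_rpow]
    linarith
  have h8 : ∀ᶠ ϱ in 𝓝[>] (0:ℝ), ϱ ≤ 1 / 8 := by
    have : ∀ᶠ ϱ in 𝓝 (0:ℝ), ϱ ≤ 1 / 8 := eventually_le_nhds (by norm_num)
    exact eventually_nhdsWithin_of_eventually_nhds this
  have hall := ((h5.and h6).and h7).and h8
  obtain ⟨u, hu, hsub⟩ := mem_nhdsGT_iff_exists_Ioc_subset.1 hall
  refine ⟨u, om, hu, fun ϱ h0 h1 => ?_⟩
  obtain ⟨⟨⟨a5, a6⟩, a7⟩, a8⟩ := hsub ⟨h0, h1⟩
  exact ⟨h0, a8, hom0, hom1, a5, a6, a7⟩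

end Crest.Agent.R130
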