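/-
R130 task C6: existence of the local data.

Order of choices:
1. `exists_lip` : `ϱ₀, L₀` with `LipData s e ϱ₀ L₀`.
2. `exists_small` : `ϱ₁, om`.  Put `ϱ := min ϱ₀ ϱ₁` (note `LipData` is only used through `strict_min`
   and `cR_lip` with radius `ϱ₀ ≥ ϱ`).
3. `K := max (3 * L₀) (3 * (s*(s+3)) / 2^(-s-2)) + 1`.
4. `exists_implicit` : `r₁, pi, be`.
5. `ift_smooth` for `pi` and for `be` at `0` : radii `rP, rS`, inverses `σP, σS`.
6. `r ≤ min r₁ (min rP rS)`, `r ≤ ϱ`, and so small that (continuity of `pi`, `be` at `0`, `pi 0 = e`,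
   `be 0 = -e`, `uP s K e e = c0 s`, `uQ K 0 = 2`, `Fb s K e e 0 (-e) = c0 s`
   [`cR s e 0 (-e) = 1 + 2^(-s) + 1`]) all the `_close` fields hold on `ball 0 r`.
7. `VP := pi '' ball 0 r`, `VS := be '' ball 0 r` (open by `ift_smooth`).
8. To get globally measurable maps replace `pi` by `(ball 0 r).piecewise pi 0`, `σP` by
   `VP.piecewise σP 0` etc. (`ContinuousOn.measurable_piecewise`); they agree with the old maps on
   the relevant open sets, so `ContDiffOn` is preserved (`ContDiffOn.congr`).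
9. `strict_min` field: theorem `strict_min` (Convex.lean) with `a₀ = pi q₀`, `b = be q₀`;
   `lip` field: `cR_lip`, `L := 2 * L₀`.
-/
import Crest.Agent.R130.Loc
import Crest.Agent.R130.Convex
import Crest.Agent.R130.Implicit
import Crest.Agent.R130.SmallNum

set_option autoImplicit false
open MeasureTheory Set Metric
open scoped ENNReal ContDiff RealInnerProductSpace

namespace Crest.Agent.R130

theorem Fb_center {E : Type*} [NormedAddCommGroup E] [InnerProductSpace ℝ E]
    (s K : ℝ) (e : E) (he : ‖e‖ = 1) : Fb s K e e 0 (-e) = c0 s := by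
  have h2 : ‖e - -e‖ = 2 := by
    have : e - -e = (2:ℝ) • e := by rw [two_smul]; abel
    rw [this, norm_smul, he]; norm_num
  unfold Fb cR uP uQ Hs c0
  rw [h2]
  simp [he]
  ring

theorem exists_loc {E : Type*} [NormedAddCommGroup E] [InnerProductSpace ℝ E]
    [FiniteDimensional ℝ E] [MeasurableSpace E] [BorelSpace E]
    (s : ℝ) (hs : 0 < s) (e : E) (he : ‖e‖ = 1) : Nonempty (Loc s e) := by
  classical
  obtain ⟨ϱ₀, L₀, hLip⟩ := exists_lip s e he
  obtain ⟨ϱ₁, om, hϱ₁, hsmall⟩ := exists_small s hs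
  set ϱ := min ϱ₀ ϱ₁ with hϱdef
  have hϱ0 : 0 < ϱ := lt_min hLip.1 hϱ₁
  have hϱle : ϱ ≤ ϱ₀ := min_le_left _ _
  have hSm : Small s ϱ om := hsmall ϱ hϱ0 (min_le_right _ _)
  have hom : 0 < om := hSm.2.2.1
  set K := max (3 * L₀) (3 * (s * (s + 3)) / (2:ℝ) ^ (-s - 2)) + 1 with hKdef
  have hK1 : 3 * L₀ < K := lt_of_le_of_lt (le_max_left _ _) (lt_add_one _)
  have hK2 : 3 * (s * (s + 3)) / (2:ℝ) ^ (-s - 2) < K :=
    lt_of_le_of_lt (le_max_right _ _) (lt_add_one _)
  obtain ⟨r₁, hr₁, pi, be, hpi, hbe, hpi0, hbe0, hG, hipi, hibe⟩ :=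
    exists_implicit s hs e he K hK2
  obtain ⟨rP, hrP, hrP1, σP, hσP, hopP, hσPs⟩ := ift_smooth pi 0 r₁ hr₁ hpi hipi
  obtain ⟨rS, hrS, hrS1, σS, hσS, hopS, hσSs⟩ := ift_smooth be 0 r₁ hr₁ hbe hibe
  have hene : e ≠ 0 := by
    intro h; rw [h, norm_zero] at he; exact zero_ne_one he
  -- continuity at 0
  have hcpi : ContinuousAt pi 0 :=
    (hpi.continuousOn).continuousAt (isOpen_ball.mem_nhds (mem_ball_self hr₁))
  have hcbe : ContinuousAt be 0 :=
    (hbe.continuousOn).continuousAt (isOpen_ball.mem_nhds (mem_ball_self hr₁))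
  have hc1 : ContinuousAt (fun q => Hs s (pi q - q)) 0 := by
    have h : ContinuousAt (Hs s) (pi 0 - 0) := by
      rw [hpi0, sub_zero]; exact (contDiffAt_Hs s e hene).continuousAt
    exact ContinuousAt.comp (f := fun q => pi q - q) h (hcpi.sub continuousAt_id)
  have hc2 : ContinuousAt (fun q => Hs s (pi q - be q)) 0 := by
    have h : ContinuousAt (Hs s) (pi 0 - be 0) := by
      rw [hpi0, hbe0]
      refine (contDiffAt_Hs s _ ?_).continuousAt
      have : e - -e = (2:ℝ) • e := by rw [two_smul]; abel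
      rw [this]
      exact smul_ne_zero two_ne_zero hene
    exact ContinuousAt.comp (f := fun q => pi q - be q) h (hcpi.sub hcbe)
  have hc3 : ContinuousAt (fun q => Hs s (q - be q)) 0 := by
    have h : ContinuousAt (Hs s) (0 - be 0) := by
      rw [hbe0]
      refine (contDiffAt_Hs s _ ?_).continuousAt
      simpa using hene
    exact ContinuousAt.comp (f := fun q => q - be q) h (continuousAt_id.sub hcbe)
  have hcuP : ContinuousAt (fun q => uP s K e (pi q)) 0 := by
    unfold uP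
    have h1 : ContinuousAt (fun q => pi q - e) 0 := hcpi.sub continuousAt_const
    exact (continuousAt_const.add (continuousAt_const.inner h1)).sub
      (continuousAt_const.mul (h1.norm.pow 2))
  have hcuQ : ContinuousAt (fun q : E => uQ K q) 0 := by
    unfold uQ
    exact continuousAt_const.sub (continuousAt_const.mul (continuousAt_id.norm.pow 2))
  have hcFb : ContinuousAt (fun q => Fb s K e (pi q) q (be q)) 0 := by
    unfold Fb cR
    exact (((hc1.add hc2).add hc3).sub hcuP).sub hcuQ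
  -- values at 0
  have vuP : uP s K e (pi 0) = c0 s := by rw [hpi0]; simp [uP]
  have vuQ : uQ K (0:E) = 2 := by simp [uQ]
  have vFb : Fb s K e (pi 0) 0 (be 0) = c0 s := by rw [hpi0, hbe0]; exact Fb_center s K e he
  -- eventual closeness
  have ev1 : ∀ᶠ q in nhds (0:E), ‖pi q - e‖ ≤ ϱ := by
    have := hcpi.tendsto.eventually (closedBall_mem_nhds (pi 0) hϱ0)
    filter_upwards [this] with q hq
    rwa [dist_eq_norm, hpi0] at hq
  have ev2 : ∀ᶠ q in nhds (0:E), ‖be q + e‖ ≤ ϱ := by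
    have := hcbe.tendsto.eventually (closedBall_mem_nhds (be 0) hϱ0)
    filter_upwards [this] with q hq
    rwa [dist_eq_norm, hbe0, sub_neg_eq_add] at hq
  have ev3 : ∀ᶠ q in nhds (0:E), |uP s K e (pi q) - c0 s| ≤ om := by
    have := hcuP.tendsto.eventually (closedBall_mem_nhds _ hom)
    filter_upwards [this] with q hq
    rwa [Real.dist_eq, vuP] at hq
  have ev4 : ∀ᶠ q in nhds (0:E), |uQ K q - 2| ≤ om := by
    have := hcuQ.tendsto.eventually (closedBall_mem_nhds _ hom)
    filter_upwards [this] with q hq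
    rwa [Real.dist_eq, vuQ] at hq
  have ev5 : ∀ᶠ q in nhds (0:E), |Fb s K e (pi q) q (be q) - c0 s| ≤ om := by
    have := hcFb.tendsto.eventually (closedBall_mem_nhds _ hom)
    filter_upwards [this] with q hq
    rwa [Real.dist_eq, vFb] at hq
  obtain ⟨r₂, hr₂, hball⟩ := Metric.eventually_nhds_iff_ball.1
    (ev1.and (ev2.and (ev3.and (ev4.and ev5))))
  set r := min (min r₁ (min rP rS)) (min ϱ r₂) with hrdef
  have hr0 : 0 < r := lt_min (lt_min hr₁ (lt_min hrP hrS)) (lt_min hϱ0 hr₂)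
  have hrr₁ : r ≤ r₁ := (min_le_left _ _).trans (min_le_left _ _)
  have hrrP : r ≤ rP := (min_le_left _ _).trans ((min_le_right _ _).trans (min_le_left _ _))
  have hrrS : r ≤ rS := (min_le_left _ _).trans ((min_le_right _ _).trans (min_le_right _ _))
  have hrϱ : r ≤ ϱ := (min_le_right _ _).trans (min_le_left _ _)
  have hrr₂ : r ≤ r₂ := (min_le_right _ _).trans (min_le_right _ _)
  have hB : ∀ q ∈ ball (0:E) r, ‖pi q - e‖ ≤ ϱ ∧ ‖be q + e‖ ≤ ϱ ∧ |uP s K e (pi q) - c0 s| ≤ om ∧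
      |uQ K q - 2| ≤ om ∧ |Fb s K e (pi q) q (be q) - c0 s| ≤ om := fun q hq =>
    hball q (ball_subset_ball hrr₂ hq)
  have hqϱ : ∀ q ∈ ball (0:E) r, ‖q‖ ≤ ϱ := fun q hq => by
    rw [mem_ball_zero_iff] at hq; exact hq.le.trans hrϱ
  set VP : Set E := pi '' ball 0 r with hVP
  set VS : Set E := be '' ball 0 r with hVS
  have hVPo : IsOpen VP := hopP r hrrP
  have hVSo : IsOpen VS := hopS r hrrS
  set pi' : E → E := (ball (0:E) r).piecewise pi 0 with hpi'
  set be' : E → E := (ball (0:E) r).piecewise be 0 with hbe'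
  set sP' : E → E := VP.piecewise σP 0 with hsP'
  set sS' : E → E := VS.piecewise σS 0 with hsS'
  have epi : ∀ q ∈ ball (0:E) r, pi' q = pi q := fun q hq => Set.piecewise_eq_of_mem _ _ _ hq
  have ebe : ∀ q ∈ ball (0:E) r, be' q = be q := fun q hq => Set.piecewise_eq_of_mem _ _ _ hq
  have esP : ∀ y ∈ VP, sP' y = σP y := fun y hy => Set.piecewise_eq_of_mem _ _ _ hy
  have esS : ∀ y ∈ VS, sS' y = σS y := fun y hy => Set.piecewise_eq_of_mem _ _ _ hy
  have hpir : ContDiffOn ℝ ∞ pi (ball 0 r) := hpi.mono (ball_subset_ball hrr₁)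
  have hber : ContDiffOn ℝ ∞ be (ball 0 r) := hbe.mono (ball_subset_ball hrr₁)
  have hσPr : ContDiffOn ℝ ∞ σP VP := hσPs.mono (image_mono (ball_subset_ball hrrP))
  have hσSr : ContDiffOn ℝ ∞ σS VS := hσSs.mono (image_mono (ball_subset_ball hrrS))
  have mP : ∀ q ∈ ball (0:E) r, pi q ∈ VP := fun q hq => mem_image_of_mem _ hq
  have mS : ∀ q ∈ ball (0:E) r, be q ∈ VS := fun q hq => mem_image_of_mem _ hq
  have iP : ∀ q ∈ ball (0:E) r, σP (pi q) = q := fun q hq => hσP q (ball_subset_ball hrrP hq)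
  have iS : ∀ q ∈ ball (0:E) r, σS (be q) = q := fun q hq => hσS q (ball_subset_ball hrrS hq)
  refine ⟨{
    K := K, ϱ := ϱ, om := om, r := r, L := 2 * L₀, pi := pi', be := be', sP := sP', sS := sS',
    VP := VP, VS := VS, r_pos := hr0, L_nonneg := by have := hLip.2.2.1; positivity,
    small := hSm, VP_open := hVPo, VS_open := hVSo,
    pi_smooth := hpir.congr epi, be_smooth := hber.congr ebe,
    sP_smooth := hσPr.congr esP, sS_smooth := hσSr.congr esS,
    pi_maps := fun q hq => by rw [epi q hq]; exact mP q hq,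
    be_maps := fun q hq => by rw [ebe q hq]; exact mS q hq,
    sP_maps := ?_, sS_maps := ?_,
    sP_pi := fun q hq => by rw [epi q hq, esP _ (mP q hq), iP q hq],
    sS_be := fun q hq => by rw [ebe q hq, esS _ (mS q hq), iS q hq],
    pi_sP := ?_, be_sS := ?_,
    pi_meas := hpir.continuousOn.measurable_piecewise continuousOn_const measurableSet_ball,
    be_meas := hber.continuousOn.measurable_piecewise continuousOn_const measurableSet_ball,
    sP_meas := hσPr.continuousOn.measurable_piecewise continuousOn_const hVPo.measurableSet,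
    sS_meas := hσSr.continuousOn.measurable_piecewise continuousOn_const hVSo.measurableSet,
    q_close := hqϱ,
    pi_close := fun q hq => by rw [epi q hq]; exact (hB q hq).1,
    be_close := fun q hq => by rw [ebe q hq]; exact (hB q hq).2.1,
    uP_close := fun q hq => by rw [epi q hq]; exact (hB q hq).2.2.1,
    uQ_close := fun q hq => (hB q hq).2.2.2.1,
    uS_close := fun q hq => by rw [epi q hq, ebe q hq]; exact (hB q hq).2.2.2.2,
    strict_min := ?_, lip := ?_ }⟩
  · rintro y ⟨q, hq, rfl⟩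
    rw [esP _ (mP q hq), iP q hq]; exact hq
  · rintro y ⟨q, hq, rfl⟩
    rw [esS _ (mS q hq), iS q hq]; exact hq
  · rintro y ⟨q, hq, rfl⟩
    rw [esP _ (mP q hq), iP q hq, epi q hq]
  · rintro y ⟨q, hq, rfl⟩
    rw [esS _ (mS q hq), iS q hq, ebe q hq]
  · intro q₀ hq₀ a q ha hq hne
    rw [epi q₀ hq₀, ebe q₀ hq₀] at *
    have hG' := hG q₀ (ball_subset_ball hrr₁ hq₀)
    exact strict_min s e he ϱ₀ L₀ hLip K hK1 (pi q₀) q₀ (be q₀) ((hB q₀ hq₀).1.trans hϱle)
      ((hqϱ q₀ hq₀).trans hϱle) ((hB q₀ hq₀).2.1.trans hϱle) hG'.1 hG'.2 a q (ha.trans hϱle)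
      (hq.trans hϱle) hne
  · intro q₀ hq₀ q hq
    rw [epi q₀ hq₀, ebe q₀ hq₀]
    exact cR_lip s e he ϱ₀ L₀ hLip (pi q₀) q₀ q (be q₀) ((hB q₀ hq₀).1.trans hϱle)
      ((hqϱ q₀ hq₀).trans hϱle) (hq.trans hϱle) ((hB q₀ hq₀).2.1.trans hϱle)

end Crest.Agent.R130
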