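/-
R130 task G3: fine splitting of Lebesgue measure on `(0,1)`.

With `k = ⌊N t⌋`:  `ξ true t = (t + k/N)/2`, `ξ false t = (t + k/N)/2 + 1/(2N)`,
`A true = {y | Int.fract (N y) < 1/2}`, `A false = {y | 1/2 ≤ Int.fract (N y)}`,
`θ true y = 2 y - ⌊N y⌋/N`, `θ false y = 2 y - (⌊N y⌋+1)/N`.
Measure identity: decompose `(0,1)` (up to a null set) into the `N` intervals `[k/N,(k+1)/N)`, on
each of which `ξ i` is affine with slope `1/2`; or use
`MeasureTheory.lintegral_image_eq_lintegral_abs_deriv_mul` / any other way you like.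
(You may choose other `ξ θ A` if more convenient: only the statement matters.)
-/
import Mathlib

set_option autoImplicit false
open MeasureTheory Set
open scoped ENNReal

namespace Crest.Agent.R130

namespace UnitSplit

/-- the contraction onto the `c`-part of each cell -/
noncomputable def xi (N : ℕ) (c : ℝ) (t : ℝ) : ℝ := (t + (⌊(N:ℝ) * t⌋ : ℝ) / N) / 2 + c / N

/-- its left inverse -/
noncomputable def th (N : ℕ) (c : ℝ) (y : ℝ) : ℝ := 2 * y - ((⌊(N:ℝ) * y⌋ : ℝ) + 2 * c) / N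

/-- the `c`-part of the cells -/
def AA (N : ℕ) (c : ℝ) : Set ℝ :=
  {y | c ≤ Int.fract ((N:ℝ) * y) ∧ Int.fract ((N:ℝ) * y) < c + 1 / 2}

lemma measurable_xi (N : ℕ) (c : ℝ) : Measurable (xi N c) := by
  unfold xi
  have h : Measurable fun t : ℝ => ((⌊(N:ℝ) * t⌋ : ℤ) : ℝ) :=
    (measurable_from_top (f := fun z : ℤ => (z : ℝ))).comp
      (Int.measurable_floor.comp (measurable_const.mul measurable_id))
  exact (((measurable_id.add (h.div_const _)).div_const _).add_const _)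

lemma measurable_th (N : ℕ) (c : ℝ) : Measurable (th N c) := by
  unfold th
  have h : Measurable fun t : ℝ => ((⌊(N:ℝ) * t⌋ : ℤ) : ℝ) :=
    (measurable_from_top (f := fun z : ℤ => (z : ℝ))).comp
      (Int.measurable_floor.comp (measurable_const.mul measurable_id))
  exact ((measurable_const.mul measurable_id).sub ((h.add_const _).div_const _))

lemma measurableSet_AA (N : ℕ) (c : ℝ) : MeasurableSet (AA N c) := by
  unfold AA
  have h : Measurable fun t : ℝ => Int.fract ((N:ℝ) * t) :=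
    measurable_fract.comp (measurable_const.mul measurable_id)
  exact (measurableSet_le measurable_const h).inter (measurableSet_lt h measurable_const)

lemma mul_xi {N : ℕ} (hN : 0 < N) (c t : ℝ) :
    (N:ℝ) * xi N c t = ((N:ℝ) * t + (⌊(N:ℝ) * t⌋ : ℝ)) / 2 + c := by
  have hNr : (N:ℝ) ≠ 0 := by exact_mod_cast hN.ne'
  unfold xi
  field_simp

lemma floor_xi {N : ℕ} (hN : 0 < N) {c : ℝ} (hc0 : 0 ≤ c) (hc : c ≤ 1 / 2) (t : ℝ) :
    ⌊(N:ℝ) * xi N c t⌋ = ⌊(N:ℝ) * t⌋ := by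
  rw [mul_xi hN, Int.floor_eq_iff]
  have h1 := Int.floor_le ((N:ℝ) * t)
  have h2 := Int.lt_floor_add_one ((N:ℝ) * t)
  constructor <;> linarith

lemma xi_mem_AA {N : ℕ} (hN : 0 < N) {c : ℝ} (hc0 : 0 ≤ c) (hc : c ≤ 1 / 2) (t : ℝ) :
    xi N c t ∈ AA N c := by
  have h1 := Int.floor_le ((N:ℝ) * t)
  have h2 := Int.lt_floor_add_one ((N:ℝ) * t)
  have hf : Int.fract ((N:ℝ) * xi N c t) = ((N:ℝ) * t - (⌊(N:ℝ) * t⌋ : ℝ)) / 2 + c := by
    rw [Int.fract, floor_xi hN hc0 hc, mul_xi hN]; ring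
  refine ⟨?_, ?_⟩ <;> rw [hf] <;> linarith

lemma th_xi {N : ℕ} (hN : 0 < N) {c : ℝ} (hc0 : 0 ≤ c) (hc : c ≤ 1 / 2) (t : ℝ) :
    th N c (xi N c t) = t := by
  have hNr : (N:ℝ) ≠ 0 := by exact_mod_cast hN.ne'
  unfold th
  rw [floor_xi hN hc0 hc]
  unfold xi
  field_simp
  ring

lemma abs_xi_sub {N : ℕ} (hN : 0 < N) {c : ℝ} (hc0 : 0 ≤ c) (hc : c ≤ 1 / 2) (t : ℝ) :
    |xi N c t - t| ≤ 1 / N := by
  have hNr : (0:ℝ) < N := by exact_mod_cast hN
  have h1 := Int.floor_le ((N:ℝ) * t)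
  have h2 := Int.lt_floor_add_one ((N:ℝ) * t)
  have h : xi N c t - t = (((⌊(N:ℝ) * t⌋ : ℝ) - (N:ℝ) * t) / 2 + c) / N := by
    unfold xi; field_simp; ring
  rw [h, abs_div, abs_of_pos hNr]
  apply div_le_div_of_nonneg_right _ hNr.le
  rw [abs_le]; constructor <;> linarith

lemma xi_mem_Ioo {N : ℕ} (hN : 0 < N) {c : ℝ} (hc0 : 0 ≤ c) (hc : c ≤ 1 / 2) {t : ℝ}
    (ht : t ∈ Ioo (0:ℝ) 1) : xi N c t ∈ Ioo (0:ℝ) 1 := by
  have hNr : (0:ℝ) < N := by exact_mod_cast hN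
  have h1 := Int.floor_le ((N:ℝ) * t)
  have h0 : (0:ℝ) ≤ (⌊(N:ℝ) * t⌋ : ℝ) := by
    have : (0:ℤ) ≤ ⌊(N:ℝ) * t⌋ := Int.floor_nonneg.2 (mul_nonneg hNr.le ht.1.le)
    exact_mod_cast this
  have h3 : (⌊(N:ℝ) * t⌋ : ℝ) + 1 ≤ N := by
    have : ⌊(N:ℝ) * t⌋ < (N:ℤ) := by
      rw [Int.floor_lt]
      have : (N:ℝ) * t < N * 1 := mul_lt_mul_of_pos_left ht.2 hNr
      simpa using this
    have h4 : ⌊(N:ℝ) * t⌋ + 1 ≤ (N:ℤ) := this
    exact_mod_cast h4
  have hm := mul_xi hN c t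
  have hNt : (N:ℝ) * t < N := by
    have : (N:ℝ) * t < N * 1 := mul_lt_mul_of_pos_left ht.2 hNr
    simpa using this
  have hNt0 : 0 < (N:ℝ) * t := mul_pos hNr ht.1
  constructor
  · have : 0 < (N:ℝ) * xi N c t := by rw [hm]; linarith
    exact (mul_pos_iff_of_pos_left hNr).1 this
  · have : (N:ℝ) * xi N c t < N * 1 := by rw [hm]; linarith
    exact lt_of_mul_lt_mul_left this hNr.le

lemma floor_eq_of_mem_AA {N : ℕ} {c : ℝ} {y y0 : ℝ} (hy : y ∈ AA N c) (hy0 : y0 ∈ AA N c)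
    (h : |(N:ℝ) * y - (N:ℝ) * y0| < 1 / 2) : ⌊(N:ℝ) * y⌋ = ⌊(N:ℝ) * y0⌋ := by
  have e1 := Int.floor_add_fract ((N:ℝ) * y)
  have e2 := Int.floor_add_fract ((N:ℝ) * y0)
  rw [abs_lt] at h
  obtain ⟨a1, a2⟩ := hy
  obtain ⟨b1, b2⟩ := hy0
  have h1 : ((⌊(N:ℝ) * y⌋ - ⌊(N:ℝ) * y0⌋ : ℤ) : ℝ) < 1 := by push_cast; linarith
  have h2 : (-1:ℝ) < ((⌊(N:ℝ) * y⌋ - ⌊(N:ℝ) * y0⌋ : ℤ) : ℝ) := by push_cast; linarith
  have h1' : ⌊(N:ℝ) * y⌋ - ⌊(N:ℝ) * y0⌋ < 1 := by exact_mod_cast h1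
  have h2' : -1 < ⌊(N:ℝ) * y⌋ - ⌊(N:ℝ) * y0⌋ := by exact_mod_cast h2
  omega

lemma hasDerivWithinAt_th {N : ℕ} (hN : 0 < N) (c : ℝ) {y0 : ℝ} (hy0 : y0 ∈ AA N c) :
    HasDerivWithinAt (th N c) 2 (AA N c) y0 := by
  have hNr : (0:ℝ) < N := by exact_mod_cast hN
  have haff : HasDerivWithinAt (fun y : ℝ => 2 * y - ((⌊(N:ℝ) * y0⌋ : ℝ) + 2 * c) / N) 2
      (AA N c) y0 := by
    have : HasDerivAt (fun y : ℝ => 2 * y - ((⌊(N:ℝ) * y0⌋ : ℝ) + 2 * c) / N) (2 * 1) y0 :=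
      ((hasDerivAt_id y0).const_mul 2).sub_const _
    simpa using this.hasDerivWithinAt
  refine haff.congr_of_eventuallyEq ?_ rfl
  have hball : Metric.ball y0 (1 / (2 * N)) ∈ nhds y0 :=
    Metric.ball_mem_nhds _ (by positivity)
  filter_upwards [mem_nhdsWithin_of_mem_nhds hball, self_mem_nhdsWithin] with y hy hyA
  have hd : |(N:ℝ) * y - (N:ℝ) * y0| < 1 / 2 := by
    rw [Metric.mem_ball, Real.dist_eq] at hy
    rw [← mul_sub, abs_mul, abs_of_pos hNr]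
    calc (N:ℝ) * |y - y0| < N * (1 / (2 * N)) := mul_lt_mul_of_pos_left hy hNr
      _ = 1 / 2 := by field_simp
  unfold th
  rw [floor_eq_of_mem_AA hyA hy0 hd]

lemma injOn_xi {N : ℕ} (hN : 0 < N) {c : ℝ} (hc0 : 0 ≤ c) (hc : c ≤ 1 / 2) (s : Set ℝ) :
    InjOn (xi N c) s := by
  intro a _ b _ hab
  have := congrArg (th N c) hab
  rwa [th_xi hN hc0 hc, th_xi hN hc0 hc] at this

/-- the push-forward of Lebesgue measure on `(0,1)` under `xi`. -/
lemma map_xi {N : ℕ} (hN : 0 < N) {c : ℝ} (hc0 : 0 ≤ c) (hc : c ≤ 1 / 2) :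
    (volume.restrict (Ioo (0:ℝ) 1)).map (xi N c)
      = (2 : ℝ≥0∞) • volume.restrict (xi N c '' Ioo (0:ℝ) 1) := by
  have hs : MeasurableSet (xi N c '' Ioo (0:ℝ) 1) :=
    measurableSet_Ioo.image_of_measurable_injOn (measurable_xi N c) (injOn_xi hN hc0 hc _)
  ext B hB
  rw [Measure.map_apply (measurable_xi N c) hB, Measure.restrict_apply ((measurable_xi N c) hB),
    Measure.smul_apply, Measure.restrict_apply hB, smul_eq_mul]
  set s : Set ℝ := B ∩ xi N c '' Ioo (0:ℝ) 1 with hsdef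
  have hsm : MeasurableSet s := hB.inter hs
  have hsub : s ⊆ AA N c := by
    rintro _ ⟨_, t, _, rfl⟩
    exact xi_mem_AA hN hc0 hc t
  have hinj : InjOn (th N c) s := by
    rintro _ ⟨_, a, _, rfl⟩ _ ⟨_, b, _, rfl⟩ hab
    rw [th_xi hN hc0 hc, th_xi hN hc0 hc] at hab
    rw [hab]
  have himg : th N c '' s = xi N c ⁻¹' B ∩ Ioo (0:ℝ) 1 := by
    ext t
    constructor
    · rintro ⟨_, ⟨hyB, a, ha, rfl⟩, rfl⟩
      rw [th_xi hN hc0 hc]
      exact ⟨hyB, ha⟩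
    · rintro ⟨htB, ht⟩
      exact ⟨xi N c t, ⟨htB, t, ht, rfl⟩, th_xi hN hc0 hc t⟩
  have key := lintegral_image_eq_lintegral_abs_deriv_mul hsm
    (fun x hx => (hasDerivWithinAt_th hN c (hsub hx)).mono hsub) hinj (fun _ => (1 : ℝ≥0∞))
  rw [himg] at key
  simp only [mul_one, lintegral_const, Measure.restrict_apply MeasurableSet.univ, univ_inter,
    one_mul] at key
  rw [key]
  norm_num

end UnitSplit

open UnitSplit in
theorem unit_split (N : ℕ) (hN : 0 < N) :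
    ∃ (ξ θ : Bool → ℝ → ℝ) (A : Bool → Set ℝ),
      (∀ i, Measurable (ξ i)) ∧ (∀ i, Measurable (θ i)) ∧ (∀ i, MeasurableSet (A i)) ∧
      Disjoint (A true) (A false) ∧
      (∀ i, ∀ t ∈ Ioo (0:ℝ) 1, ξ i t ∈ A i ∧ ξ i t ∈ Ioo (0:ℝ) 1 ∧ θ i (ξ i t) = t ∧
        |ξ i t - t| ≤ 1 / N) ∧
      (volume.restrict (Ioo (0:ℝ) 1)).map (ξ true) + (volume.restrict (Ioo (0:ℝ) 1)).map (ξ false)
        = volume.restrict (Ioo (0:ℝ) 1) + volume.restrict (Ioo (0:ℝ) 1) := by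
  set cc : Bool → ℝ := fun i => if i then 0 else 1 / 2 with hcc
  have hc0 : ∀ i, 0 ≤ cc i := by intro i; cases i <;> simp [hcc]
  have hc : ∀ i, cc i ≤ 1 / 2 := by intro i; cases i <;> simp [hcc]
  have hdisjA : Disjoint (AA N (cc true)) (AA N (cc false)) := by
    rw [Set.disjoint_left]
    rintro y ⟨_, h1⟩ ⟨h2, _⟩
    simp only [hcc, if_true, Bool.false_eq_true, if_false] at h1 h2
    linarith
  refine ⟨fun i => xi N (cc i), fun i => th N (cc i), fun i => AA N (cc i),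
    fun i => measurable_xi N _, fun i => measurable_th N _, fun i => measurableSet_AA N _,
    hdisjA, fun i t ht => ⟨xi_mem_AA hN (hc0 i) (hc i) t, xi_mem_Ioo hN (hc0 i) (hc i) ht,
      th_xi hN (hc0 i) (hc i) t, abs_xi_sub hN (hc0 i) (hc i) t⟩, ?_⟩
  -- the measure identity
  set I : Set ℝ := Ioo (0:ℝ) 1 with hI
  set s : Bool → Set ℝ := fun i => xi N (cc i) '' I with hs
  have hsm : ∀ i, MeasurableSet (s i) := fun i =>
    measurableSet_Ioo.image_of_measurable_injOn (measurable_xi N _) (injOn_xi hN (hc0 i) (hc i) _)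
  have hsI : ∀ i, s i ⊆ I := by
    rintro i _ ⟨t, ht, rfl⟩
    exact xi_mem_Ioo hN (hc0 i) (hc i) ht
  have hsA : ∀ i, s i ⊆ AA N (cc i) := by
    rintro i _ ⟨t, _, rfl⟩
    exact xi_mem_AA hN (hc0 i) (hc i) t
  have hdisj : Disjoint (s true) (s false) := hdisjA.mono (hsA true) (hsA false)
  have hmass : ∀ i, 2 * volume (s i) = 1 := by
    intro i
    have h := congrArg (fun m : Measure ℝ => m univ) (map_xi hN (hc0 i) (hc i))
    simp only [Measure.smul_apply, smul_eq_mul, Measure.restrict_apply MeasurableSet.univ,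
      univ_inter] at h
    rw [Measure.map_apply (measurable_xi N _) MeasurableSet.univ, preimage_univ,
      Measure.restrict_apply MeasurableSet.univ, univ_inter, Real.volume_Ioo] at h
    rw [← h]; simp
  have hunion : (s true ∪ s false : Set ℝ) =ᵐ[volume] I := by
    refine ae_eq_of_subset_of_measure_ge (union_subset (hsI true) (hsI false)) ?_
      ((hsm true).union (hsm false)).nullMeasurableSet (by simp [hI])
    rw [measure_union hdisj (hsm false)]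
    have h1 := hmass true
    have h2 := hmass false
    have : (2:ℝ≥0∞) * (volume (s true) + volume (s false)) = 2 * 1 := by
      rw [mul_add, h1, h2]; norm_num
    have h3 : volume (s true) + volume (s false) = 1 :=
      (ENNReal.mul_right_inj (by norm_num) (by norm_num)).1 this
    rw [h3, hI, Real.volume_Ioo]; simp
  change (volume.restrict I).map (xi N (cc true)) + (volume.restrict I).map (xi N (cc false)) = _
  rw [map_xi hN (hc0 true) (hc true), map_xi hN (hc0 false) (hc false), ← smul_add,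
    ← Measure.restrict_union hdisj (hsm false), Measure.restrict_congr_set hunion, two_smul]

end Crest.Agent.R130
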