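/-
R130 task G4: fine splitting of a measure `w dx` on the line (`w` continuous, positive exactly on
`(-δ,δ)`), by conjugating `unit_split` with the normalised distribution function
`G x = (∫ t in -δ..x, w t) / M`, `M = ∫ t in -δ..δ, w t`.

* `G` is `C¹` with derivative `w/M`, strictly increasing on `[-δ,δ]`, maps `(-δ,δ)` onto `(0,1)`;
* `m.map G = M • volume.restrict (Ioo 0 1)` (e.g. `lintegral_image_eq_lintegral_abs_deriv_mul`);
* `Ginv` : inverse homeomorphism `[0,1] → [-δ,δ]` extended to `ℝ` (measurable, uniformly continuous);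
* `ξ i = Ginv ∘ ξ⁰ i ∘ G`, `θ i = Ginv ∘ θ⁰ i ∘ G`, `A i = G ⁻¹' (A⁰ i)`, `N` so large that
  `|t - t'| ≤ 1/N → |Ginv t - Ginv t'| ≤ η`;
* `m.map (ξ i) = (Ginv)_# (ξ⁰ i)_# (M • λ)` and `(Ginv)_# (M • λ) = (Ginv ∘ G)_# m = m`.
-/
import Crest.Agent.R130.UnitSplit

set_option autoImplicit false
open MeasureTheory Set
open scoped ENNReal

namespace Crest.Agent.R130

namespace OneD

/-- abstract conjugation of `unit_split`. -/
lemma conj_split (m : Measure ℝ) (J : Set ℝ) (G Ginv : ℝ → ℝ) (c : ℝ≥0∞)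
    (hG : Measurable G) (hGinv : Measurable Ginv)
    (hJI : ∀ x ∈ J, G x ∈ Ioo (0:ℝ) 1) (hIJ : ∀ u ∈ Ioo (0:ℝ) 1, Ginv u ∈ J)
    (hl : ∀ x ∈ J, Ginv (G x) = x) (hr : ∀ u ∈ Ioo (0:ℝ) 1, G (Ginv u) = u)
    (hmap : m.map G = c • volume.restrict (Ioo (0:ℝ) 1)) (hae : ∀ᵐ x ∂m, x ∈ J)
    (N : ℕ) (hN : 0 < N) (η : ℝ)
    (hmod : ∀ x ∈ J, ∀ y ∈ J, |G y - G x| ≤ 1 / N → |y - x| ≤ η) :
    ∃ (ξ θ : Bool → ℝ → ℝ) (A : Bool → Set ℝ),
      (∀ i, Measurable (ξ i)) ∧ (∀ i, Measurable (θ i)) ∧ (∀ i, MeasurableSet (A i)) ∧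
      Disjoint (A true) (A false) ∧
      (∀ i, ∀ x ∈ J, ξ i x ∈ A i ∧ ξ i x ∈ J ∧ θ i (ξ i x) = x ∧ |ξ i x - x| ≤ η) ∧
      m.map (ξ true) + m.map (ξ false) = m + m := by
  obtain ⟨ξ0, θ0, A0, hξ0, hθ0, hA0, hdisj, hprop, hsum⟩ := unit_split N hN
  refine ⟨fun i => Ginv ∘ ξ0 i ∘ G, fun i => Ginv ∘ θ0 i ∘ G, fun i => G ⁻¹' (A0 i),
    fun i => hGinv.comp ((hξ0 i).comp hG), fun i => hGinv.comp ((hθ0 i).comp hG),
    fun i => hG (hA0 i), hdisj.preimage G, ?_, ?_⟩
  · intro i x hx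
    obtain ⟨h1, h2, h3, h4⟩ := hprop i (G x) (hJI x hx)
    have hy : Ginv (ξ0 i (G x)) ∈ J := hIJ _ h2
    have hGy : G (Ginv (ξ0 i (G x))) = ξ0 i (G x) := hr _ h2
    refine ⟨?_, hy, ?_, ?_⟩
    · change G (Ginv (ξ0 i (G x))) ∈ A0 i
      rw [hGy]; exact h1
    · change Ginv (θ0 i (G (Ginv (ξ0 i (G x))))) = x
      rw [hGy, h3, hl x hx]
    · change |Ginv (ξ0 i (G x)) - x| ≤ η
      apply hmod x hx _ hy
      rw [hGy]; exact h4
  · have hcomp : ∀ i, m.map (Ginv ∘ ξ0 i ∘ G)
        = c • ((volume.restrict (Ioo (0:ℝ) 1)).map (ξ0 i)).map Ginv := by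
      intro i
      rw [← Measure.map_map hGinv ((hξ0 i).comp hG), ← Measure.map_map (hξ0 i) hG, hmap,
        Measure.map_smul, Measure.map_smul]
    have hid : m.map (Ginv ∘ G) = m := by
      have : (Ginv ∘ G) =ᵐ[m] id := by
        filter_upwards [hae] with x hx
        exact hl x hx
      rw [Measure.map_congr this, Measure.map_id]
    have hback : c • (volume.restrict (Ioo (0:ℝ) 1)).map Ginv = m := by
      rw [← Measure.map_smul, ← hmap, Measure.map_map hGinv hG, hid]
    change m.map (Ginv ∘ ξ0 true ∘ G) + m.map (Ginv ∘ ξ0 false ∘ G) = m + m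
    rw [hcomp true, hcomp false, ← smul_add, ← Measure.map_add _ _ hGinv, hsum,
      Measure.map_add _ _ hGinv, smul_add, hback]

end OneD

open OneD in
theorem oneD_split (w : ℝ → ℝ) (hw : Continuous w) (δ : ℝ) (hδ : 0 < δ)
    (hpos : ∀ x ∈ Ioo (-δ) δ, 0 < w x) (hzero : ∀ x, x ∉ Ioo (-δ) δ → w x = 0)
    (η : ℝ) (hη : 0 < η) :
    ∃ (ξ θ : Bool → ℝ → ℝ) (A : Bool → Set ℝ),
      (∀ i, Measurable (ξ i)) ∧ (∀ i, Measurable (θ i)) ∧ (∀ i, MeasurableSet (A i)) ∧
      Disjoint (A true) (A false) ∧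
      (∀ i, ∀ x ∈ Ioo (-δ) δ, ξ i x ∈ A i ∧ ξ i x ∈ Ioo (-δ) δ ∧ θ i (ξ i x) = x ∧
        |ξ i x - x| ≤ η) ∧
      (volume.withDensity fun x => ENNReal.ofReal (w x)).map (ξ true)
        + (volume.withDensity fun x => ENNReal.ofReal (w x)).map (ξ false)
        = (volume.withDensity fun x => ENNReal.ofReal (w x))
          + (volume.withDensity fun x => ENNReal.ofReal (w x)) := by
  set J : Set ℝ := Ioo (-δ) δ with hJ
  set K : Set ℝ := Icc (-δ) δ with hK
  have hJK : J ⊆ K := Ioo_subset_Icc_self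
  have hle : -δ ≤ δ := by linarith
  -- the distribution function
  set F : ℝ → ℝ := fun x => ∫ t in (-δ)..x, w t with hF
  have hFd : ∀ x, HasDerivAt F (w x) x := fun x => (hw.integral_hasStrictDerivAt (-δ) x).hasDerivAt
  have hFc : Continuous F := continuous_iff_continuousAt.2 fun x => (hFd x).continuousAt
  have hFmono : StrictMonoOn F K := by
    apply strictMonoOn_of_deriv_pos (convex_Icc _ _) hFc.continuousOn
    intro x hx
    rw [interior_Icc] at hx
    rw [(hFd x).deriv]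
    exact hpos x hx
  have hF0 : F (-δ) = 0 := by simp [hF]
  set M : ℝ := F δ with hM
  have hMpos : 0 < M := by
    have := hFmono (left_mem_Icc.2 hle) (right_mem_Icc.2 hle) (by linarith : -δ < δ)
    rwa [hF0] at this
  set G : ℝ → ℝ := fun x => F x / M with hGdef
  have hGd : ∀ x, HasDerivAt G (w x / M) x := fun x => (hFd x).div_const M
  have hGc : Continuous G := hFc.div_const M
  have hGmono : StrictMonoOn G K := by
    intro a ha b hb hab
    exact div_lt_div_of_pos_right (hFmono ha hb hab) hMpos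
  have hG0 : G (-δ) = 0 := by simp [hGdef, hF0]
  have hG1 : G δ = 1 := by simp only [hGdef]; exact div_self hMpos.ne'
  have hKI : ∀ x ∈ K, G x ∈ Icc (0:ℝ) 1 := by
    intro x hx
    constructor
    · rw [← hG0]; exact hGmono.monotoneOn (left_mem_Icc.2 hle) hx hx.1
    · rw [← hG1]; exact hGmono.monotoneOn hx (right_mem_Icc.2 hle) hx.2
  have hJI : ∀ x ∈ J, G x ∈ Ioo (0:ℝ) 1 := by
    intro x hx
    constructor
    · rw [← hG0]; exact hGmono (left_mem_Icc.2 hle) (hJK hx) hx.1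
    · rw [← hG1]; exact hGmono (hJK hx) (right_mem_Icc.2 hle) hx.2
  have hsurjK : ∀ u ∈ Icc (0:ℝ) 1, ∃ x ∈ K, G x = u := by
    intro u hu
    have := intermediate_value_Icc hle hGc.continuousOn
    rw [hG0, hG1] at this
    exact this hu
  -- the inverse
  set cl : ℝ → ℝ := fun u => max 0 (min u 1) with hcl
  have hclmem : ∀ u, cl u ∈ Icc (0:ℝ) 1 := fun u =>
    ⟨le_max_left _ _, max_le zero_le_one (min_le_right _ _)⟩
  have hclmono : Monotone cl := fun a b hab => max_le_max le_rfl (min_le_min hab le_rfl)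
  have hclid : ∀ u ∈ Icc (0:ℝ) 1, cl u = u := by
    intro u hu
    simp only [hcl]
    rw [min_eq_left hu.2, max_eq_right hu.1]
  set Ginv : ℝ → ℝ := fun u => Function.invFunOn G K (cl u) with hGinvdef
  have hinvmem : ∀ u, Ginv u ∈ K := fun u => Function.invFunOn_mem (hsurjK _ (hclmem u))
  have hinveq : ∀ u, G (Ginv u) = cl u := fun u => Function.invFunOn_eq (hsurjK _ (hclmem u))
  have hinvmono : Monotone Ginv := by
    intro a b hab
    rw [← hGmono.le_iff_le (hinvmem a) (hinvmem b), hinveq, hinveq]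
    exact hclmono hab
  have hl : ∀ x ∈ K, Ginv (G x) = x := by
    intro x hx
    apply hGmono.injOn (hinvmem _) hx
    rw [hinveq, hclid _ (hKI x hx)]
  have hr : ∀ u ∈ Ioo (0:ℝ) 1, G (Ginv u) = u := by
    intro u hu
    rw [hinveq, hclid _ (Ioo_subset_Icc_self hu)]
  have hIJ : ∀ u ∈ Ioo (0:ℝ) 1, Ginv u ∈ J := by
    intro u hu
    have h1 := hinvmem u
    have h2 := hr u hu
    refine ⟨lt_of_le_of_ne h1.1 ?_, lt_of_le_of_ne h1.2 ?_⟩
    · intro h
      rw [← h, hG0] at h2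
      exact hu.1.ne h2
    · intro h
      rw [h, hG1] at h2
      exact hu.2.ne h2.symm
  -- the measure
  set m : Measure ℝ := volume.withDensity fun x => ENNReal.ofReal (w x) with hm
  have hwm : Measurable fun x => ENNReal.ofReal (w x) := hw.measurable.ennreal_ofReal
  have hae : ∀ᵐ x ∂m, x ∈ J := by
    rw [hm, ae_withDensity_iff hwm]
    refine Filter.Eventually.of_forall fun x hx => ?_
    by_contra hxJ
    exact hx (by rw [hzero x hxJ]; simp)
  have hmap : m.map G = ENNReal.ofReal M • volume.restrict (Ioo (0:ℝ) 1) := by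
    ext B hB
    rw [Measure.map_apply hGc.measurable hB, Measure.smul_apply, Measure.restrict_apply hB,
      smul_eq_mul, hm, withDensity_apply _ (hGc.measurable hB)]
    set s : Set ℝ := J ∩ G ⁻¹' B with hs
    have hsm : MeasurableSet s := measurableSet_Ioo.inter (hGc.measurable hB)
    have hind : (fun x => ENNReal.ofReal (w x)) = J.indicator fun x => ENNReal.ofReal (w x) := by
      ext x
      by_cases hx : x ∈ J
      · simp [hx]
      · simp [hx, hzero x hx]
    rw [hind, setLIntegral_indicator measurableSet_Ioo]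
    have himg : G '' s = B ∩ Ioo (0:ℝ) 1 := by
      ext u
      constructor
      · rintro ⟨x, ⟨hxJ, hxB⟩, rfl⟩
        exact ⟨hxB, hJI x hxJ⟩
      · rintro ⟨huB, huI⟩
        refine ⟨Ginv u, ⟨hIJ u huI, ?_⟩, hr u huI⟩
        change G (Ginv u) ∈ B
        rw [hr u huI]; exact huB
    have key := lintegral_image_eq_lintegral_abs_deriv_mul hsm
      (fun x _ => (hGd x).hasDerivWithinAt) (hGmono.injOn.mono (inter_subset_left.trans hJK))
      (fun _ => (1 : ℝ≥0∞))
    rw [himg] at key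
    simp only [mul_one, lintegral_const, Measure.restrict_apply MeasurableSet.univ, univ_inter,
      one_mul] at key
    rw [key, ← lintegral_const_mul _ (by fun_prop)]
    apply setLIntegral_congr_fun hsm
    intro x hx
    have hwx : 0 < w x := hpos x hx.1
    change ENNReal.ofReal (w x) = ENNReal.ofReal M * ENNReal.ofReal |w x / M|
    rw [← ENNReal.ofReal_mul hMpos.le, abs_of_pos (div_pos hwx hMpos)]
    congr 1
    field_simp
  -- the modulus
  have hmodK : ∃ N : ℕ, 0 < N ∧ ∀ x ∈ K, ∀ y ∈ K, x + η < y → 1 / (N:ℝ) < G y - G x := by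
    by_cases hcase : -δ ≤ δ - η
    · have hcomp : IsCompact (Icc (-δ) (δ - η)) := isCompact_Icc
      have hne : (Icc (-δ) (δ - η)).Nonempty := nonempty_Icc.2 hcase
      have hcont : ContinuousOn (fun x => G (x + η) - G x) (Icc (-δ) (δ - η)) :=
        ((hGc.comp (continuous_id.add continuous_const)).sub hGc).continuousOn
      obtain ⟨x0, hx0, hmin⟩ := hcomp.exists_isMinOn hne hcont
      have hc : 0 < G (x0 + η) - G x0 := by
        have : G x0 < G (x0 + η) :=
          hGmono ⟨hx0.1, by linarith [hx0.2]⟩ ⟨by linarith [hx0.1], by linarith [hx0.2]⟩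
            (by linarith)
        linarith
      obtain ⟨n, hn⟩ := exists_nat_one_div_lt hc
      refine ⟨n + 1, Nat.succ_pos n, ?_⟩
      intro x hx y hy hxy
      have hxm : x ∈ Icc (-δ) (δ - η) := ⟨hx.1, by linarith [hy.2]⟩
      have h1 : G (x0 + η) - G x0 ≤ G (x + η) - G x := hmin hxm
      have h2 : G (x + η) < G y :=
        hGmono ⟨by linarith [hx.1], by linarith [hy.2]⟩ hy hxy
      push_cast
      linarith
    · refine ⟨1, one_pos, ?_⟩
      intro x hx y hy hxy
      exfalso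
      apply hcase
      linarith [hx.1, hy.2]
  obtain ⟨N, hN, hmodN⟩ := hmodK
  have hmod : ∀ x ∈ J, ∀ y ∈ J, |G y - G x| ≤ 1 / N → |y - x| ≤ η := by
    intro x hx y hy h
    rw [abs_le] at h ⊢
    constructor
    · by_contra hcon
      have := hmodN y (hJK hy) x (hJK hx) (by linarith)
      linarith [h.1]
    · by_contra hcon
      have := hmodN x (hJK hx) y (hJK hy) (by linarith)
      linarith [h.2]
  exact conj_split m J G Ginv (ENNReal.ofReal M) hGc.measurable hinvmono.measurable hJI hIJ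
    (fun x hx => hl x (hJK hx)) hr hmap hae N hN η hmod

end Crest.Agent.R130
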