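/-
R130 task G2: push-forward of a density `f²` under a local diffeomorphism is `g²` with `g` smooth.

`g y = f (σ y) * √|det (fderiv ℝ σ y)|` on `V`, `0` outside.
* smooth on the open set `V` (`det (fderiv σ y) ≠ 0` because `fderiv φ (σ y) ∘ fderiv σ y = id`);
  `contDiff_det` below (det is a polynomial in matrix entries, cf. the proof of
  `ContinuousLinearMap.continuous_det`);
* `g = 0` on the open set `(φ '' tsupport f)ᶜ` (`φ '' tsupport f` is compact, contained in `V`);
* measure identity: `Measure.ext`, `φ ⁻¹' A ∩ U = σ '' (A ∩ V)` and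
  `MeasureTheory.lintegral_image_eq_lintegral_abs_det_fderiv_mul` for `σ` on `A ∩ V`.
-/
import Mathlib

set_option autoImplicit false
open MeasureTheory Set Metric
open scoped ENNReal ContDiff

namespace Crest.Agent.R130

theorem contDiff_det {E : Type*} [NormedAddCommGroup E] [NormedSpace ℝ E]
    [FiniteDimensional ℝ E] : ContDiff ℝ ∞ (fun A : E →L[ℝ] E => A.det) := by
  classical
  let b := Module.finBasis ℝ E
  have h : ∀ A : E →L[ℝ] E, A.det = (LinearMap.toMatrix b b (A : E →ₗ[ℝ] E)).det :=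
    fun A => (LinearMap.det_toMatrix b _).symm
  simp_rw [h, Matrix.det_apply']
  refine ContDiff.sum fun σ _ => ?_
  refine contDiff_const.mul ?_
  refine contDiff_prod fun i _ => ?_
  simp_rw [LinearMap.toMatrix_apply]
  have h1 : ContDiff ℝ ∞ (fun A : E →L[ℝ] E => A (b i)) :=
    (ContinuousLinearMap.apply ℝ E (b i)).contDiff
  have h2 : ContDiff ℝ ∞ (fun v : E => b.repr v (σ i)) :=
    ((b.coord (σ i)).toContinuousLinearMap).contDiff
  exact h2.comp h1

theorem pushforward_density {E : Type*} [NormedAddCommGroup E] [NormedSpace ℝ E]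
    [FiniteDimensional ℝ E] [MeasurableSpace E] [BorelSpace E]
    (μ : Measure E) [μ.IsAddHaarMeasure]
    (φ σ : E → E) (U V : Set E) (hU : IsOpen U) (hV : IsOpen V)
    (hφ : ContDiffOn ℝ ∞ φ U) (hσ : ContDiffOn ℝ ∞ σ V)
    (hφU : MapsTo φ U V) (hσV : MapsTo σ V U)
    (hσφ : ∀ x ∈ U, σ (φ x) = x) (hφσ : ∀ y ∈ V, φ (σ y) = y)
    (hφm : Measurable φ)
    (f : E → ℝ) (hf : ContDiff ℝ ∞ f) (hf0 : ∀ x, 0 ≤ f x) (hfc : HasCompactSupport f)
    (hfs : tsupport f ⊆ U) :
    ∃ g : E → ℝ, ContDiff ℝ ∞ g ∧ (∀ y, 0 ≤ g y) ∧ HasCompactSupport g ∧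
      (∀ y, g y ≠ 0 → y ∈ V ∧ f (σ y) ≠ 0) ∧
      (μ.withDensity fun x => ENNReal.ofReal (f x ^ 2)).map φ
        = μ.withDensity fun y => ENNReal.ofReal (g y ^ 2) := by
  classical
  -- differentiability facts
  have hσat : ∀ y ∈ V, ContDiffAt ℝ ∞ σ y := fun y hy => hσ.contDiffAt (hV.mem_nhds hy)
  have hφat : ∀ x ∈ U, ContDiffAt ℝ ∞ φ x := fun x hx => hφ.contDiffAt (hU.mem_nhds hx)
  have hσd : ∀ y ∈ V, HasFDerivAt σ (fderiv ℝ σ y) y := fun y hy =>
    ((hσat y hy).differentiableAt (by simp)).hasFDerivAt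
  have hφd : ∀ x ∈ U, HasFDerivAt φ (fderiv ℝ φ x) x := fun x hx =>
    ((hφat x hx).differentiableAt (by simp)).hasFDerivAt
  -- the determinant does not vanish
  have hdet : ∀ y ∈ V, (fderiv ℝ σ y).det ≠ 0 := by
    intro y hy
    have h1 : HasFDerivAt (φ ∘ σ) ((fderiv ℝ φ (σ y)).comp (fderiv ℝ σ y)) y :=
      (hφd (σ y) (hσV hy)).comp y (hσd y hy)
    have h2 : HasFDerivAt (φ ∘ σ) (ContinuousLinearMap.id ℝ E) y := by
      refine (hasFDerivAt_id y).congr_of_eventuallyEq ?_
      filter_upwards [hV.mem_nhds hy] with z hz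
      simp [hφσ z hz]
    have h3 := h1.unique h2
    intro h0
    have h4 : ((fderiv ℝ φ (σ y)).comp (fderiv ℝ σ y)).det = 1 := by
      rw [h3]
      exact LinearMap.det_id
    have h5 : ((fderiv ℝ φ (σ y)).comp (fderiv ℝ σ y)).det
        = (fderiv ℝ φ (σ y)).det * (fderiv ℝ σ y).det := LinearMap.det_comp _ _
    rw [h5, h0, mul_zero] at h4
    exact zero_ne_one h4
  -- the compact set carrying `g`
  set Kc : Set E := φ '' tsupport f with hKc
  have hKcomp : IsCompact Kc := hfc.isCompact.image_of_continuousOn (hφ.continuousOn.mono hfs)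
  have hKV : Kc ⊆ V := by
    rintro _ ⟨x, hx, rfl⟩
    exact hφU (hfs hx)
  let G : E → ℝ := fun y => f (σ y) * √|(fderiv ℝ σ y).det|
  let g : E → ℝ := fun y => if y ∈ V then G y else 0
  have hgV : ∀ y ∈ V, g y = G y := fun y hy => if_pos hy
  have hgK : ∀ y, y ∉ Kc → g y = 0 := by
    intro y hy
    by_cases hyV : y ∈ V
    · rw [hgV y hyV]
      have : σ y ∉ tsupport f := fun h => hy ⟨σ y, h, hφσ y hyV⟩
      have h0 : f (σ y) = 0 := image_eq_zero_of_notMem_tsupport this
      simp [G, h0]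
    · exact if_neg hyV
  have hGsm : ∀ y ∈ V, ContDiffAt ℝ ∞ G y := by
    intro y hy
    have h1 : ContDiffAt ℝ ∞ (fderiv ℝ σ) y := (hσat y hy).fderiv_right (m := ∞) (by simp)
    have h2 : ContDiffAt ℝ ∞ (fun z => (fderiv ℝ σ z).det) y :=
      (contDiff_det (E := E)).contDiffAt.comp y h1
    have h3 : ContDiffAt ℝ ∞ (fun z => |(fderiv ℝ σ z).det|) y :=
      ContDiffAt.comp (g := fun t : ℝ => |t|) y (contDiffAt_abs (hdet y hy)) h2
    have h4 : ContDiffAt ℝ ∞ (fun z => √|(fderiv ℝ σ z).det|) y :=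
      h3.sqrt (abs_pos.2 (hdet y hy)).ne'
    exact (hf.contDiffAt.comp y (hσat y hy)).mul h4
  refine ⟨g, ?_, ?_, ?_, ?_, ?_⟩
  · -- smoothness
    rw [contDiff_iff_contDiffAt]
    intro y
    by_cases hy : y ∈ V
    · refine (hGsm y hy).congr_of_eventuallyEq ?_
      filter_upwards [hV.mem_nhds hy] with z hz using hgV z hz
    · have hyK : y ∈ Kcᶜ := fun h => hy (hKV h)
      refine (contDiffAt_const (c := (0 : ℝ))).congr_of_eventuallyEq ?_
      filter_upwards [hKcomp.isClosed.isOpen_compl.mem_nhds hyK] with z hz using hgK z hz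
  · intro y
    by_cases hy : y ∈ V
    · rw [hgV y hy]
      exact mul_nonneg (hf0 _) (Real.sqrt_nonneg _)
    · exact (if_neg hy).ge
  · exact HasCompactSupport.intro hKcomp hgK
  · intro y hy
    by_cases hyV : y ∈ V
    · refine ⟨hyV, fun h0 => hy ?_⟩
      rw [hgV y hyV]
      simp [G, h0]
    · exact absurd (if_neg hyV) hy
  · -- the measure identity
    have hfm : Measurable fun x => ENNReal.ofReal (f x ^ 2) :=
      (hf.continuous.measurable.pow_const 2).ennreal_ofReal
    refine Measure.ext fun A hA => ?_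
    rw [Measure.map_apply hφm hA, withDensity_apply _ (hφm hA), withDensity_apply _ hA]
    have hAV : MeasurableSet (A ∩ V) := hA.inter hV.measurableSet
    have himg : σ '' (A ∩ V) = φ ⁻¹' A ∩ U := by
      ext x
      constructor
      · rintro ⟨y, ⟨hyA, hyV⟩, rfl⟩
        exact ⟨by simpa [hφσ y hyV] using hyA, hσV hyV⟩
      · rintro ⟨hxA, hxU⟩
        exact ⟨φ x, ⟨hxA, hφU hxU⟩, hσφ x hxU⟩
    have hinj : InjOn σ (A ∩ V) := by
      intro y hy z hz hyz
      rw [← hφσ y hy.2, ← hφσ z hz.2, hyz]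
    have hL : ∫⁻ x in φ ⁻¹' A, ENNReal.ofReal (f x ^ 2) ∂μ
        = ∫⁻ x in φ ⁻¹' A ∩ U, ENNReal.ofReal (f x ^ 2) ∂μ := by
      rw [← lintegral_indicator (hφm hA), ← lintegral_indicator ((hφm hA).inter hU.measurableSet)]
      congr 1
      ext x
      by_cases hxU : x ∈ U
      · by_cases hxA : x ∈ φ ⁻¹' A
        · have hxAU : x ∈ φ ⁻¹' A ∩ U := ⟨hxA, hxU⟩
          rw [indicator_of_mem hxA, indicator_of_mem hxAU]
        · rw [indicator_of_notMem hxA, indicator_of_notMem (fun h => hxA h.1)]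
      · have h0 : f x = 0 := image_eq_zero_of_notMem_tsupport (fun h => hxU (hfs h))
        rw [indicator_of_notMem (fun h : x ∈ φ ⁻¹' A ∩ U => hxU h.2)]
        by_cases hxA : x ∈ φ ⁻¹' A
        · rw [indicator_of_mem hxA]; simp [h0]
        · rw [indicator_of_notMem hxA]
    have hR : ∫⁻ y in A, ENNReal.ofReal (g y ^ 2) ∂μ
        = ∫⁻ y in A ∩ V, ENNReal.ofReal (g y ^ 2) ∂μ := by
      rw [← lintegral_indicator hA, ← lintegral_indicator hAV]
      congr 1
      ext y
      by_cases hyV : y ∈ V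
      · by_cases hyA : y ∈ A
        · have hyAV : y ∈ A ∩ V := ⟨hyA, hyV⟩
          rw [indicator_of_mem hyA, indicator_of_mem hyAV]
        · rw [indicator_of_notMem hyA, indicator_of_notMem (fun h => hyA h.1)]
      · have h0 : g y = 0 := if_neg hyV
        rw [indicator_of_notMem (fun h : y ∈ A ∩ V => hyV h.2)]
        by_cases hyA : y ∈ A
        · rw [indicator_of_mem hyA]; simp [h0]
        · rw [indicator_of_notMem hyA]
    rw [hL, hR, ← himg,
      lintegral_image_eq_lintegral_abs_det_fderiv_mul μ hAV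
        (fun y hy => (hσd y hy.2).hasFDerivWithinAt) hinj]
    refine setLIntegral_congr_fun hAV ?_
    intro y hy
    simp only []
    rw [hgV y hy.2, ← ENNReal.ofReal_mul (abs_nonneg _)]
    congr 1
    simp only [G]
    rw [mul_pow, Real.sq_sqrt (abs_nonneg _)]
    ring

end Crest.Agent.R130
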