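/-
R130 task S1: bookkeeping lemmas for a `Setup` (symmetry `Rb`, measurability, clusters, labels,
values of the potential).  All proofs are short unfoldings; the disjointness statements follow from
`cluster_disjoint` and the `_close` lemmas.
-/
import Crest.Agent.R130.Setup
import Crest.Agent.R130.Cluster

set_option autoImplicit false
open MeasureTheory Set Metric
open scoped ENNReal ContDiff RealInnerProductSpace
open Crest.AnalysisR.OT

namespace Crest.Agent.R130
namespace Setup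

universe u
variable {s : ℝ} {E : Type u} [NormedAddCommGroup E] [InnerProductSpace ℝ E]
  [FiniteDimensional ℝ E] [MeasurableSpace E] [BorelSpace E] (T : Setup s E)

/-! ### the symmetry -/

theorem Rb_invol (i : Bool) (x : E) : T.Rb i (T.Rb i x) = x := by
  cases i
  · exact T.R_invol x
  · rfl

theorem Rb_norm (i : Bool) (x : E) : ‖T.Rb i x‖ = ‖x‖ := by
  cases i
  · exact T.R.norm_map x
  · rfl

theorem Rb_sub (i : Bool) (x y : E) : T.Rb i (x - y) = T.Rb i x - T.Rb i y := by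
  cases i
  · exact map_sub T.R x y
  · rfl

theorem Rb_add (i : Bool) (x y : E) : T.Rb i (x + y) = T.Rb i x + T.Rb i y := by
  cases i
  · exact map_add T.R x y
  · rfl

theorem Rb_neg (i : Bool) (x : E) : T.Rb i (-x) = -T.Rb i x := by
  cases i
  · exact map_neg T.R x
  · rfl

theorem Rb_meas (i : Bool) : Measurable (T.Rb i) := by
  cases i
  · exact T.R.continuous.measurable
  · exact measurable_id

theorem Rb_C (i : Bool) (x : E) (hx : x ∈ T.C) : T.Rb i x ∈ T.C := by
  cases i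
  · exact T.C_R x hx
  · exact hx

theorem tripleCost_Rb (i : Bool) (x y z : E) :
    tripleCost s (T.Rb i x, T.Rb i y, T.Rb i z) = tripleCost s (x, y, z) := by
  cases i
  · exact tripleCost_isometry s T.R x y z
  · rfl

theorem cR_Rb (i : Bool) (x y z : E) : cR s (T.Rb i x) (T.Rb i y) (T.Rb i z) = cR s x y z := by
  cases i
  · exact cR_isometry s T.R x y z
  · rfl

theorem uQ_Rb (i : Bool) (x : E) : uQ T.loc.K (T.Rb i x) = uQ T.loc.K x := by
  unfold uQ
  rw [Rb_norm]

theorem ee_norm (i : Bool) : ‖T.ee i‖ = 1 := by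
  unfold ee
  rw [Rb_norm, T.he]

theorem ee_orth : ⟪T.ee true, T.ee false⟫ = 0 := by
  exact T.R_orth

/-! ### measurability -/

theorem p_meas (i : Bool) : Measurable (T.p i) := by
  exact (T.Rb_meas i).comp (T.loc.pi_meas.comp (T.Rb_meas i))

theorem b_meas (i : Bool) : Measurable (T.b i) := by
  exact (T.Rb_meas i).comp (T.loc.be_meas.comp (T.Rb_meas i))

theorem SP_meas (i : Bool) : MeasurableSet (T.SP i) := by
  have h1 : MeasurableSet (T.Rb i ⁻¹' T.loc.VP) := T.Rb_meas i T.loc.VP_open.measurableSet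
  have h2 : MeasurableSet ((fun y => T.loc.sP (T.Rb i y)) ⁻¹' T.C) :=
    (T.loc.sP_meas.comp (T.Rb_meas i)) T.C_meas
  exact h1.inter h2

theorem SS_meas (i : Bool) : MeasurableSet (T.SS i) := by
  have h1 : MeasurableSet (T.Rb i ⁻¹' T.loc.VS) := T.Rb_meas i T.loc.VS_open.measurableSet
  have h2 : MeasurableSet ((fun y => T.loc.sS (T.Rb i y)) ⁻¹' T.C) :=
    (T.loc.sS_meas.comp (T.Rb_meas i)) T.C_meas
  exact h1.inter h2

theorem k_meas : Measurable T.k := by
  have hR : Measurable T.R := T.R.continuous.measurable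
  unfold k
  refine Measurable.ite (T.SP_meas true) T.loc.sP_meas ?_
  refine Measurable.ite (T.SS_meas true) T.loc.sS_meas ?_
  refine Measurable.ite (T.SP_meas false) (hR.comp (T.loc.sP_meas.comp hR)) ?_
  exact Measurable.ite (T.SS_meas false) (hR.comp (T.loc.sS_meas.comp hR)) measurable_id

omit [InnerProductSpace ℝ E] [FiniteDimensional ℝ E] in
theorem uQ_meas' (K : ℝ) : Measurable (uQ K : E → ℝ) := by
  unfold uQ
  fun_prop

theorem uP_meas' (K : ℝ) (e : E) : Measurable (uP s K e : E → ℝ) := by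
  unfold uP
  fun_prop

omit [InnerProductSpace ℝ E] [FiniteDimensional ℝ E] in
theorem Hs_meas' : Measurable (Hs s : E → ℝ) := by
  unfold Hs
  exact measurable_norm.pow_const _

theorem uS_meas' : Measurable T.uS := by
  have h1 := T.loc.sS_meas
  have h2 := T.loc.pi_meas.comp h1
  have hH : Measurable (Hs s : E → ℝ) := Hs_meas'
  unfold uS Fb cR
  refine Measurable.sub (Measurable.sub (Measurable.add (Measurable.add ?_ ?_) ?_) ?_) ?_
  · exact hH.comp (h2.sub h1)
  · exact hH.comp (h2.sub measurable_id)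
  · exact hH.comp (h1.sub measurable_id)
  · exact (uP_meas' _ _).comp h2
  · exact (uQ_meas' _).comp h1

theorem uR_meas : Measurable T.uR := by
  have hR : Measurable T.R := T.R.continuous.measurable
  unfold uR
  refine Measurable.ite T.C_meas (uQ_meas' _) ?_
  refine Measurable.ite (T.SP_meas true) (uP_meas' _ _) ?_
  refine Measurable.ite (T.SS_meas true) T.uS_meas' ?_
  refine Measurable.ite (T.SP_meas false) ((uP_meas' _ _).comp hR) ?_
  exact Measurable.ite (T.SS_meas false) (T.uS_meas'.comp hR) measurable_const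

theorem u_meas : Measurable T.u := by
  exact T.uR_meas.ennreal_ofReal

/-! ### clusters -/

theorem Rb_ball (i : Bool) (q : E) (hq : q ∈ T.C) : T.Rb i q ∈ ball (0:E) T.loc.r :=
  T.C_sub (T.Rb_C i q hq)

theorem p_mem (i : Bool) (q : E) (hq : q ∈ T.C) : T.p i q ∈ T.SP i := by
  have hb := T.Rb_ball i q hq
  refine ⟨?_, ?_⟩
  · show T.Rb i (T.Rb i (T.loc.pi (T.Rb i q))) ∈ T.loc.VP
    rw [Rb_invol]
    exact T.loc.pi_maps hb
  · show T.loc.sP (T.Rb i (T.Rb i (T.loc.pi (T.Rb i q)))) ∈ T.C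
    rw [Rb_invol, T.loc.sP_pi _ hb]
    exact T.Rb_C i q hq

theorem b_mem (i : Bool) (q : E) (hq : q ∈ T.C) : T.b i q ∈ T.SS i := by
  have hb := T.Rb_ball i q hq
  refine ⟨?_, ?_⟩
  · show T.Rb i (T.Rb i (T.loc.be (T.Rb i q))) ∈ T.loc.VS
    rw [Rb_invol]
    exact T.loc.be_maps hb
  · show T.loc.sS (T.Rb i (T.Rb i (T.loc.be (T.Rb i q)))) ∈ T.C
    rw [Rb_invol, T.loc.sS_be _ hb]
    exact T.Rb_C i q hq

theorem exists_of_mem_SP (i : Bool) (y : E) (hy : y ∈ T.SP i) : ∃ q ∈ T.C, y = T.p i q := by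
  refine ⟨T.Rb i (T.loc.sP (T.Rb i y)), T.Rb_C i _ hy.2, ?_⟩
  show y = T.Rb i (T.loc.pi (T.Rb i (T.Rb i (T.loc.sP (T.Rb i y)))))
  rw [Rb_invol, T.loc.pi_sP _ hy.1, Rb_invol]

theorem exists_of_mem_SS (i : Bool) (y : E) (hy : y ∈ T.SS i) : ∃ q ∈ T.C, y = T.b i q := by
  refine ⟨T.Rb i (T.loc.sS (T.Rb i y)), T.Rb_C i _ hy.2, ?_⟩
  show y = T.Rb i (T.loc.be (T.Rb i (T.Rb i (T.loc.sS (T.Rb i y)))))
  rw [Rb_invol, T.loc.be_sS _ hy.1, Rb_invol]

theorem C_close (q : E) (hq : q ∈ T.C) : ‖q - Lab.Q.cen T.ee‖ ≤ T.loc.ϱ := by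
  show ‖q - 0‖ ≤ T.loc.ϱ
  rw [sub_zero]
  exact T.loc.q_close q (T.C_sub hq)

theorem SP_close (i : Bool) (y : E) (hy : y ∈ T.SP i) : ‖y - (Lab.P i).cen T.ee‖ ≤ T.loc.ϱ := by
  obtain ⟨q, hq, rfl⟩ := T.exists_of_mem_SP i y hy
  show ‖T.Rb i (T.loc.pi (T.Rb i q)) - T.Rb i T.e‖ ≤ T.loc.ϱ
  rw [← Rb_sub, Rb_norm]
  exact T.loc.pi_close _ (T.Rb_ball i q hq)

theorem SS_close (i : Bool) (y : E) (hy : y ∈ T.SS i) : ‖y - (Lab.S i).cen T.ee‖ ≤ T.loc.ϱ := by
  obtain ⟨q, hq, rfl⟩ := T.exists_of_mem_SS i y hy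
  show ‖T.Rb i (T.loc.be (T.Rb i q)) - -T.Rb i T.e‖ ≤ T.loc.ϱ
  rw [sub_neg_eq_add, ← Rb_add, Rb_norm]
  exact T.loc.be_close _ (T.Rb_ball i q hq)

theorem disj_QP (i : Bool) : Disjoint T.C (T.SP i) := by
  exact Set.disjoint_left.2 fun x hx hy =>
    cluster_disjoint T.ee T.ee_norm T.ee_orth T.loc.ϱ T.loc.small.2.1 Lab.Q (Lab.P i) (by simp) x x
      (T.C_close x hx) (T.SP_close i x hy) rfl

theorem disj_QS (i : Bool) : Disjoint T.C (T.SS i) := by
  exact Set.disjoint_left.2 fun x hx hy =>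
    cluster_disjoint T.ee T.ee_norm T.ee_orth T.loc.ϱ T.loc.small.2.1 Lab.Q (Lab.S i) (by simp) x x
      (T.C_close x hx) (T.SS_close i x hy) rfl

theorem disj_PS (i j : Bool) : Disjoint (T.SP i) (T.SS j) := by
  exact Set.disjoint_left.2 fun x hx hy =>
    cluster_disjoint T.ee T.ee_norm T.ee_orth T.loc.ϱ T.loc.small.2.1 (Lab.P i) (Lab.S j) (by simp) x x
      (T.SP_close i x hx) (T.SS_close j x hy) rfl

theorem disj_PP : Disjoint (T.SP true) (T.SP false) := by
  exact Set.disjoint_left.2 fun x hx hy =>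
    cluster_disjoint T.ee T.ee_norm T.ee_orth T.loc.ϱ T.loc.small.2.1 (Lab.P true) (Lab.P false)
      (by simp) x x (T.SP_close true x hx) (T.SP_close false x hy) rfl

theorem disj_SS : Disjoint (T.SS true) (T.SS false) := by
  exact Set.disjoint_left.2 fun x hx hy =>
    cluster_disjoint T.ee T.ee_norm T.ee_orth T.loc.ϱ T.loc.small.2.1 (Lab.S true) (Lab.S false)
      (by simp) x x (T.SS_close true x hx) (T.SS_close false x hy) rfl

/-! ### labels -/

theorem k_p (i : Bool) (q : E) (hq : q ∈ T.C) : T.k (T.p i q) = q := by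
  have hm := T.p_mem i q hq
  have hb := T.Rb_ball i q hq
  cases i
  · have h1 : T.p false q ∉ T.SP true := fun h => Set.disjoint_left.1 T.disj_PP h hm
    have h2 : T.p false q ∉ T.SS true := fun h => Set.disjoint_left.1 (T.disj_PS false true) hm h
    unfold k
    rw [if_neg h1, if_neg h2, if_pos hm]
    show T.R (T.loc.sP (T.R (T.R (T.loc.pi (T.R q))))) = q
    have hb' : T.R q ∈ ball (0:E) T.loc.r := hb
    rw [T.R_invol, T.loc.sP_pi _ hb', T.R_invol]
  · unfold k
    rw [if_pos hm]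
    exact T.loc.sP_pi _ hb

theorem k_b (i : Bool) (q : E) (hq : q ∈ T.C) : T.k (T.b i q) = q := by
  have hm := T.b_mem i q hq
  have hb := T.Rb_ball i q hq
  cases i
  · have h1 : T.b false q ∉ T.SP true := fun h => Set.disjoint_left.1 (T.disj_PS true false) h hm
    have h2 : T.b false q ∉ T.SS true := fun h => Set.disjoint_left.1 T.disj_SS h hm
    have h3 : T.b false q ∉ T.SP false := fun h => Set.disjoint_left.1 (T.disj_PS false false) h hm
    unfold k
    rw [if_neg h1, if_neg h2, if_neg h3, if_pos hm]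
    show T.R (T.loc.sS (T.R (T.R (T.loc.be (T.R q))))) = q
    have hb' : T.R q ∈ ball (0:E) T.loc.r := hb
    rw [T.R_invol, T.loc.sS_be _ hb', T.R_invol]
  · have h1 : T.b true q ∉ T.SP true := fun h => Set.disjoint_left.1 (T.disj_PS true true) h hm
    unfold k
    rw [if_neg h1, if_pos hm]
    exact T.loc.sS_be _ hb

/-! ### values of the potential -/

theorem uR_C (q : E) (hq : q ∈ T.C) : T.uR q = uQ T.loc.K q := by
  unfold uR
  rw [if_pos hq]

theorem uR_p (i : Bool) (q : E) (hq : q ∈ T.C) :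
    T.uR (T.p i q) = uP s T.loc.K T.e (T.loc.pi (T.Rb i q)) := by
  have hm := T.p_mem i q hq
  have h0 : T.p i q ∉ T.C := fun h => Set.disjoint_left.1 (T.disj_QP i) h hm
  cases i
  · have h1 : T.p false q ∉ T.SP true := fun h => Set.disjoint_left.1 T.disj_PP h hm
    have h2 : T.p false q ∉ T.SS true := fun h => Set.disjoint_left.1 (T.disj_PS false true) hm h
    unfold uR
    rw [if_neg h0, if_neg h1, if_neg h2, if_pos hm]
    show uP s T.loc.K T.e (T.R (T.R (T.loc.pi (T.R q)))) = _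
    rw [T.R_invol]
    rfl
  · unfold uR
    rw [if_neg h0, if_pos hm]
    rfl

theorem uR_b (i : Bool) (q : E) (hq : q ∈ T.C) :
    T.uR (T.b i q)
      = Fb s T.loc.K T.e (T.loc.pi (T.Rb i q)) (T.Rb i q) (T.loc.be (T.Rb i q)) := by
  have hm := T.b_mem i q hq
  have hb := T.Rb_ball i q hq
  have h0 : T.b i q ∉ T.C := fun h => Set.disjoint_left.1 (T.disj_QS i) h hm
  cases i
  · have h1 : T.b false q ∉ T.SP true := fun h => Set.disjoint_left.1 (T.disj_PS true false) h hm
    have h2 : T.b false q ∉ T.SS true := fun h => Set.disjoint_left.1 T.disj_SS h hm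
    have h3 : T.b false q ∉ T.SP false := fun h => Set.disjoint_left.1 (T.disj_PS false false) h hm
    unfold uR
    rw [if_neg h0, if_neg h1, if_neg h2, if_neg h3, if_pos hm]
    show T.uS (T.R (T.R (T.loc.be (T.R q)))) = _
    have hb' : T.R q ∈ ball (0:E) T.loc.r := hb
    rw [T.R_invol]
    unfold uS
    rw [T.loc.sS_be _ hb']
    rfl
  · have h1 : T.b true q ∉ T.SP true := fun h => Set.disjoint_left.1 (T.disj_PS true true) h hm
    unfold uR
    rw [if_neg h0, if_neg h1, if_pos hm]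
    have hb' : q ∈ ball (0:E) T.loc.r := hb
    show T.uS (T.loc.be q) = _
    unfold uS
    rw [T.loc.sS_be _ hb']
    rfl

theorem uR_C_close (q : E) (hq : q ∈ T.C) : |T.uR q - Lab.Q.val s| ≤ T.loc.om := by
  rw [T.uR_C q hq]
  exact T.loc.uQ_close q (T.C_sub hq)

theorem uR_SP_close (i : Bool) (y : E) (hy : y ∈ T.SP i) :
    |T.uR y - (Lab.P i).val s| ≤ T.loc.om := by
  obtain ⟨q, hq, rfl⟩ := T.exists_of_mem_SP i y hy
  rw [T.uR_p i q hq]
  exact T.loc.uP_close _ (T.Rb_ball i q hq)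

theorem uR_SS_close (i : Bool) (y : E) (hy : y ∈ T.SS i) :
    |T.uR y - (Lab.S i).val s| ≤ T.loc.om := by
  obtain ⟨q, hq, rfl⟩ := T.exists_of_mem_SS i y hy
  rw [T.uR_b i q hq]
  exact T.loc.uS_close _ (T.Rb_ball i q hq)

include T in
theorem c0_le_half : c0 s ≤ 1 / 2 := by
  have hs : 0 < s := T.hs
  have h : (2:ℝ) ^ (-s) ≤ 1 :=
    Real.rpow_le_one_of_one_le_of_nonpos (by norm_num) (by linarith)
  unfold c0
  linarith

theorem uR_cases (y : E) :
    |T.uR y - 2| ≤ T.loc.om ∨ |T.uR y - c0 s| ≤ T.loc.om ∨ T.uR y = 0 := by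
  by_cases h0 : y ∈ T.C
  · exact Or.inl (T.uR_C_close y h0)
  by_cases h1 : y ∈ T.SP true
  · exact Or.inr (Or.inl (T.uR_SP_close true y h1))
  by_cases h2 : y ∈ T.SS true
  · exact Or.inr (Or.inl (T.uR_SS_close true y h2))
  by_cases h3 : y ∈ T.SP false
  · exact Or.inr (Or.inl (T.uR_SP_close false y h3))
  by_cases h4 : y ∈ T.SS false
  · exact Or.inr (Or.inl (T.uR_SS_close false y h4))
  · refine Or.inr (Or.inr ?_)
    unfold uR
    rw [if_neg h0, if_neg h1, if_neg h2, if_neg h3, if_neg h4]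

theorem uR_nonneg (y : E) : 0 ≤ T.uR y := by
  have hom : T.loc.om < c0 s := T.loc.small.2.2.2.1
  have hc := T.c0_le_half
  rcases T.uR_cases y with h | h | h
  · have := (abs_le.1 h).1
    linarith
  · have := (abs_le.1 h).1
    linarith
  · exact h.ge

theorem uR_le (y : E) : T.uR y ≤ 2 + T.loc.om := by
  have hom : 0 < T.loc.om := T.loc.small.2.2.1
  have hc := T.c0_le_half
  rcases T.uR_cases y with h | h | h
  · have := (abs_le.1 h).2
    linarith
  · have := (abs_le.1 h).2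
    linarith
  · rw [h]; linarith

/-! ### the measure `ν` -/

theorem ν_univ : T.ν univ = 1 / 6 := by
  unfold ν
  rw [withDensity_apply _ MeasurableSet.univ, Measure.restrict_univ]
  exact T.mass

theorem ν_fin : IsFiniteMeasure T.ν := by
  refine ⟨?_⟩
  rw [T.ν_univ]
  exact ENNReal.div_lt_top (by simp) (by simp)

theorem ν_ne : T.ν ≠ 0 := by
  intro h
  have := T.ν_univ
  rw [h] at this
  simp only [Measure.coe_zero, Pi.zero_apply] at this
  exact (ENNReal.div_pos (by simp) (by simp)).ne this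

theorem ν_C : T.ν T.Cᶜ = 0 := by
  unfold ν
  rw [withDensity_apply _ T.C_meas.compl]
  refine (setLIntegral_congr_fun T.C_meas.compl (g := fun _ => 0) ?_).trans (by simp)
  intro x hx
  simp [T.f_zero x hx]

end Setup
end Crest.Agent.R130
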