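/-
R130 task S2: duality inequality, equality on the graphs, contact set.

Every point of `supp5 T.C T.SP T.SS` has a label `l : Lab` with `‖x - l.cen T.ee‖ ≤ ϱ` and
`|T.uR x - l.val s| ≤ om`.  For a triple of labels which is not a permutation of `(P i, Q, S i)` use
`cluster_strict` (strict inequality; so no contact).  For a permutation of `(P i, Q, S i)` use
`tripleCost_perm` to reduce to `a = T.p i q₁ ∈ SP i`, `q ∈ C`, `b = T.b i q₀ ∈ SS i`; apply `Rb i`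
(`tripleCost_Rb`, `Rb_invol`) to reduce to `a' = pi q₁'`, `q' = Rb i q`, `b' = be q₀'`; then
`tripleCost = ofReal (cR a' q' b')` (`tripleCost_eq_ofReal`, points distinct by `cluster_disjoint`), and
`cR a' q' b' = Fb a' q' b' + uP a' + uQ q' ≥ Fb (pi q₀') q₀' b' + uP a' + uQ q'` by `T.loc.strict_min`, strict
unless `(a', q') = (pi q₀', q₀')`.
-/
import Crest.Agent.R130.SetupBasic

set_option autoImplicit false
open MeasureTheory Set Metric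
open scoped ENNReal ContDiff RealInnerProductSpace
open Crest.AnalysisR.OT

namespace Crest.Agent.R130
namespace Setup

universe u
variable {s : ℝ} {E : Type u} [NormedAddCommGroup E] [InnerProductSpace ℝ E]
  [FiniteDimensional ℝ E] [MeasurableSpace E] [BorelSpace E] (T : Setup s E)

/-- sum of three potentials as one `ofReal`. -/
theorem u_add3 (x y z : E) :
    T.u x + T.u y + T.u z = ENNReal.ofReal (T.uR x + T.uR y + T.uR z) := by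
  unfold Setup.u
  rw [ENNReal.ofReal_add (add_nonneg (T.uR_nonneg x) (T.uR_nonneg y)) (T.uR_nonneg z),
    ENNReal.ofReal_add (T.uR_nonneg x) (T.uR_nonneg y)]

theorem ne_of_disjoint' {A B : Set E} (h : Disjoint A B) {x y : E} (hx : x ∈ A) (hy : y ∈ B) :
    x ≠ y := by
  intro hxy
  subst hxy
  exact Set.disjoint_left.1 h hx hy

/-- the cost of a sorted triple, in local coordinates -/
theorem cost_sorted (i : Bool) (q₁ q q₀ : E) (hq₁ : q₁ ∈ T.C) (hq : q ∈ T.C) (hq₀ : q₀ ∈ T.C) :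
    tripleCost s (T.p i q₁, q, T.b i q₀)
      = ENNReal.ofReal (cR s (T.loc.pi (T.Rb i q₁)) (T.Rb i q) (T.loc.be (T.Rb i q₀))) := by
  have h1 : T.p i q₁ ≠ q := (ne_of_disjoint' (T.disj_QP i) hq (T.p_mem i q₁ hq₁)).symm
  have h2 : T.p i q₁ ≠ T.b i q₀ :=
    ne_of_disjoint' (T.disj_PS i i) (T.p_mem i q₁ hq₁) (T.b_mem i q₀ hq₀)
  have h3 : q ≠ T.b i q₀ := ne_of_disjoint' (T.disj_QS i) hq (T.b_mem i q₀ hq₀)
  rw [tripleCost_eq_ofReal s _ _ _ h1 h2 h3]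
  congr 1
  have : cR s (T.p i q₁) q (T.b i q₀)
      = cR s (T.Rb i (T.loc.pi (T.Rb i q₁))) (T.Rb i (T.Rb i q)) (T.Rb i (T.loc.be (T.Rb i q₀))) := by
    rw [T.Rb_invol]
    rfl
  rw [this, T.cR_Rb]

/-- the sum of the potentials of a sorted triple, in local coordinates -/
theorem sum_sorted (i : Bool) (q₁ q q₀ : E) (hq₁ : q₁ ∈ T.C) (hq : q ∈ T.C) (hq₀ : q₀ ∈ T.C) :
    T.uR (T.p i q₁) + T.uR q + T.uR (T.b i q₀)
      = uP s T.loc.K T.e (T.loc.pi (T.Rb i q₁)) + uQ T.loc.K (T.Rb i q)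
        + Fb s T.loc.K T.e (T.loc.pi (T.Rb i q₀)) (T.Rb i q₀) (T.loc.be (T.Rb i q₀)) := by
  rw [T.uR_p i q₁ hq₁, T.uR_C q hq, T.uR_b i q₀ hq₀, T.uQ_Rb]

theorem eq_graph (i : Bool) (q : E) (hq : q ∈ T.C) :
    tripleCost s (T.p i q, q, T.b i q) = T.u (T.p i q) + T.u q + T.u (T.b i q) := by
  rw [T.cost_sorted i q q q hq hq hq, T.u_add3, T.sum_sorted i q q q hq hq hq]
  congr 1
  unfold Fb
  ring

/-- sorted version: inequality, and equality only on the graph -/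
theorem ineq_sorted (i : Bool) (a q b : E) (ha : a ∈ T.SP i) (hq : q ∈ T.C) (hb : b ∈ T.SS i) :
    T.u a + T.u q + T.u b ≤ tripleCost s (a, q, b) ∧
    (tripleCost s (a, q, b) = T.u a + T.u q + T.u b → a = T.p i q ∧ b = T.b i q) := by
  obtain ⟨q₁, hq₁, rfl⟩ := T.exists_of_mem_SP i a ha
  obtain ⟨q₀, hq₀, rfl⟩ := T.exists_of_mem_SS i b hb
  rw [T.cost_sorted i q₁ q q₀ hq₁ hq hq₀, T.u_add3]
  have hsum := T.sum_sorted i q₁ q q₀ hq₁ hq hq₀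
  have hnn : 0 ≤ T.uR (T.p i q₁) + T.uR q + T.uR (T.b i q₀) :=
    add_nonneg (add_nonneg (T.uR_nonneg _) (T.uR_nonneg _)) (T.uR_nonneg _)
  have m₁ : T.Rb i q₁ ∈ ball (0 : E) T.loc.r := T.C_sub (T.Rb_C i q₁ hq₁)
  have m : T.Rb i q ∈ ball (0 : E) T.loc.r := T.C_sub (T.Rb_C i q hq)
  have m₀ : T.Rb i q₀ ∈ ball (0 : E) T.loc.r := T.C_sub (T.Rb_C i q₀ hq₀)
  have hcR : cR s (T.loc.pi (T.Rb i q₁)) (T.Rb i q) (T.loc.be (T.Rb i q₀))
      = Fb s T.loc.K T.e (T.loc.pi (T.Rb i q₁)) (T.Rb i q) (T.loc.be (T.Rb i q₀))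
        + uP s T.loc.K T.e (T.loc.pi (T.Rb i q₁)) + uQ T.loc.K (T.Rb i q) := by
    unfold Fb
    ring
  have hstrict := T.loc.strict_min (T.Rb i q₀) m₀ (T.loc.pi (T.Rb i q₁)) (T.Rb i q)
    (T.loc.pi_close _ m₁) (T.loc.q_close _ m)
  by_cases heq : (T.loc.pi (T.Rb i q₁), T.Rb i q) = (T.loc.pi (T.Rb i q₀), T.Rb i q₀)
  · have e1 : T.loc.pi (T.Rb i q₁) = T.loc.pi (T.Rb i q₀) := (Prod.mk.inj heq).1
    have e2 : T.Rb i q = T.Rb i q₀ := (Prod.mk.inj heq).2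
    have e3 : q = q₀ := by
      have := congrArg (T.Rb i) e2
      rwa [T.Rb_invol, T.Rb_invol] at this
    refine ⟨?_, fun _ => ⟨?_, ?_⟩⟩
    · apply ENNReal.ofReal_le_ofReal
      rw [hsum, hcR, e1, e2]
      linarith
    · show T.Rb i (T.loc.pi (T.Rb i q₁)) = T.Rb i (T.loc.pi (T.Rb i q))
      rw [e1, e2]
    · rw [e3]
  · have hlt := hstrict heq
    have hlt2 : T.uR (T.p i q₁) + T.uR q + T.uR (T.b i q₀)
        < cR s (T.loc.pi (T.Rb i q₁)) (T.Rb i q) (T.loc.be (T.Rb i q₀)) := by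
      rw [hsum, hcR]
      linarith
    refine ⟨ENNReal.ofReal_le_ofReal hlt2.le, fun h => ?_⟩
    exfalso
    rw [ENNReal.ofReal_eq_ofReal_iff (hnn.trans hlt2.le) hnn] at h
    linarith

/-- membership in the cluster with label `l` -/
def InCl (l : Lab) (x : E) : Prop :=
  match l with
  | .Q => x ∈ T.C
  | .P i => x ∈ T.SP i
  | .S i => x ∈ T.SS i

theorem exists_label (x : E) (hx : x ∈ supp5 T.C T.SP T.SS) : ∃ l, T.InCl l x := by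
  rcases hx with (h | h | h) | h | h
  · exact ⟨.Q, h⟩
  · exact ⟨.P true, h⟩
  · exact ⟨.P false, h⟩
  · exact ⟨.S true, h⟩
  · exact ⟨.S false, h⟩

theorem InCl.close {l : Lab} {x : E} (h : T.InCl l x) : ‖x - l.cen T.ee‖ ≤ T.loc.ϱ := by
  cases l with
  | Q => exact T.C_close x h
  | P i => exact T.SP_close i x h
  | S i => exact T.SS_close i x h

theorem InCl.uR_le {l : Lab} {x : E} (h : T.InCl l x) : T.uR x ≤ l.val s + T.loc.om := by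
  have : |T.uR x - l.val s| ≤ T.loc.om := by
    cases l with
    | Q => exact T.uR_C_close x h
    | P i => exact T.uR_SP_close i x h
    | S i => exact T.uR_SS_close i x h
  linarith [(abs_le.1 this).2]

/-- a triple of points whose labels are a permutation of `(P i, Q, S i)` can be sorted -/
theorem exists_sorted (i : Bool) (l₁ l₂ l₃ : Lab) (x y z : E) (hx : T.InCl l₁ x) (hy : T.InCl l₂ y)
    (hz : T.InCl l₃ z) (h : Perm3 l₁ l₂ l₃ (Lab.P i) Lab.Q (Lab.S i)) :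
    ∃ a q b, a ∈ T.SP i ∧ q ∈ T.C ∧ b ∈ T.SS i ∧ Perm3 x y z a q b := by
  rcases h with ⟨rfl, rfl, rfl⟩ | ⟨rfl, rfl, rfl⟩ | ⟨rfl, rfl, rfl⟩ | ⟨rfl, rfl, rfl⟩ |
    ⟨rfl, rfl, rfl⟩ | ⟨rfl, rfl, rfl⟩
  · exact ⟨x, y, z, hx, hy, hz, Or.inl ⟨rfl, rfl, rfl⟩⟩
  · exact ⟨x, z, y, hx, hz, hy, Or.inr (Or.inl ⟨rfl, rfl, rfl⟩)⟩
  · exact ⟨y, x, z, hy, hx, hz, Or.inr (Or.inr (Or.inl ⟨rfl, rfl, rfl⟩))⟩
  · exact ⟨z, x, y, hz, hx, hy, Or.inr (Or.inr (Or.inr (Or.inl ⟨rfl, rfl, rfl⟩)))⟩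
  · exact ⟨y, z, x, hy, hz, hx, Or.inr (Or.inr (Or.inr (Or.inr (Or.inl ⟨rfl, rfl, rfl⟩))))⟩
  · exact ⟨z, y, x, hz, hy, hx, Or.inr (Or.inr (Or.inr (Or.inr (Or.inr ⟨rfl, rfl, rfl⟩))))⟩

theorem u_perm (x y z a q b : E) (h : Perm3 x y z a q b) :
    T.u x + T.u y + T.u z = T.u a + T.u q + T.u b := by
  rcases h with ⟨rfl, rfl, rfl⟩ | ⟨rfl, rfl, rfl⟩ | ⟨rfl, rfl, rfl⟩ | ⟨rfl, rfl, rfl⟩ |
    ⟨rfl, rfl, rfl⟩ | ⟨rfl, rfl, rfl⟩ <;> ring

theorem strict_of_bad (l₁ l₂ l₃ : Lab) (x y z : E) (hx : T.InCl l₁ x) (hy : T.InCl l₂ y)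
    (hz : T.InCl l₃ z) (hbad : ¬ ∃ i, Perm3 l₁ l₂ l₃ (Lab.P i) Lab.Q (Lab.S i)) :
    T.u x + T.u y + T.u z < tripleCost s (x, y, z) :=
  cluster_strict s T.hs T.ee T.ee_norm T.ee_orth T.loc.ϱ T.loc.om T.loc.small l₁ l₂ l₃ x y z
    (InCl.close T hx) (InCl.close T hy) (InCl.close T hz) (T.uR x) (T.uR y) (T.uR z)
    (InCl.uR_le T hx) (InCl.uR_le T hy) (InCl.uR_le T hz) hbad

theorem ineq (x : E) (hx : x ∈ supp5 T.C T.SP T.SS) (y : E) (hy : y ∈ supp5 T.C T.SP T.SS)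
    (z : E) (hz : z ∈ supp5 T.C T.SP T.SS) :
    T.u x + T.u y + T.u z ≤ tripleCost s (x, y, z) := by
  obtain ⟨l₁, h₁⟩ := T.exists_label x hx
  obtain ⟨l₂, h₂⟩ := T.exists_label y hy
  obtain ⟨l₃, h₃⟩ := T.exists_label z hz
  by_cases hbad : ∃ i, Perm3 l₁ l₂ l₃ (Lab.P i) Lab.Q (Lab.S i)
  · obtain ⟨i, hi⟩ := hbad
    obtain ⟨a, q, b, ha, hq, hb, hperm⟩ := T.exists_sorted i l₁ l₂ l₃ x y z h₁ h₂ h₃ hi
    rw [T.u_perm x y z a q b hperm, tripleCost_perm s x y z a q b hperm]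
    exact (T.ineq_sorted i a q b ha hq hb).1
  · exact (T.strict_of_bad l₁ l₂ l₃ x y z h₁ h₂ h₃ hbad).le

theorem contact (x : E) (hx : x ∈ supp5 T.C T.SP T.SS) (y : E) (hy : y ∈ supp5 T.C T.SP T.SS)
    (z : E) (hz : z ∈ supp5 T.C T.SP T.SS)
    (h : tripleCost s (x, y, z) = T.u x + T.u y + T.u z) :
    ∃ i, ∃ q ∈ T.C, Perm3 x y z (T.p i q) q (T.b i q) := by
  obtain ⟨l₁, h₁⟩ := T.exists_label x hx
  obtain ⟨l₂, h₂⟩ := T.exists_label y hy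
  obtain ⟨l₃, h₃⟩ := T.exists_label z hz
  by_cases hbad : ∃ i, Perm3 l₁ l₂ l₃ (Lab.P i) Lab.Q (Lab.S i)
  · obtain ⟨i, hi⟩ := hbad
    obtain ⟨a, q, b, ha, hq, hb, hperm⟩ := T.exists_sorted i l₁ l₂ l₃ x y z h₁ h₂ h₃ hi
    rw [T.u_perm x y z a q b hperm, tripleCost_perm s x y z a q b hperm] at h
    obtain ⟨e1, e2⟩ := (T.ineq_sorted i a q b ha hq hb).2 h
    exact ⟨i, q, hq, by rw [← e1, ← e2]; exact hperm⟩
  · exact absurd h (T.strict_of_bad l₁ l₂ l₃ x y z h₁ h₂ h₃ hbad).ne'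

end Setup
end Crest.Agent.R130
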