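/-
R130: a `Setup` gives a `Design` for `tripleCost s` (glue).
-/
import Crest.Agent.R130.SetupBasic
import Crest.Agent.R130.SetupIneq

set_option autoImplicit false
open MeasureTheory Set Metric
open scoped ENNReal ContDiff RealInnerProductSpace
open Crest.AnalysisR.OT

namespace Crest.Agent.R130
namespace Setup

universe u
variable {s : ℝ} {E : Type u} [NormedAddCommGroup E] [InnerProductSpace ℝ E]
  [FiniteDimensional ℝ E] [MeasurableSpace E] [BorelSpace E]

noncomputable def toDesign (T : Setup s E) : Design (tripleCost s : E × E × E → ℝ≥0∞) where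
  ν := T.ν
  p := T.p
  b := T.b
  k := T.k
  u := T.u
  SQ := T.C
  SP := T.SP
  SS := T.SS
  ν_fin := T.ν_fin
  ν_ne := T.ν_ne
  c_meas := measurable_tripleCost s
  c_rot := tripleCost_rot s
  p_meas := T.p_meas
  b_meas := T.b_meas
  k_meas := T.k_meas
  u_meas := T.u_meas
  SQ_meas := T.C_meas
  SP_meas := T.SP_meas
  SS_meas := T.SS_meas
  ν_SQ := T.ν_C
  p_mem := T.p_mem
  b_mem := T.b_mem
  k_p := T.k_p
  k_b := T.k_b
  disj_QP := T.disj_QP
  disj_QS := T.disj_QS
  disj_PS := T.disj_PS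
  disj_PP := T.disj_PP
  disj_SS := T.disj_SS
  u_bdd := ⟨ENNReal.ofReal (2 + T.loc.om), ENNReal.ofReal_ne_top,
    fun x => ENNReal.ofReal_le_ofReal (T.uR_le x)⟩
  ineq := T.ineq
  eq := T.eq_graph
  contact := T.contact

end Setup
end Crest.Agent.R130
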