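/-
R130 task S4: the design of a set-up has fine splittings.

Given `ε > 0` pick a real `η > 0` with `ofReal (T.loc.L * η) ≤ ε` (if `ε = ⊤` anything works), take
`Ξ Θ A` from `T.split η`.  Cost estimate for `q ∈ C`, `q' = Ξ i q ∈ C`: apply `Rb i`
(`tripleCost_Rb`, `Rb_invol`), then `tripleCost = ofReal cR` (`tripleCost_eq_ofReal`, points in different
clusters are distinct: `cluster_disjoint` / `T.disj_*`), and `T.loc.lip` with `q₀ = Rb i q`, `q = Rb i q'`,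
`‖Rb i q' - Rb i q‖ = ‖q' - q‖ ≤ η`.
-/
import Crest.Agent.R130.ToDesign

set_option autoImplicit false
open MeasureTheory Set Metric
open scoped ENNReal ContDiff RealInnerProductSpace
open Crest.AnalysisR.OT

namespace Crest.Agent.R130
namespace Setup

universe u
variable {s : ℝ} {E : Type u} [NormedAddCommGroup E] [InnerProductSpace ℝ E]
  [FiniteDimensional ℝ E] [MeasurableSpace E] [BorelSpace E] (T : Setup s E)

theorem cost_est (i : Bool) (q q' : E) (hq : q ∈ T.C) (hq' : q' ∈ T.C) (η : ℝ)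
    (hη : ‖q' - q‖ ≤ η) :
    tripleCost s (T.p i q, q', T.b i q)
      ≤ tripleCost s (T.p i q, q, T.b i q) + ENNReal.ofReal (T.loc.L * η) := by
  set q₀ := T.Rb i q with hq₀
  set q₁ := T.Rb i q' with hq₁
  have h0C : q₀ ∈ T.C := T.Rb_C i q hq
  have h1C : q₁ ∈ T.C := T.Rb_C i q' hq'
  have h0b : q₀ ∈ ball (0 : E) T.loc.r := T.C_sub h0C
  have h1b : q₁ ∈ ball (0 : E) T.loc.r := T.C_sub h1C
  have e1 : tripleCost s (T.p i q, q', T.b i q)
      = tripleCost s (T.loc.pi q₀, q₁, T.loc.be q₀) := by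
    rw [← T.tripleCost_Rb i (T.loc.pi q₀) q₁ (T.loc.be q₀), hq₁, T.Rb_invol]
    rfl
  have e2 : tripleCost s (T.p i q, q, T.b i q)
      = tripleCost s (T.loc.pi q₀, q₀, T.loc.be q₀) := by
    rw [← T.tripleCost_Rb i (T.loc.pi q₀) q₀ (T.loc.be q₀), hq₀, T.Rb_invol]
    rfl
  have hP : T.loc.pi q₀ ∈ T.SP true := T.p_mem true q₀ h0C
  have hS : T.loc.be q₀ ∈ T.SS true := T.b_mem true q₀ h0C
  have nPS : T.loc.pi q₀ ≠ T.loc.be q₀ := fun h =>
    Set.disjoint_left.1 (T.disj_PS true true) hP (h ▸ hS)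
  have nPQ : ∀ x ∈ T.C, T.loc.pi q₀ ≠ x := fun x hx h =>
    Set.disjoint_left.1 (T.disj_QP true) hx (h ▸ hP)
  have nQS : ∀ x ∈ T.C, x ≠ T.loc.be q₀ := fun x hx h =>
    Set.disjoint_left.1 (T.disj_QS true) hx (h ▸ hS)
  rw [e1, e2, tripleCost_eq_ofReal s _ _ _ (nPQ _ h1C) nPS (nQS _ h1C),
    tripleCost_eq_ofReal s _ _ _ (nPQ _ h0C) nPS (nQS _ h0C)]
  have hl := T.loc.lip q₀ h0b q₁ (T.loc.q_close q₁ h1b)
  have hn : ‖q₁ - q₀‖ ≤ η := by
    rw [hq₁, hq₀, ← T.Rb_sub, T.Rb_norm]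
    exact hη
  refine le_trans (ENNReal.ofReal_le_ofReal (le_trans hl ?_)) ENNReal.ofReal_add_le
  gcongr
  exact T.loc.L_nonneg

theorem approx : T.toDesign.Approx := by
  intro ε hε
  obtain ⟨δ, hδ0, hδ⟩ : ∃ δ : ℝ, 0 < δ ∧ ENNReal.ofReal δ ≤ ε := by
    rcases eq_or_ne ε ⊤ with rfl | ht
    · exact ⟨1, one_pos, le_top⟩
    · exact ⟨ε.toReal, ENNReal.toReal_pos hε.ne' ht, (ENNReal.ofReal_toReal ht).le⟩
  have hL : 0 < T.loc.L + 1 := by linarith [T.loc.L_nonneg]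
  obtain ⟨Ξ, Θ, A, h1, h2, h3, h4, h5, h6⟩ := T.split (δ / (T.loc.L + 1)) (div_pos hδ0 hL)
  refine ⟨Ξ, Θ, A, h1, h2, h3, h4, ?_, h6⟩
  intro i q hq
  obtain ⟨a1, a2, a3, a4⟩ := h5 i q hq
  refine ⟨a1, a2, a3, ?_⟩
  refine le_trans (T.cost_est i q (Ξ i q) hq a2 _ a4) (add_le_add le_rfl ?_)
  refine le_trans (ENNReal.ofReal_le_ofReal ?_) hδ
  rw [mul_div_assoc', div_le_iff₀ hL]
  nlinarith [T.loc.L_nonneg]

end Setup
end Crest.Agent.R130
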