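/-
R130 task S3: the marginal of the design has density `g²` with `g` smooth, nonnegative, compactly
supported.

Plan.  `pushforward_density volume T.loc.pi T.loc.sP (ball 0 r) T.loc.VP ...` gives `gP` with
`T.ν.map pi = volume.withDensity (ofReal (gP ^ 2))` and `gP y ≠ 0 → y ∈ VP ∧ f (sP y) ≠ 0` (so `y ∈ SP true`,
by `T.f_zero`).  Likewise `gS`.  For type `false`: `T.p false = R ∘ pi ∘ R`, `T.ν.map R = T.ν`
(`T.f_R`, `T.R.measurePreserving`), and `(volume.withDensity F).map R = volume.withDensity (F ∘ R)`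
(`R` is a measure preserving involution).  Put
`g = √2 • f + gP + gS + gP ∘ R + gS ∘ R`; the five summands have pairwise disjoint supports
(`C`, `SP true`, `SS true`, `SP false`, `SS false`: `T.disj_*`), so
`g ^ 2 = f^2 + f^2 + gP^2 + gS^2 + (gP ∘ R)^2 + (gS ∘ R)^2` pointwise; conclude with `withDensity_add_left`
and `ENNReal.ofReal_add`.
-/
import Crest.Agent.R130.ToDesign
import Crest.Agent.R130.PF

set_option autoImplicit false
open MeasureTheory Set Metric
open scoped ENNReal ContDiff RealInnerProductSpace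
open Crest.AnalysisR.OT

namespace Crest.Agent.R130
namespace Setup

universe u
variable {s : ℝ} {E : Type u} [NormedAddCommGroup E] [InnerProductSpace ℝ E]
  [FiniteDimensional ℝ E] [MeasurableSpace E] [BorelSpace E] (T : Setup s E)

theorem withDensity_map_R (F : E → ℝ≥0∞) (hF : Measurable F) :
    (volume.withDensity F).map T.R = volume.withDensity (fun x => F (T.R x)) := by
  have hmp : MeasurePreserving T.R (volume : Measure E) volume := T.R.measurePreserving
  have hRm : Measurable T.R := hmp.measurable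
  ext A hA
  rw [Measure.map_apply hRm hA, withDensity_apply _ (hRm hA), withDensity_apply _ hA]
  have h := hmp.setLIntegral_comp_preimage (hRm hA) hF
  have hpre : T.R ⁻¹' (T.R ⁻¹' A) = A := by
    ext x; simp [T.R_invol]
  rw [hpre] at h
  exact h.symm

theorem ν_map_R : T.ν.map T.R = T.ν := by
  unfold ν
  rw [withDensity_map_R T _ ((T.f_smooth.continuous.measurable.pow_const 2).ennreal_ofReal)]
  simp only [T.f_R]


theorem map_conj_R (φ : E → E) (hφ : Measurable φ) (G : E → ℝ≥0∞) (hG : Measurable G)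
    (h : T.ν.map φ = volume.withDensity G) :
    T.ν.map (fun q => T.R (φ (T.R q))) = volume.withDensity (fun x => G (T.R x)) := by
  have hRm : Measurable T.R := T.R.measurePreserving.measurable
  have e1 : T.ν.map (fun q => T.R (φ (T.R q))) = ((T.ν.map T.R).map φ).map T.R := by
    rw [Measure.map_map hφ hRm, Measure.map_map hRm (hφ.comp hRm)]
    rfl
  rw [e1, ν_map_R, h, withDensity_map_R T G hG]

theorem sq_five (a1 a2 a3 a4 a5 : ℝ) (h12 : a1 * a2 = 0) (h13 : a1 * a3 = 0) (h14 : a1 * a4 = 0)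
    (h15 : a1 * a5 = 0) (h23 : a2 * a3 = 0) (h24 : a2 * a4 = 0) (h25 : a2 * a5 = 0) (h34 : a3 * a4 = 0)
    (h35 : a3 * a5 = 0) (h45 : a4 * a5 = 0) :
    (Real.sqrt 2 * a1 + a2 + a3 + a4 + a5) ^ 2 = (a2 ^ 2 + a1 ^ 2 + a3 ^ 2) + (a4 ^ 2 + a1 ^ 2 + a5 ^ 2) := by
  have hs : Real.sqrt 2 ^ 2 = 2 := Real.sq_sqrt (by norm_num)
  linear_combination a1 ^ 2 * hs + 2 * Real.sqrt 2 * (h12 + h13 + h14 + h15)
    + 2 * (h23 + h24 + h25 + h34 + h35 + h45)

omit [NormedAddCommGroup E] [InnerProductSpace ℝ E] [FiniteDimensional ℝ E] [MeasurableSpace E]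
  [BorelSpace E] in
theorem mul_zero_of_disj {A B : Set E} (hAB : Disjoint A B) (a b : E → ℝ) (ha : ∀ x, a x ≠ 0 → x ∈ A)
    (hb : ∀ x, b x ≠ 0 → x ∈ B) (x : E) : a x * b x = 0 := by
  by_contra hne
  have h1 : a x ≠ 0 := fun h => hne (by rw [h, zero_mul])
  have h2 : b x ≠ 0 := fun h => hne (by rw [h, mul_zero])
  exact Set.disjoint_left.1 hAB (ha x h1) (hb x h2)

theorem exists_g : ∃ g : E → ℝ, ContDiff ℝ ∞ g ∧ (∀ x, 0 ≤ g x) ∧ HasCompactSupport g ∧
    T.toDesign.μ = measOfDensity (fun x => g x ^ 2) := by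
  obtain ⟨gP, gP_s, gP_0, gP_c, gP_supp, gP_eq⟩ := pushforward_density (volume : Measure E) T.loc.pi T.loc.sP
    (ball 0 T.loc.r) T.loc.VP isOpen_ball T.loc.VP_open T.loc.pi_smooth T.loc.sP_smooth T.loc.pi_maps
    T.loc.sP_maps T.loc.sP_pi T.loc.pi_sP T.loc.pi_meas T.f T.f_smooth T.f_nonneg T.f_compact T.f_tsupport
  obtain ⟨gS, gS_s, gS_0, gS_c, gS_supp, gS_eq⟩ := pushforward_density (volume : Measure E) T.loc.be T.loc.sS
    (ball 0 T.loc.r) T.loc.VS isOpen_ball T.loc.VS_open T.loc.be_smooth T.loc.sS_smooth T.loc.be_maps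
    T.loc.sS_maps T.loc.sS_be T.loc.be_sS T.loc.be_meas T.f T.f_smooth T.f_nonneg T.f_compact T.f_tsupport
  have hRs : ContDiff ℝ ∞ (T.R : E → E) := T.R.contDiff
  have mP : Measurable (fun y => ENNReal.ofReal (gP y ^ 2)) :=
    (gP_s.continuous.measurable.pow_const 2).ennreal_ofReal
  have mS : Measurable (fun y => ENNReal.ofReal (gS y ^ 2)) :=
    (gS_s.continuous.measurable.pow_const 2).ennreal_ofReal
  have mF : Measurable (fun y => ENNReal.ofReal (T.f y ^ 2)) :=
    (T.f_smooth.continuous.measurable.pow_const 2).ennreal_ofReal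
  have hRm : Measurable T.R := T.R.measurePreserving.measurable
  have mPR : Measurable (fun y => ENNReal.ofReal (gP (T.R y) ^ 2)) := mP.comp hRm
  have mSR : Measurable (fun y => ENNReal.ofReal (gS (T.R y) ^ 2)) := mS.comp hRm
  -- supports
  have sF : ∀ x, T.f x ≠ 0 → x ∈ T.C := fun x hx => by
    by_contra hC; exact hx (T.f_zero x hC)
  have sP : ∀ x, gP x ≠ 0 → x ∈ T.SP true := fun x hx =>
    ⟨(gP_supp x hx).1, sF _ (gP_supp x hx).2⟩
  have sS : ∀ x, gS x ≠ 0 → x ∈ T.SS true := fun x hx =>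
    ⟨(gS_supp x hx).1, sF _ (gS_supp x hx).2⟩
  have sPR : ∀ x, gP (T.R x) ≠ 0 → x ∈ T.SP false := fun x hx =>
    ⟨(gP_supp _ hx).1, sF _ (gP_supp _ hx).2⟩
  have sSR : ∀ x, gS (T.R x) ≠ 0 → x ∈ T.SS false := fun x hx =>
    ⟨(gS_supp _ hx).1, sF _ (gS_supp _ hx).2⟩
  refine ⟨fun x => Real.sqrt 2 * T.f x + gP x + gS x + gP (T.R x) + gS (T.R x), ?_, ?_, ?_, ?_⟩
  · exact ((((contDiff_const.mul T.f_smooth).add gP_s).add gS_s).add (gP_s.comp hRs)).add (gS_s.comp hRs)
  · intro x
    have := T.f_nonneg x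
    have := gP_0 x
    have := gS_0 x
    have := gP_0 (T.R x)
    have := gS_0 (T.R x)
    positivity
  · have c1 : HasCompactSupport (fun x => Real.sqrt 2 * T.f x) := T.f_compact.mul_left
    have c4 : HasCompactSupport (fun x => gP (T.R x)) := gP_c.comp_homeomorph T.R.toHomeomorph
    have c5 : HasCompactSupport (fun x => gS (T.R x)) := gS_c.comp_homeomorph T.R.toHomeomorph
    exact (((c1.add gP_c).add gS_c).add c4).add c5
  · have hsq : ∀ x, ENNReal.ofReal ((Real.sqrt 2 * T.f x + gP x + gS x + gP (T.R x) + gS (T.R x)) ^ 2)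
        = (ENNReal.ofReal (gP x ^ 2) + ENNReal.ofReal (T.f x ^ 2) + ENNReal.ofReal (gS x ^ 2))
          + (ENNReal.ofReal (gP (T.R x) ^ 2) + ENNReal.ofReal (T.f x ^ 2) + ENNReal.ofReal (gS (T.R x) ^ 2)) := by
      intro x
      rw [sq_five (T.f x) (gP x) (gS x) (gP (T.R x)) (gS (T.R x))
        (mul_zero_of_disj (T.disj_QP true) _ _ sF sP x)
        (mul_zero_of_disj (T.disj_QS true) _ _ sF sS x)
        (mul_zero_of_disj (T.disj_QP false) T.f (fun x => gP (T.R x)) sF sPR x)
        (mul_zero_of_disj (T.disj_QS false) T.f (fun x => gS (T.R x)) sF sSR x)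
        (mul_zero_of_disj (T.disj_PS true true) _ _ sP sS x)
        (mul_zero_of_disj T.disj_PP gP (fun x => gP (T.R x)) sP sPR x)
        (mul_zero_of_disj (T.disj_PS true false) gP (fun x => gS (T.R x)) sP sSR x)
        (mul_zero_of_disj (T.disj_PS false true).symm gS (fun x => gP (T.R x)) sS sPR x)
        (mul_zero_of_disj T.disj_SS gS (fun x => gS (T.R x)) sS sSR x)
        (mul_zero_of_disj (T.disj_PS false false) (fun x => gP (T.R x)) (fun x => gS (T.R x)) sPR sSR x)]
      rw [ENNReal.ofReal_add (by positivity) (by positivity), ENNReal.ofReal_add (by positivity) (by positivity),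
        ENNReal.ofReal_add (by positivity) (by positivity), ENNReal.ofReal_add (by positivity) (by positivity),
        ENNReal.ofReal_add (by positivity) (by positivity)]
    have eP : T.ν.map (T.p true) = volume.withDensity fun y => ENNReal.ofReal (gP y ^ 2) := gP_eq
    have eS : T.ν.map (T.b true) = volume.withDensity fun y => ENNReal.ofReal (gS y ^ 2) := gS_eq
    have hpf : T.p false = fun q => T.R (T.loc.pi (T.R q)) := rfl
    have hbf : T.b false = fun q => T.R (T.loc.be (T.R q)) := rfl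
    have ePR : T.ν.map (T.p false) = volume.withDensity fun y => ENNReal.ofReal (gP (T.R y) ^ 2) := by
      rw [hpf]
      exact map_conj_R T T.loc.pi T.loc.pi_meas (fun y => ENNReal.ofReal (gP y ^ 2)) mP gP_eq
    have eSR : T.ν.map (T.b false) = volume.withDensity fun y => ENNReal.ofReal (gS (T.R y) ^ 2) := by
      rw [hbf]
      exact map_conj_R T T.loc.be T.loc.be_meas (fun y => ENNReal.ofReal (gS y ^ 2)) mS gS_eq
    have hμ : T.toDesign.μ = (T.ν.map (T.p true) + T.ν + T.ν.map (T.b true))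
        + (T.ν.map (T.p false) + T.ν + T.ν.map (T.b false)) := rfl
    rw [hμ, eP, eS, ePR, eSR]
    unfold measOfDensity ν
    simp only [hsq]
    have w := fun (f g : E → ℝ≥0∞) (hf : Measurable f) => withDensity_add_left (μ := (volume : Measure E)) hf g
    have a1 := w _ (((fun y => ENNReal.ofReal (gP (T.R y) ^ 2)) + fun y => ENNReal.ofReal (T.f y ^ 2)) + fun x =>
          ENNReal.ofReal (gS (T.R x) ^ 2))
      ((mP.add mF).add mS)
    have a2 := w _ (fun x => ENNReal.ofReal (gS x ^ 2)) (mP.add mF)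
    have a3 := w _ (fun x => ENNReal.ofReal (T.f x ^ 2)) mP
    have a4 := w _ (fun x => ENNReal.ofReal (gS (T.R x) ^ 2)) (mPR.add mF)
    have a5 := w _ (fun x => ENNReal.ofReal (T.f x ^ 2)) mPR
    rw [← a3, ← a2, ← a5, ← a4, ← a1]
    rfl

end Setup
end Crest.Agent.R130
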