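/-
R130 task K2: fine splitting of the product measure `bumpF² dx` on `EE n`, acting on the coordinate `0` only.

Plan: `oneD_split` with `w = φ²` gives `ξ θ A₁`.  Put `Ξ i x = update x 0 (ξ i (x 0))` (as an element of
`EuclideanSpace`), `Θ i x = update x 0 (θ i (x 0))`, `A i = {x | x 0 ∈ A₁ i}`; `‖Ξ i x - x‖ = |ξ i (x 0) - x 0|`.
Measure identity: transport to `ℝ × (Fin (n+1) → ℝ)` by the volume preserving measurable equivalences
`EuclideanSpace.volume_preserving_measurableEquiv` (or `PiLp.volume_preserving_ofLp`) and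
`MeasureTheory.volume_preserving_piFinSuccAbove (fun _ => ℝ) 0`; there the density is
`(φ (t))² * (c₀² ∏ φ (y j)²)` (`Fin.prod_univ_succ`), so the measure is a product measure `m.prod ν'`
(`MeasureTheory.prod_withDensity`) and the map is `Prod.map (ξ i) id` (`Measure.map_prod_map`).
-/
import Crest.Agent.R130.Coord
import Crest.Agent.R130.OneD

set_option autoImplicit false
open MeasureTheory Set Metric
open scoped ENNReal ContDiff RealInnerProductSpace

namespace Crest.Agent.R130

theorem withDensity_map_equiv {α β : Type*} [MeasurableSpace α] [MeasurableSpace β]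
    {μ : Measure α} {ν : Measure β} (e : α ≃ᵐ β) (he : MeasurePreserving e μ ν)
    (D : β → ℝ≥0∞) (hD : Measurable D) :
    (μ.withDensity (fun a => D (e a))).map e = ν.withDensity D := by
  ext s hs
  rw [Measure.map_apply e.measurable hs, withDensity_apply _ (e.measurable hs),
    withDensity_apply _ hs, he.setLIntegral_comp_preimage hs hD]

/-- the coordinate splitting `EE n ≃ᵐ ℝ × (Fin (n+1) → ℝ)`. -/
noncomputable def eSplit (n : ℕ) : EE n ≃ᵐ ℝ × (Fin (n + 1) → ℝ) :=
  (MeasurableEquiv.toLp 2 (Fin (n + 2) → ℝ)).symm.trans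
    (MeasurableEquiv.piFinSuccAbove (fun _ : Fin (n + 2) => ℝ) 0)

theorem eSplit_mp (n : ℕ) : MeasurePreserving (eSplit n) volume volume :=
  (EuclideanSpace.volume_preserving_symm_measurableEquiv_toLp (Fin (n + 2))).trans
    (volume_preserving_piFinSuccAbove (fun _ : Fin (n + 2) => ℝ) 0)

theorem eSplit_apply (n : ℕ) (x : EE n) : eSplit n x = (x 0, fun j => x j.succ) := by
  simp [eSplit, MeasurableEquiv.piFinSuccAbove, Fin.insertNthEquiv]
  rfl

theorem eSplit_symm_zero (n : ℕ) (p : ℝ × (Fin (n + 1) → ℝ)) : ((eSplit n).symm p) 0 = p.1 := by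
  have := eSplit_apply n ((eSplit n).symm p)
  rw [MeasurableEquiv.apply_symm_apply] at this
  exact (congrArg Prod.fst this).symm

theorem eSplit_symm_succ (n : ℕ) (p : ℝ × (Fin (n + 1) → ℝ)) (j : Fin (n + 1)) :
    ((eSplit n).symm p) j.succ = p.2 j := by
  have := eSplit_apply n ((eSplit n).symm p)
  rw [MeasurableEquiv.apply_symm_apply] at this
  exact (congrFun (congrArg Prod.snd this) j).symm

/-- act on the coordinate `0` only. -/
noncomputable def lift0 (n : ℕ) (f : ℝ → ℝ) (x : EE n) : EE n :=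
  (eSplit n).symm (Prod.map f id (eSplit n x))

theorem lift0_zero (n : ℕ) (f : ℝ → ℝ) (x : EE n) : lift0 n f x 0 = f (x 0) := by
  rw [lift0, eSplit_symm_zero, eSplit_apply]; rfl

theorem lift0_succ (n : ℕ) (f : ℝ → ℝ) (x : EE n) (j : Fin (n + 1)) :
    lift0 n f x j.succ = x j.succ := by
  rw [lift0, eSplit_symm_succ, eSplit_apply]; rfl

theorem measurable_lift0 (n : ℕ) (f : ℝ → ℝ) (hf : Measurable f) : Measurable (lift0 n f) :=
  (eSplit n).symm.measurable.comp ((hf.prodMap measurable_id).comp (eSplit n).measurable)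

theorem lift0_sub (n : ℕ) (f : ℝ → ℝ) (x : EE n) :
    lift0 n f x - x = EuclideanSpace.single (0 : Fin (n + 2)) (f (x 0) - x 0) := by
  ext i
  refine Fin.cases ?_ (fun j => ?_) i
  · simp [lift0_zero]
  · simp [lift0_succ]

theorem norm_lift0_sub (n : ℕ) (f : ℝ → ℝ) (x : EE n) : ‖lift0 n f x - x‖ = |f (x 0) - x 0| := by
  rw [lift0_sub, EuclideanSpace.norm_single, Real.norm_eq_abs]

theorem ext_EE (n : ℕ) (x z : EE n) (h0 : x 0 = z 0) (hs : ∀ j : Fin (n + 1), x j.succ = z j.succ) :
    x = z := by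
  ext i
  exact Fin.cases h0 hs i

theorem measurable_coordE (n : ℕ) (i : Fin (n + 2)) : Measurable (fun x : EE n => x i) := by
  fun_prop

theorem bump_measure_eq (n : ℕ) (φ : ℝ → ℝ) (hφ : Continuous φ) (c₀ : ℝ) :
    (volume.withDensity fun x : EE n => ENNReal.ofReal (bumpF n φ c₀ x ^ 2)) =
      ((volume.withDensity fun t : ℝ => ENNReal.ofReal (φ t ^ 2)).prod
        (volume.withDensity fun y : Fin (n + 1) → ℝ =>
          ENNReal.ofReal (c₀ ^ 2 * ∏ j, φ (y j) ^ 2))).map (eSplit n).symm := by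
  have hf : Measurable (fun t : ℝ => ENNReal.ofReal (φ t ^ 2)) := by fun_prop
  have hg : Measurable (fun y : Fin (n + 1) → ℝ => ENNReal.ofReal (c₀ ^ 2 * ∏ j, φ (y j) ^ 2)) := by
    apply ENNReal.measurable_ofReal.comp
    apply Measurable.const_mul
    exact Finset.measurable_prod _ (fun j _ => ((hφ.measurable.comp (measurable_pi_apply j)).pow_const 2))
  have hD : Measurable (fun x : EE n => ENNReal.ofReal (bumpF n φ c₀ x ^ 2)) := by
    apply ENNReal.measurable_ofReal.comp
    apply Measurable.pow_const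
    unfold bumpF
    apply Measurable.const_mul
    exact Finset.measurable_prod _ (fun j _ => (hφ.measurable.comp (measurable_coordE n j)))
  rw [prod_withDensity hf hg, ← withDensity_map_equiv (eSplit n).symm (eSplit_mp n).symm _ hD]
  congr 1
  rw [← Measure.volume_eq_prod]
  congr 1
  funext p
  rw [← ENNReal.ofReal_mul (by positivity)]
  congr 1
  unfold bumpF
  rw [Fin.prod_univ_succ, eSplit_symm_zero]
  simp only [eSplit_symm_succ]
  rw [mul_pow, mul_pow, Finset.prod_pow]
  ring

theorem split_E (n : ℕ) (φ : ℝ → ℝ) (hφ : Continuous φ) (δ : ℝ) (hδ : 0 < δ)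
    (hpos : ∀ t ∈ Ioo (-δ) δ, 0 < φ t) (hzero : ∀ t, t ∉ Ioo (-δ) δ → φ t = 0) (c₀ : ℝ)
    (η : ℝ) (hη : 0 < η) :
    ∃ (Ξ Θ : Bool → EE n → EE n) (A : Bool → Set (EE n)),
      (∀ i, Measurable (Ξ i)) ∧ (∀ i, Measurable (Θ i)) ∧ (∀ i, MeasurableSet (A i)) ∧
      Disjoint (A true) (A false) ∧
      (∀ i, ∀ x ∈ cube n δ, Ξ i x ∈ A i ∧ Ξ i x ∈ cube n δ ∧ Θ i (Ξ i x) = x ∧ ‖Ξ i x - x‖ ≤ η) ∧
      (volume.withDensity fun x => ENNReal.ofReal (bumpF n φ c₀ x ^ 2)).map (Ξ true)
        + (volume.withDensity fun x => ENNReal.ofReal (bumpF n φ c₀ x ^ 2)).map (Ξ false)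
        = (volume.withDensity fun x => ENNReal.ofReal (bumpF n φ c₀ x ^ 2))
          + (volume.withDensity fun x => ENNReal.ofReal (bumpF n φ c₀ x ^ 2)) := by
  obtain ⟨ξ, θ, A₁, hξ, hθ, hA₁, hdisj, hprop, hmeas⟩ :=
    oneD_split (fun t => φ t ^ 2) (hφ.pow 2) δ hδ (fun t ht => by have := hpos t ht; positivity)
      (fun t ht => by simp [hzero t ht]) η hη
  refine ⟨fun i => lift0 n (ξ i), fun i => lift0 n (θ i), fun i => {x | x 0 ∈ A₁ i},
    fun i => measurable_lift0 n _ (hξ i), fun i => measurable_lift0 n _ (hθ i),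
    fun i => measurable_coordE n 0 (hA₁ i), ?_, ?_, ?_⟩
  · rw [Set.disjoint_left] at hdisj ⊢
    intro x hx hx'
    exact hdisj hx hx'
  · intro i x hx
    obtain ⟨h1, h2, h3, h4⟩ := hprop i (x 0) (hx 0)
    refine ⟨?_, ?_, ?_, ?_⟩
    · show lift0 n (ξ i) x 0 ∈ A₁ i
      rw [lift0_zero]; exact h1
    · intro j
      refine Fin.cases ?_ (fun k => ?_) j
      · rw [lift0_zero]; exact h2
      · rw [lift0_succ]; exact hx _
    · apply ext_EE
      · rw [lift0_zero, lift0_zero, h3]
      · intro j; rw [lift0_succ, lift0_succ]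
    · rw [norm_lift0_sub]; exact h4
  · set m₁ : Measure ℝ := volume.withDensity fun t : ℝ => ENNReal.ofReal (φ t ^ 2) with hm₁
    set ν' : Measure (Fin (n + 1) → ℝ) := volume.withDensity fun y : Fin (n + 1) → ℝ =>
          ENNReal.ofReal (c₀ ^ 2 * ∏ j, φ (y j) ^ 2) with hν'
    rw [bump_measure_eq n φ hφ c₀]
    have hmap : ∀ i, ((m₁.prod ν').map (eSplit n).symm).map (lift0 n (ξ i)) =
        ((m₁.map (ξ i)).prod ν').map (eSplit n).symm := by
      intro i
      rw [Measure.map_map (measurable_lift0 n _ (hξ i)) (eSplit n).symm.measurable]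
      have h1 : (m₁.map (ξ i)).prod ν' = (m₁.prod ν').map (Prod.map (ξ i) id) := by
        conv_lhs => rw [← Measure.map_id (μ := ν')]
        exact Measure.map_prod_map m₁ ν' (hξ i) measurable_id
      rw [h1, Measure.map_map (eSplit n).symm.measurable ((hξ i).prodMap measurable_id)]
      have h2 : lift0 n (ξ i) ∘ (eSplit n).symm = (eSplit n).symm ∘ Prod.map (ξ i) id := by
        funext p
        simp [lift0]
      rw [h2]
    rw [hmap true, hmap false, ← Measure.map_add _ _ (eSplit n).symm.measurable,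
      ← Measure.map_add _ _ (eSplit n).symm.measurable, ← Measure.add_prod, ← Measure.add_prod,
      hmeas]

end Crest.Agent.R130
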