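/-
R130: existence of a set-up on `EE n` (glue).
-/
import Crest.Agent.R130.Bump
import Crest.Agent.R130.SplitE
import Crest.Agent.R130.LocExists

set_option autoImplicit false
open MeasureTheory Set Metric
open scoped ENNReal ContDiff RealInnerProductSpace

namespace Crest.Agent.R130

theorem exists_setup (n : ℕ) (s : ℝ) (hs : 0 < s) : Nonempty (Setup s (EE n)) := by
  obtain ⟨loc⟩ := exists_loc s hs (e1 n) (e1_norm n)
  obtain ⟨δ, φ, c₀, hδ, hφ, hpos, hzero, hc₀, hcube, hts, hcs, hmass⟩ := exists_bump n loc.r loc.r_pos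
  have hφ0 : ∀ t, 0 ≤ φ t := by
    intro t
    by_cases ht : t ∈ Ioo (-δ) δ
    · exact (hpos t ht).le
    · exact (hzero t ht).ge
  exact ⟨{
    hs := hs
    e := e1 n
    he := e1_norm n
    R := Rsw n
    R_invol := Rsw_invol n
    R_orth := e1_orth n
    loc := loc
    f := bumpF n φ c₀
    C := cube n δ
    f_smooth := bumpF_smooth n φ hφ c₀
    f_nonneg := bumpF_nonneg n φ hφ0 c₀ hc₀.le
    f_compact := hcs
    f_tsupport := hts
    C_meas := cube_meas n δ
    C_sub := hcube
    f_zero := bumpF_zero n φ δ hzero c₀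
    C_R := cube_R n δ
    f_R := bumpF_R n φ c₀
    mass := hmass
    split := fun η hη => split_E n φ hφ.continuous δ hδ hpos hzero c₀ η hη }⟩

end Crest.Agent.R130
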